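import Vale.Agent.P199.Idem

set_option linter.unusedSectionVars false

namespace Vale.Agent.P199
open Finset Module Submodule Matrix

variable {k : Type*} [Field k] {e : ℕ} [NeZero e]

/-- Clock and shift matrices. -/
structure CS (ζ : k) (X Y : Matrix (ZMod e) (ZMod e) k) : Prop where
  prim : IsPrimitiveRoot ζ e
  comm : Y * X = ζ • (X * Y)
  Xe : X ^ e = 1
  Ye : Y ^ e = 1

theorem exists_CS {ζ : k} (h : IsPrimitiveRoot ζ e) :
    ∃ X Y : Matrix (ZMod e) (ZMod e) k, CS ζ X Y := by
  refine ⟨diagonal fun p => ζ ^ p.val, (Equiv.addRight (1 : ZMod e)).permMatrix k, h, ?_, ?_, ?_⟩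
  · ext p q
    simp only [mul_diagonal, Matrix.smul_apply, diagonal_mul, Equiv.Perm.permMatrix,
      PEquiv.toMatrix_apply, Equiv.toPEquiv_apply, Option.mem_def, Option.some.injEq,
      Equiv.coe_addRight, smul_eq_mul]
    split_ifs with hpq
    · rw [← hpq, ZMod.val_add, ← pow_eq_pow_mod _ h.pow_eq_one, ZMod.val_one_eq_one_mod, pow_add,
        ← pow_eq_pow_mod _ h.pow_eq_one]
      ring
    · simp
  · rw [diagonal_pow, ← diagonal_one]
    congr 1
    funext p
    rw [Pi.pow_apply, ← pow_mul, mul_comm, pow_mul, h.pow_eq_one, one_pow]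
  · have : ∀ m : ℕ, (Equiv.addRight (1 : ZMod e)).permMatrix k ^ m =
        (Equiv.addRight (m : ZMod e)).permMatrix k := by
      intro m
      induction m with
      | zero => simp
      | succ m ih =>
        rw [pow_succ, ih, ← permMatrix_mul]
        congr 1
        ext p
        simp [add_assoc]
    rw [this]; simp

theorem CS.map {k' : Type*} [Field k'] {ζ : k} {X Y : Matrix (ZMod e) (ZMod e) k} (h : CS ζ X Y)
    (j : k →+* k') : CS (j ζ) (X.map j) (Y.map j) where
  prim := h.prim.map_of_injective j.injective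
  comm := by
    rw [← Matrix.map_mul, h.comm, ← Matrix.map_mul]
    ext; simp only [Matrix.map_apply, Matrix.smul_apply, smul_eq_mul, map_mul]
  Xe := by rw [← Matrix.map_pow, h.Xe, Matrix.map_one _ (map_zero j) (map_one j)]
  Ye := by rw [← Matrix.map_pow, h.Ye, Matrix.map_one _ (map_zero j) (map_one j)]

/-- The monomials in clock and shift. -/
def Wm {A : Type*} [CommRing A] (X Y : Matrix (ZMod e) (ZMod e) A) (l : ZMod e × ZMod e) :
    Matrix (ZMod e) (ZMod e) A := X ^ l.1.val * Y ^ l.2.val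

theorem Wm_map {A A' : Type*} [CommRing A] [CommRing A'] (j : A →+* A')
    (X Y : Matrix (ZMod e) (ZMod e) A) (l) : (Wm X Y l).map j = Wm (X.map j) (Y.map j) l := by
  simp [Wm, Matrix.map_mul, Matrix.map_pow]

@[simp] theorem Wm_zero {A : Type*} [CommRing A] (X Y : Matrix (ZMod e) (ZMod e) A) :
    Wm X Y 0 = 1 := by simp [Wm]

theorem Wm_nat {A : Type*} [CommRing A] (X Y : Matrix (ZMod e) (ZMod e) A) {a b : ℕ}
    (ha : a < e) (hb : b < e) : Wm X Y ((a : ZMod e), (b : ZMod e)) = X ^ a * Y ^ b := by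
  simp [Wm, Nat.mod_eq_of_lt, ha, hb]

theorem sum_val {M : Type*} [AddCommMonoid M] (f : ℕ → M) :
    ∑ p : ZMod e, f p.val = ∑ i ∈ range e, f i :=
  sum_nbij' ZMod.val Nat.cast (by simp [ZMod.val_lt]) (by simp) (by simp)
    (by simp +contextual [Nat.mod_eq_of_lt]) (by simp)

/-- Gaussian binomial coefficients. -/
def cq (ζ : k) : ℕ → ℕ → k
  | 0, _ => 1
  | _ + 1, 0 => 1
  | a + 1, b + 1 => cq ζ a (b + 1) + ζ ^ (a + 1) * cq ζ (a + 1) b

theorem cq_zero_right (ζ : k) (a) : cq ζ a 0 = 1 := by cases a <;> simp [cq]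

theorem cq_mul (ζ : k) (a b : ℕ) : cq ζ a b * (∏ i ∈ range a, (1 - ζ ^ (i + 1))) *
    (∏ i ∈ range b, (1 - ζ ^ (i + 1))) = ∏ i ∈ range (a + b), (1 - ζ ^ (i + 1)) := by
  induction a generalizing b with
  | zero => simp [cq]
  | succ a iha =>
    induction b with
    | zero => simp [cq]
    | succ b ihb =>
      have h1 := iha (b + 1)
      rw [show a + (b + 1) = a + 1 + b by ring] at h1
      rw [cq, ← add_assoc, prod_range_succ _ (a + 1 + b)]
      rw [prod_range_succ _ a] at ihb ⊢
      rw [prod_range_succ _ b] at h1 ⊢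
      linear_combination (1 - ζ ^ (a + 1)) * h1 + ζ ^ (a + 1) * (1 - ζ ^ (b + 1)) * ihb

namespace CS
variable {ζ : k} {X Y : Matrix (ZMod e) (ZMod e) k} (h : CS ζ X Y)
include h

theorem Y_Xpow (a : ℕ) : Y * X ^ a = ζ ^ a • (X ^ a * Y) := by
  induction a with
  | zero => simp
  | succ a ih =>
    rw [pow_succ, ← mul_assoc, ih, smul_mul_assoc, mul_assoc, h.comm, mul_smul_comm, smul_smul,
      pow_succ, mul_assoc]

theorem Ypow_Xpow (a b : ℕ) : Y ^ b * X ^ a = ζ ^ (a * b) • (X ^ a * Y ^ b) := by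
  induction b with
  | zero => simp
  | succ b ih =>
    rw [pow_succ', mul_assoc, ih, mul_smul_comm, ← mul_assoc, h.Y_Xpow, smul_mul_assoc, smul_smul,
      mul_assoc, ← pow_add, mul_add, mul_one]

theorem Wm_mul (l l' : ZMod e × ZMod e) :
    Wm X Y l * Wm X Y l' = ζ ^ (l'.1.val * l.2.val) • Wm X Y (l + l') := by
  simp only [Wm, Prod.fst_add, Prod.snd_add, ZMod.val_add, ← pow_eq_pow_mod _ h.Xe,
    ← pow_eq_pow_mod _ h.Ye, pow_add]
  rw [mul_assoc, ← mul_assoc (Y ^ _), h.Ypow_Xpow]
  simp only [smul_mul_assoc, mul_smul_comm, mul_assoc]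

theorem trace_pow {a b : ℕ} (ha : a < e) (hb : b < e) (hab : a ≠ 0 ∨ b ≠ 0) :
    (X ^ a * Y ^ b).trace = 0 := by
  have he : e - 1 + 1 = e := Nat.sub_add_cancel NeZero.one_le
  rcases hab with h0 | h0
  · have h1 : (X ^ a * Y ^ b).trace = ζ ^ a * (X ^ a * Y ^ b).trace := by
      calc _ = (X ^ a * Y ^ b * Y ^ (e - 1) * Y).trace := by
            rw [mul_assoc (X ^ a * Y ^ b), ← pow_succ, he, h.Ye, mul_one]
        _ = (Y * X ^ a * (Y ^ b * Y ^ (e - 1))).trace := by
            rw [trace_mul_comm]; simp only [mul_assoc]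
        _ = _ := by
            rw [h.Y_Xpow, smul_mul_assoc, trace_smul, smul_eq_mul, mul_assoc, ← pow_add,
              ← pow_succ', add_assoc, he, pow_add, h.Ye, mul_one]
    have h2 := h.prim.pow_ne_one_of_pos_of_lt h0 ha
    by_contra hne
    exact h2 (mul_right_cancel₀ hne (by rw [← h1, one_mul]))
  · have h1 : (X ^ a * Y ^ b).trace = ζ ^ b * (X ^ a * Y ^ b).trace := by
      calc _ = (X * (X ^ (e - 1) * (X ^ a * Y ^ b))).trace := by
            rw [← mul_assoc X, ← pow_succ', he, h.Xe, one_mul]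
        _ = (X ^ (e - 1) * X ^ a * (Y ^ b * X ^ 1)).trace := by
            rw [trace_mul_comm]; simp only [mul_assoc, pow_one]
        _ = _ := by
            rw [h.Ypow_Xpow, mul_smul_comm, trace_smul, smul_eq_mul, one_mul, ← mul_assoc,
              ← pow_add, ← pow_add, add_right_comm, he, pow_add, h.Xe, one_mul]
    have h2 := h.prim.pow_ne_one_of_pos_of_lt h0 hb
    by_contra hne
    exact h2 (mul_right_cancel₀ hne (by rw [← h1, one_mul]))

theorem trace_Wm (l : ZMod e × ZMod e) : (Wm X Y l).trace = if l = 0 then (e : k) else 0 := by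
  split_ifs with hl
  · simp [hl]
  · refine h.trace_pow (ZMod.val_lt _) (ZMod.val_lt _) ?_
    by_contra hne
    push Not at hne
    exact hl (Prod.ext ((ZMod.val_eq_zero _).mp hne.1) ((ZMod.val_eq_zero _).mp hne.2))

theorem zeta_ne : ζ ≠ 0 := h.prim.ne_zero (NeZero.ne e)

variable [CharZero k]

theorem li_Wm : LinearIndependent k (Wm X Y) := by
  rw [Fintype.linearIndependent_iff]
  intro g hg l
  have := congrArg (fun M => (M * Wm X Y (-l)).trace) hg
  simp only [sum_mul, smul_mul_assoc, trace_sum, trace_smul, h.Wm_mul, h.trace_Wm, zero_mul,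
    trace_zero, smul_eq_mul, add_neg_eq_zero] at this
  simpa [h.zeta_ne, NeZero.ne e] using this

/-- The monomials form a basis. -/
noncomputable def basis : Basis (ZMod e × ZMod e) k (Matrix (ZMod e) (ZMod e) k) :=
  basisOfLinearIndependentOfCardEqFinrank h.li_Wm (by simp [finrank_mat, sq])

@[simp] theorem basis_apply (l) : h.basis l = Wm X Y l := by simp [basis]

theorem span_Wm (H : Matrix (ZMod e) (ZMod e) k) : ∃ c : ZMod e × ZMod e → k,
    H = ∑ l, c l • Wm X Y l := ⟨h.basis.repr H, by simpa using (h.basis.sum_repr H).symm⟩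

omit [CharZero k] in
theorem binom (α β : k) (m : ℕ) : (α • X + β • Y) ^ m =
    ∑ p ∈ antidiagonal m, (cq ζ p.1 p.2 * α ^ p.1 * β ^ p.2) • (X ^ p.1 * Y ^ p.2) := by
  induction m with
  | zero => simp [cq]
  | succ m ih =>
    have h1 : ∑ p ∈ antidiagonal (m + 1), (cq ζ p.1 p.2 * α ^ p.1 * β ^ p.2) • (X ^ p.1 * Y ^ p.2) =
        ∑ p ∈ antidiagonal (m + 1), ((if p.1 = 0 then 0 else cq ζ (p.1 - 1) p.2) * α ^ p.1 *
          β ^ p.2) • (X ^ p.1 * Y ^ p.2) + ∑ p ∈ antidiagonal (m + 1),
          ((if p.2 = 0 then 0 else ζ ^ p.1 * cq ζ p.1 (p.2 - 1)) * α ^ p.1 * β ^ p.2) •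
            (X ^ p.1 * Y ^ p.2) := by
      rw [← sum_add_distrib]
      refine sum_congr rfl ?_
      rintro ⟨a, b⟩ hp
      rw [← add_smul, ← add_mul, ← add_mul]
      congr 3
      rcases a with _ | a <;> rcases b with _ | b
      · simp at hp
      · simp [cq]
      · simp [cq_zero_right]
      · simp [cq]
    rw [h1, Finset.Nat.sum_antidiagonal_succ, Finset.Nat.sum_antidiagonal_succ', pow_succ', ih,
      add_mul, mul_sum, mul_sum]
    simp only [if_true, zero_mul, zero_smul, zero_add, Nat.add_eq_zero_iff, one_ne_zero, and_false,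
      if_false, Nat.add_sub_cancel]
    congr 1
    · refine sum_congr rfl fun p _ => ?_
      rw [smul_mul_assoc, mul_smul_comm, smul_smul, ← mul_assoc X, ← pow_succ']
      congr 1; ring
    · refine sum_congr rfl fun p _ => ?_
      rw [smul_mul_assoc, mul_smul_comm, smul_smul, ← mul_assoc Y, h.Y_Xpow, smul_mul_assoc,
        smul_smul, mul_assoc (X ^ _), ← pow_succ']
      congr 1; ring

omit [CharZero k] in
theorem prod_ne {m : ℕ} (hm : m < e) : ∏ i ∈ range m, (1 - ζ ^ (i + 1)) ≠ 0 :=
  prod_ne_zero_iff.mpr fun i hi => sub_ne_zero.mpr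
    (h.prim.pow_ne_one_of_pos_of_lt (by omega) (by have := mem_range.mp hi; omega)).symm

omit [CharZero k] in
theorem cq_ne {a b : ℕ} (hab : a + b < e) : cq ζ a b ≠ 0 := fun h0 => by
  have := cq_mul ζ a b
  rw [h0, zero_mul, zero_mul] at this
  exact h.prod_ne hab this.symm

omit [CharZero k] in
theorem binom_e (α β : k) : (α • X + β • Y) ^ e = (α ^ e + β ^ e) • 1 := by
  obtain ⟨m, hm⟩ : ∃ m, e = m + 1 := ⟨e - 1, (Nat.sub_add_cancel NeZero.one_le).symm⟩
  have hz : ∀ a b, a + 1 + (b + 1) = e → cq ζ (a + 1) (b + 1) = 0 := by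
    intro a b hab
    have := cq_mul ζ (a + 1) (b + 1)
    rw [hab, prod_eq_zero (s := range e) (i := m) (by simp [hm])
      (by rw [← hm, h.prim.pow_eq_one, sub_self]), mul_eq_zero, mul_eq_zero] at this
    exact (this.resolve_right (h.prod_ne (by omega))).resolve_right (h.prod_ne (by omega))
  rw [h.binom, sum_eq_add (e, 0) (0, e) (by simp [NeZero.ne e])]
  · simp [cq, cq_zero_right, h.Xe, h.Ye, add_smul]
  · rintro ⟨a, b⟩ hp ⟨h1, h2⟩
    rw [HasAntidiagonal.mem_antidiagonal] at hp
    rcases a with _ | a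
    · exact absurd (by simpa using hp) h2
    rcases b with _ | b
    · exact absurd (by simpa using hp) h1
    simp [hz a b hp]
  · simp
  · simp

omit [CharZero k] in
theorem trace_binom (α β : k) {m : ℕ} (h0 : m ≠ 0) (hm : m < e) :
    ((α • X + β • Y) ^ m).trace = 0 := by
  rw [h.binom, trace_sum]
  refine sum_eq_zero fun p hp => ?_
  rw [HasAntidiagonal.mem_antidiagonal] at hp
  rw [trace_smul, h.trace_pow (by omega) (by omega) (by omega), smul_zero]

end CS

/-- Spectral data of a family of matrices with simple spectrum in general position. -/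
structure Pen {J E : Type*} [Fintype J] [Fintype E] [DecidableEq E] (A : J → Matrix E E k) where
  η : J → E → k
  π : J → E → Matrix E E k
  oi : ∀ j, OI (π j)
  tr : ∀ j p, (π j p).trace = 1
  eigL : ∀ j p, A j * π j p = η j p • π j p
  eigR : ∀ j p, π j p * A j = η j p • π j p
  inj : ∀ j, Function.Injective (η j)
  PL : ∀ γ : J → E → k, ∑ j, ∑ p, γ j p • π j p = 0 → ∀ j, γ j = 0 ∨
    ∃ S : Finset E, S.card < Fintype.card J ∧ ∀ p, p ∉ S → γ j p ≠ 0

theorem CS.exists_pen [CharZero k] {ζ : k} {X Y : Matrix (ZMod e) (ZMod e) k} (h : CS ζ X Y)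
    {J : Type*} [Fintype J] (α β ω : J → k) (hα : ∀ j, α j ≠ 0)
    (hr : ∀ j j', α j * β j' = α j' * β j → j = j') (hω : ∀ j, ω j ≠ 0)
    (hωe : ∀ j, ω j ^ e = α j ^ e + β j ^ e) : Nonempty (Pen fun j => α j • X + β j • Y) := by
  classical
  set A := fun j => α j • X + β j • Y with hA
  let η : J → ZMod e → k := fun j p => ω j * ζ ^ p.val
  have hη : ∀ j p, η j p ≠ 0 := fun j p => mul_ne_zero (hω j) (pow_ne_zero _ h.zeta_ne)
  have he : (e : k) ≠ 0 := Nat.cast_ne_zero.mpr (NeZero.ne e)
  have hηe : ∀ j p, η j p ^ e = ω j ^ e := fun j p => by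
    rw [mul_pow, ← pow_mul, mul_comm p.val, pow_mul, h.prim.pow_eq_one, one_pow, mul_one]
  let π : J → ZMod e → Matrix (ZMod e) (ZMod e) k := fun j p =>
    ∑ m ∈ range e, ((e : k)⁻¹ * (η j p)⁻¹ ^ m) • A j ^ m
  have eigL : ∀ j p, A j * π j p = η j p • π j p := fun j p => by
    have h1 := sum_range_succ (fun m => ((e : k)⁻¹ * (η j p)⁻¹ ^ m * η j p) • A j ^ m) e
    rw [sum_range_succ'] at h1
    have h2 : ((e : k)⁻¹ * (η j p)⁻¹ ^ e * η j p) • A j ^ e =
        ((e : k)⁻¹ * (η j p)⁻¹ ^ 0 * η j p) • A j ^ 0 := by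
      rw [hA, h.binom_e, ← hωe, ← hηe j p, smul_smul, pow_zero, pow_zero]
      congr 1
      have := hη j p
      rw [inv_pow]
      field_simp
    rw [h2, add_left_inj] at h1
    simp only [π, mul_sum, smul_sum, mul_smul_comm, smul_smul, ← pow_succ']
    convert h1 using 2 with m _ m _
    · congr 1
      have := hη j p
      field_simp
      rw [pow_succ]; field_simp
    · congr 1; ring
  have hc : ∀ j p, π j p * A j = A j * π j p := fun j p => by
    simp only [π, mul_sum, sum_mul, mul_smul_comm, smul_mul_assoc, ← pow_succ', ← pow_succ]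
  have inj : ∀ j, Function.Injective (η j) := fun j p q hpq =>
    ZMod.val_injective e (h.prim.pow_inj (ZMod.val_lt _) (ZMod.val_lt _)
      (mul_left_cancel₀ (hω j) hpq))
  have orth : ∀ j p q, p ≠ q → π j p * π j q = 0 := fun j p q hpq => by
    have : (η j p - η j q) • (π j p * π j q) = 0 := by
      rw [sub_smul, ← smul_mul_assoc, ← mul_smul_comm, ← eigL, ← eigL, ← hc, mul_assoc, sub_self]
    exact (smul_eq_zero.mp this).resolve_left (sub_ne_zero.mpr ((inj j).ne hpq))
  have hsum : ∀ j, ∑ p, π j p = 1 := fun j => by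
    simp only [π]
    rw [sum_comm, sum_eq_single 0]
    · simp [← Nat.cast_smul_eq_nsmul k, smul_smul, he]
    · intro m hm hm0
      rw [← sum_smul]
      have h1 : ∑ p : ZMod e, (e : k)⁻¹ * (η j p)⁻¹ ^ m =
          (e : k)⁻¹ * (ω j)⁻¹ ^ m * ∑ i ∈ range e, (ζ⁻¹ ^ m) ^ i := by
        rw [← sum_val, mul_sum]
        refine sum_congr rfl fun p _ => ?_
        simp only [η, mul_inv, mul_pow, ← inv_pow, ← pow_mul, mul_comm m]; ring
      have h2 : ζ⁻¹ ^ m ≠ 1 := h.prim.inv.pow_ne_one_of_pos_of_lt hm0 (mem_range.mp hm)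
      rw [h1, geom_sum_eq h2, ← pow_mul, mul_comm m, pow_mul, h.prim.inv.pow_eq_one]
      simp
    · simp [NeZero.ne e]
  have oi : ∀ j, OI (π j) := fun j => ⟨orth j, fun p => by
    conv_rhs => rw [← mul_one (π j p), ← hsum j, mul_sum]
    exact (sum_eq_single p (fun q _ hq => orth j p q hq.symm) (by simp)).symm, hsum j⟩
  have tr : ∀ j p, (π j p).trace = 1 := fun j p => by
    simp only [π, trace_sum, trace_smul]
    rw [sum_eq_single 0]
    · simp [he]
    · intro m hm hm0
      rw [hA, h.trace_binom _ _ hm0 (mem_range.mp hm), smul_zero]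
    · simp [NeZero.ne e]
  refine ⟨⟨η, π, oi, tr, eigL, fun j p => by rw [hc, eigL], inj, fun γ hγ j₀ => ?_⟩⟩
  let g : J → ℕ → k := fun j m => ∑ p, γ j p * ((e : k)⁻¹ * (η j p)⁻¹ ^ m)
  have hg : ∀ j, ∑ p, γ j p • π j p = ∑ m ∈ range e, g j m • A j ^ m := fun j => by
    simp only [π, g, smul_sum, smul_smul, sum_smul]
    rw [sum_comm]
  have h1 : ∀ a b, a + b < e → ∑ j, g j (a + b) * (α j ^ a * β j ^ b) = 0 := by
    intro a b hab
    have h2 := congrArg (fun M => h.basis.repr M ((a : ZMod e), (b : ZMod e))) hγ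
    simp only [hg, hA, h.binom, map_sum, map_smul, Finsupp.coe_finsetSum, Finset.sum_apply,
      Finsupp.smul_apply, smul_eq_mul, map_zero, Finsupp.zero_apply] at h2
    refine (mul_eq_zero.mp ?_).resolve_left (h.cq_ne hab)
    rw [← h2, mul_sum]
    refine sum_congr rfl fun j _ => ?_
    have h3 : ∀ a' b', a' + b' < e → h.basis.repr (X ^ a' * Y ^ b') ((a : ZMod e), (b : ZMod e)) =
        if (a', b') = (a, b) then 1 else 0 := by
      intro a' b' h'
      rw [← Wm_nat X Y (by omega) (by omega), ← h.basis_apply, Basis.repr_self,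
        Finsupp.single_apply]
      simp only [Prod.mk.injEq, ZMod.natCast_eq_natCast_iff', Nat.mod_eq_of_lt
        (show a' < e by omega), Nat.mod_eq_of_lt (show b' < e by omega),
        Nat.mod_eq_of_lt (show a < e by omega), Nat.mod_eq_of_lt (show b < e by omega)]
    rw [sum_eq_single (a + b), sum_eq_single (a, b)]
    · rw [h3 _ _ hab]; simp; ring
    · intro p hp hne
      rw [HasAntidiagonal.mem_antidiagonal] at hp
      rw [h3 _ _ (by omega), if_neg hne, mul_zero]
    · simp
    · intro m hm hne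
      rw [sum_eq_zero, mul_zero]
      intro p hp
      rw [HasAntidiagonal.mem_antidiagonal] at hp
      rw [h3 _ _ (by have := mem_range.mp hm; omega), if_neg, mul_zero]
      rintro ⟨⟩
      exact hne hp.symm
    · simp [hab]
  have h4 : ∀ m, m < e → Fintype.card J ≤ m → g j₀ m = 0 := by
    intro m hm hJ
    let q := Fintype.equivFin J
    have := Matrix.eq_zero_of_forall_pow_sum_mul_pow_eq_zero
      (f := fun i => β (q.symm i) / α (q.symm i)) (v := fun i => g (q.symm i) m * α (q.symm i) ^ m)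
      (fun i i' hi => q.symm.injective (hr _ _ (by
        have := hα (q.symm i)
        have := hα (q.symm i')
        field_simp at hi
        rw [← hi]; ring))) fun i => by
        rw [q.symm.sum_comp fun j => g j m * α j ^ m * (β j / α j) ^ (i : ℕ)]
        have h5 := h1 (m - i) i (by omega)
        rw [Nat.sub_add_cancel (by omega)] at h5
        rw [← h5]
        refine sum_congr rfl fun j _ => ?_
        have := hα j
        conv_lhs => rw [show α j ^ m = α j ^ (m - i) * α j ^ (i : ℕ) by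
          rw [← pow_add, Nat.sub_add_cancel (by omega)]]
        rw [div_pow]; field_simp
    simpa [hα] using congrFun this (q j₀)
  let G : Polynomial k := ∑ m ∈ range e, Polynomial.monomial m (g j₀ m)
  have hG : ∀ p, γ j₀ p = G.eval (η j₀ p) := fun p => by
    have h5 := congrArg (fun M => (M * π j₀ p).trace) (hg j₀)
    have h6 : ∀ m, A j₀ ^ m * π j₀ p = η j₀ p ^ m • π j₀ p := fun m => by
      induction m with
      | zero => simp
      | succ m ih => rw [pow_succ, mul_assoc, eigL, mul_smul_comm, ih, smul_smul, pow_succ']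
    simp only [sum_mul, smul_mul_assoc, (oi j₀).mul, h6, trace_sum, trace_smul, tr, smul_eq_mul,
      apply_ite trace, trace_zero, mul_ite, mul_one, mul_zero, sum_ite_eq', mem_univ,
      if_true] at h5
    simp [h5, G, Polynomial.eval_finsetSum]
  by_cases hG0 : G = 0
  · left; funext p; simp [hG, hG0]
  · refine Or.inr ⟨univ.filter fun p => γ j₀ p = 0, ?_, by simp⟩
    have h5 : G.natDegree < Fintype.card J := by
      rw [Polynomial.natDegree_lt_iff_degree_lt hG0, Polynomial.degree_lt_iff_coeff_zero]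
      intro m hm
      simp only [G, Polynomial.finsetSum_coeff, Polynomial.coeff_monomial, sum_ite_eq', mem_range]
      split_ifs with hme
      · exact h4 m hme hm
      · rfl
    refine lt_of_le_of_lt ?_ h5
    rw [← card_image_of_injective _ (inj j₀)]
    refine Polynomial.card_le_degree_of_subset_roots fun z hz => ?_
    obtain ⟨p, hp, rfl⟩ := mem_image.mp hz
    rw [Polynomial.mem_roots hG0, Polynomial.IsRoot, ← hG]
    exact (mem_filter.mp hp).2

end Vale.Agent.P199
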