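import Vale.Agent.P199.Rank

set_option linter.unusedSectionVars false

namespace Vale.Agent.P199
open Finset Module Submodule

/-- A place of `L` with residue field `k`. -/
structure Place (L k : Type*) [Field L] [Field k] where
  V : Subring L
  red : V →+* k
  surj : Function.Surjective red
  dich : ∀ a, a ∈ V ∨ a⁻¹ ∈ V
  loc : ∀ a (h : a ∈ V), a⁻¹ ∉ V → red ⟨a, h⟩ = 0

theorem exists_place {R L F : Type} [CommRing R] [Field L] [Field F] [Algebra F R]
    (i : R →+* L) (hi : Function.Injective i) (r : R →ₐ[F] F) :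
    ∃ (k : Type) (_ : Field k) (j : F →+* k) (p : Place L k),
      ∀ a : R, ∃ h : i a ∈ p.V, p.red ⟨i a, h⟩ = j (r a) := by
  let e : R ≃+* i.range := RingEquiv.ofBijective i.rangeRestrict
    ⟨fun a b h => hi (congrArg Subtype.val h), i.rangeRestrict_surjective⟩
  let r' : i.range →+* F := r.toRingHom.comp e.symm.toRingHom
  obtain ⟨B, hB, hB'⟩ := (RingHom.ker r').image_subset_nonunits_valuationSubring
    (RingHom.ker_ne_top r')
  have hmem : ∀ a : R, i a ∈ B := fun a => hB ⟨a, rfl⟩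
  let i' : R →+* B := i.codRestrict B.toSubring hmem
  refine ⟨IsLocalRing.ResidueField B, inferInstance,
    (IsLocalRing.residue B).comp (i'.comp (algebraMap F R)),
    ⟨B.toSubring, IsLocalRing.residue B, IsLocalRing.residue_surjective (R := B), B.mem_or_inv_mem,
      fun a h h' => ?_⟩, fun a => ⟨hmem a, ?_⟩⟩
  · refine (IsLocalRing.residue_eq_zero_iff (R := B) ⟨a, h⟩).mpr ?_
    rw [IsLocalRing.mem_maximalIdeal, mem_nonunits_iff]
    intro hu
    obtain ⟨b, hb⟩ := hu.exists_right_inv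
    apply h'
    have : a * (b : L) = 1 := congrArg Subtype.val hb
    rw [inv_eq_of_mul_eq_one_right this]
    exact b.2
  · change IsLocalRing.residue B (i' a) = IsLocalRing.residue B (i' (algebraMap F R (r a)))
    rw [← sub_eq_zero, ← map_sub, ← map_sub, IsLocalRing.residue_eq_zero_iff]
    have h1 : i (a - algebraMap F R (r a)) ∈ (B.nonunits : Set L) := by
      refine hB' ⟨e (a - algebraMap F R (r a)), ?_, rfl⟩
      simp [r', RingHom.mem_ker]
    rw [← B.image_maximalIdeal] at h1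
    obtain ⟨b, hb, hb'⟩ := h1
    have : b = i' (a - algebraMap F R (r a)) := Subtype.ext hb'
    rwa [← this]

namespace Place
variable {L k : Type*} [Field L] [Field k] (p : Place L k)

/-- `a` is integral and reduces to `b`. -/
def Rd (a : L) (b : k) : Prop := ∃ h : a ∈ p.V, p.red ⟨a, h⟩ = b

variable {p}

theorem Rd.unique {a : L} {b b' : k} (h : p.Rd a b) (h' : p.Rd a b') : b = b' := by
  obtain ⟨_, rfl⟩ := h
  obtain ⟨_, rfl⟩ := h'
  rfl

theorem Rd.add {a a' : L} {b b' : k} (h : p.Rd a b) (h' : p.Rd a' b') :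
    p.Rd (a + a') (b + b') := by
  obtain ⟨h, rfl⟩ := h
  obtain ⟨h', rfl⟩ := h'
  exact ⟨add_mem h h', by rw [← map_add]; rfl⟩

theorem Rd.mul {a a' : L} {b b' : k} (h : p.Rd a b) (h' : p.Rd a' b') :
    p.Rd (a * a') (b * b') := by
  obtain ⟨h, rfl⟩ := h
  obtain ⟨h', rfl⟩ := h'
  exact ⟨mul_mem h h', by rw [← map_mul]; rfl⟩

theorem Rd.neg {a : L} {b : k} (h : p.Rd a b) : p.Rd (-a) (-b) := by
  obtain ⟨h, rfl⟩ := h
  exact ⟨neg_mem h, by rw [← map_neg]; rfl⟩

theorem Rd.sub {a a' : L} {b b' : k} (h : p.Rd a b) (h' : p.Rd a' b') :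
    p.Rd (a - a') (b - b') := by
  simpa [sub_eq_add_neg] using h.add h'.neg

theorem rd_zero : p.Rd 0 0 := ⟨zero_mem _, map_zero p.red⟩
theorem rd_one : p.Rd 1 1 := ⟨one_mem _, map_one p.red⟩

theorem rd_sum {β : Type*} (s : Finset β) {a : β → L} {b : β → k}
    (h : ∀ i ∈ s, p.Rd (a i) (b i)) : p.Rd (∑ i ∈ s, a i) (∑ i ∈ s, b i) := by
  classical
  induction s using Finset.induction_on with
  | empty => simpa using rd_zero
  | insert x s hx ih =>
    rw [sum_insert hx, sum_insert hx]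
    exact (h x (by simp)).add (ih fun i hi => h i (by simp [hi]))

theorem rd_nat (n : ℕ) : p.Rd n n := by
  induction n with
  | zero => simpa using rd_zero
  | succ n ih => simpa using ih.add rd_one

theorem Rd.inv {a : L} {b : k} (h : p.Rd a b) (hb : b ≠ 0) : p.Rd a⁻¹ b⁻¹ := by
  obtain ⟨h, rfl⟩ := h
  have h1 : a⁻¹ ∈ p.V := by
    by_contra h1
    exact hb (p.loc a h h1)
  have ha : a ≠ 0 := by
    rintro rfl
    exact hb (map_zero p.red)
  refine ⟨h1, eq_inv_of_mul_eq_one_right ?_⟩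
  rw [← map_mul, ← map_one p.red]
  congr 1
  exact Subtype.ext (mul_inv_cancel₀ ha)

theorem rd_or (a : L) : (∃ b, p.Rd a⁻¹ b) ∨ p.Rd a 0 := by
  by_cases h : a⁻¹ ∈ p.V
  · exact Or.inl ⟨_, h, rfl⟩
  · exact Or.inr ⟨(p.dich a).resolve_right h, p.loc a _ h⟩

theorem exists_rd (b : k) : ∃ a, p.Rd a b := by
  obtain ⟨a, rfl⟩ := p.surj b
  exact ⟨a, a.2, rfl⟩

variable (p) in
theorem exists_scale_aux {I : Type*} (v : I → L) (s : Finset I) (hs : ∃ i ∈ s, v i ≠ 0) :
    ∃ i ∈ s, v i ≠ 0 ∧ ∀ j ∈ s, (v i)⁻¹ * v j ∈ p.V := by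
  classical
  induction s using Finset.induction_on with
  | empty => simp at hs
  | insert x s hx ih =>
    by_cases h : ∃ i ∈ s, v i ≠ 0
    · obtain ⟨i, hi, hi0, hi'⟩ := ih h
      by_cases hx0 : (v i)⁻¹ * v x ∈ p.V
      · refine ⟨i, by simp [hi], hi0, fun j hj => ?_⟩
        rcases mem_insert.mp hj with rfl | hj
        · exact hx0
        · exact hi' j hj
      · have h1 := (p.dich _).resolve_left hx0
        have hx1 : v x ≠ 0 := by
          intro h0
          exact hx0 (by rw [h0, mul_zero]; exact zero_mem _)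
        refine ⟨x, by simp, hx1, fun j hj => ?_⟩
        rcases mem_insert.mp hj with rfl | hj
        · rw [inv_mul_cancel₀ hx1]; exact one_mem _
        · have := mul_mem h1 (hi' j hj)
          convert this using 1
          field_simp
    · push Not at h
      obtain ⟨i, hi, hi0⟩ := hs
      obtain rfl : i = x := by
        rcases mem_insert.mp hi with h1 | h1
        · exact h1
        · exact absurd (h i h1) hi0
      refine ⟨i, hi, hi0, fun j hj => ?_⟩
      rcases mem_insert.mp hj with rfl | hj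
      · rw [inv_mul_cancel₀ hi0]; exact one_mem _
      · rw [h j hj, mul_zero]; exact zero_mem _

variable (p) in
theorem exists_scale {I : Type*} [Fintype I] (v : I → L) (hv : v ≠ 0) :
    ∃ (s : L) (w : I → k) (i : I), s ≠ 0 ∧ s * v i = 1 ∧ w i = 1 ∧ ∀ j, p.Rd (s * v j) (w j) := by
  obtain ⟨i, -, hi, h⟩ := p.exists_scale_aux v univ (by simpa [funext_iff] using hv)
  refine ⟨(v i)⁻¹, fun j => p.red ⟨_, h j (mem_univ _)⟩, i, inv_ne_zero hi, inv_mul_cancel₀ hi,
    ?_, fun j => ⟨_, rfl⟩⟩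
  exact (congrArg p.red (Subtype.ext (inv_mul_cancel₀ hi))).trans (map_one p.red)

variable (p) in
/-- Reduction of a subspace. -/
def redV {I : Type*} (W : Submodule L (I → L)) : Submodule k (I → k) where
  carrier := {w | ∃ v ∈ W, ∀ j, p.Rd (v j) (w j)}
  add_mem' := by
    rintro _ _ ⟨v, hv, h⟩ ⟨v', hv', h'⟩
    exact ⟨v + v', add_mem hv hv', fun j => (h j).add (h' j)⟩
  zero_mem' := ⟨0, zero_mem _, fun _ => rd_zero⟩
  smul_mem' := by
    rintro b _ ⟨v, hv, h⟩
    obtain ⟨a, ha⟩ := p.exists_rd b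
    exact ⟨a • v, smul_mem _ _ hv, fun j => ha.mul (h j)⟩

variable (p) in
theorem finrank_le_redV {I : Type*} [Fintype I] (W : Submodule L (I → L)) :
    finrank L W ≤ finrank k (p.redV W) := by
  induction h : finrank L W generalizing W with
  | zero => exact Nat.zero_le _
  | succ m ih =>
    obtain ⟨⟨v, hv⟩, hv0⟩ := Module.finrank_pos_iff_exists_ne_zero.mp
      (show 0 < finrank L W by omega)
    obtain ⟨s, w, i, -, hs, hw, hr⟩ := p.exists_scale v fun h => hv0 (Subtype.ext h)
    let W' := W ⊓ LinearMap.ker (LinearMap.proj i : (I → L) →ₗ[L] L)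
    have h1 : finrank L W' = m := by
      have h2 := ((LinearMap.proj i : (I → L) →ₗ[L] L).domRestrict W).finrank_range_add_finrank_ker
      have h3 : LinearMap.range ((LinearMap.proj i : (I → L) →ₗ[L] L).domRestrict W) = ⊤ := by
        rw [eq_top_iff]
        intro a _
        exact ⟨⟨(a * s) • v, smul_mem _ _ hv⟩, by simp [mul_assoc, hs]⟩
      rw [h3, finrank_top, finrank_self, LinearMap.ker_domRestrict, h,
        ← finrank_map_subtype_eq, map_comap_subtype] at h2
      simp only [W']; omega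
    have h4 := ih W' h1
    have h5 : p.redV W' < p.redV W := by
      refine lt_of_le_of_ne ?_ fun he => ?_
      · rintro _ ⟨u, hu, hu'⟩
        exact ⟨u, hu.1, hu'⟩
      · have : w ∈ p.redV W' := he ▸ ⟨s • v, smul_mem _ _ hv, hr⟩
        obtain ⟨u, hu, hu'⟩ := this
        have h6 : u i = 0 := hu.2
        have := (hu' i).unique (b' := 0) (by rw [h6]; exact rd_zero)
        rw [hw] at this
        exact one_ne_zero this
    have := Submodule.finrank_lt_finrank_of_lt h5
    omega

variable (p) in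
theorem finrank_le_red {I M N : Type*} [Fintype I] [AddCommGroup M] [Module L M]
    [AddCommGroup N] [Module k N] (c : M ≃ₗ[L] (I → L)) (c' : N ≃ₗ[k] (I → k))
    (W : Submodule L M) (W' : Submodule k N)
    (h : ∀ v ∈ W, ∀ w, (∀ j, p.Rd (c v j) (c' w j)) → w ∈ W') :
    finrank L W ≤ finrank k W' := by
  rw [← c.finrank_map_eq W, ← c'.finrank_map_eq W']
  refine (p.finrank_le_redV _).trans (Submodule.finrank_mono ?_)
  rintro w ⟨_, ⟨v, hv, rfl⟩, hw⟩
  exact ⟨c'.symm w, h v hv _ (by simpa using hw), by simp⟩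

section Mat
variable {m : Type*} [Fintype m] [DecidableEq m]

variable (p) in
/-- Entrywise reduction of matrices. -/
def RdM (A : Matrix m m L) (B : Matrix m m k) : Prop := ∀ i j, p.Rd (A i j) (B i j)

theorem RdM.unique {A : Matrix m m L} {B B' : Matrix m m k} (h : p.RdM A B) (h' : p.RdM A B') :
    B = B' := Matrix.ext fun i j => (h i j).unique (h' i j)

theorem RdM.add {A A' : Matrix m m L} {B B' : Matrix m m k} (h : p.RdM A B) (h' : p.RdM A' B') :
    p.RdM (A + A') (B + B') := fun i j => (h i j).add (h' i j)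

theorem RdM.sub {A A' : Matrix m m L} {B B' : Matrix m m k} (h : p.RdM A B) (h' : p.RdM A' B') :
    p.RdM (A - A') (B - B') := fun i j => (h i j).sub (h' i j)

theorem RdM.mul {A A' : Matrix m m L} {B B' : Matrix m m k} (h : p.RdM A B) (h' : p.RdM A' B') :
    p.RdM (A * A') (B * B') := fun i j => by
  rw [Matrix.mul_apply, Matrix.mul_apply]
  exact rd_sum _ fun l _ => (h i l).mul (h' l j)

theorem Rd.smul {a : L} {b : k} {A : Matrix m m L} {B : Matrix m m k} (h : p.Rd a b)
    (h' : p.RdM A B) : p.RdM (a • A) (b • B) := fun i j => h.mul (h' i j)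

theorem rdM_zero : p.RdM (0 : Matrix m m L) 0 := fun _ _ => rd_zero

theorem rdM_one : p.RdM (1 : Matrix m m L) 1 := fun i j => by
  simp only [Matrix.one_apply]
  split_ifs
  · exact rd_one
  · exact rd_zero

theorem rdM_sum {β : Type*} (s : Finset β) {a : β → Matrix m m L} {b : β → Matrix m m k}
    (h : ∀ i ∈ s, p.RdM (a i) (b i)) : p.RdM (∑ i ∈ s, a i) (∑ i ∈ s, b i) := fun i j => by
  rw [Matrix.sum_apply, Matrix.sum_apply]
  exact rd_sum _ fun l hl => h l hl i j

theorem RdM.trace {A : Matrix m m L} {B : Matrix m m k} (h : p.RdM A B) :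
    p.Rd A.trace B.trace := rd_sum _ fun i _ => h i i

theorem RdM.pow {A : Matrix m m L} {B : Matrix m m k} (h : p.RdM A B) (n : ℕ) :
    p.RdM (A ^ n) (B ^ n) := by
  induction n with
  | zero => simpa using rdM_one
  | succ n ih => rw [pow_succ, pow_succ]; exact ih.mul h

theorem RdM.eq_zero {A : Matrix m m L} {B : Matrix m m k} (h : p.RdM A B) (hA : A = 0) :
    B = 0 := h.unique (hA ▸ rdM_zero)

theorem Rd.eq_zero {A : L} {B : k} (h : p.Rd A B) (hA : A = 0) :
    B = 0 := h.unique (hA ▸ rd_zero)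

variable (p) in
theorem exists_scaleM (A : Matrix m m L) (hA : A ≠ 0) :
    ∃ (s : L) (B : Matrix m m k), s ≠ 0 ∧ B ≠ 0 ∧ p.RdM (s • A) B := by
  obtain ⟨s, w, i, hs, -, hw, hr⟩ := p.exists_scale (unc L m A) (by simpa using hA)
  refine ⟨s, (unc k m).symm w, hs, fun h => ?_, fun a b => hr (a, b)⟩
  have : w i = 0 := congrFun₂ h i.1 i.2
  rw [hw] at this
  exact one_ne_zero this

variable (p) in
/-- Reduction of a space of matrices. -/
def redM (W : Submodule L (Matrix m m L)) : Submodule k (Matrix m m k) where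
  carrier := {w | ∃ v ∈ W, p.RdM v w}
  add_mem' := by
    rintro _ _ ⟨v, hv, h⟩ ⟨v', hv', h'⟩
    exact ⟨v + v', add_mem hv hv', h.add h'⟩
  zero_mem' := ⟨0, zero_mem _, rdM_zero⟩
  smul_mem' := by
    rintro b _ ⟨v, hv, h⟩
    obtain ⟨a, ha⟩ := p.exists_rd b
    exact ⟨a • v, smul_mem _ _ hv, ha.smul h⟩

variable (p) in
theorem finrank_le_redM (W : Submodule L (Matrix m m L)) :
    finrank L W ≤ finrank k (p.redM W) :=
  p.finrank_le_red (unc L m) (unc k m) W _ fun v hv _ h => ⟨v, hv, fun a b => h (a, b)⟩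

variable {I : Type*} [Fintype I]

variable (p) in
/-- Reduction of a space of pairs. -/
def redP (W : Submodule L ((I → L) × Matrix m m L)) : Submodule k ((I → k) × Matrix m m k) where
  carrier := {w | ∃ v ∈ W, (∀ i, p.Rd (v.1 i) (w.1 i)) ∧ p.RdM v.2 w.2}
  add_mem' := by
    rintro _ _ ⟨v, hv, h⟩ ⟨v', hv', h'⟩
    exact ⟨v + v', add_mem hv hv', fun i => (h.1 i).add (h'.1 i), h.2.add h'.2⟩
  zero_mem' := ⟨0, zero_mem _, fun _ => rd_zero, rdM_zero⟩
  smul_mem' := by
    rintro b _ ⟨v, hv, h⟩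
    obtain ⟨a, ha⟩ := p.exists_rd b
    exact ⟨a • v, smul_mem _ _ hv, fun i => ha.mul (h.1 i), ha.smul h.2⟩

variable (p) in
theorem finrank_le_redP (W : Submodule L ((I → L) × Matrix m m L)) :
    finrank L W ≤ finrank k (p.redP W) :=
  p.finrank_le_red
    (((LinearEquiv.refl L _).prodCongr (unc L m)).trans
      (LinearEquiv.sumArrowLequivProdArrow I (m × m) L L).symm)
    (((LinearEquiv.refl k _).prodCongr (unc k m)).trans
      (LinearEquiv.sumArrowLequivProdArrow I (m × m) k k).symm) W _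
    fun v hv _ h => ⟨v, hv, fun i => h (Sum.inl i), fun a b => h (Sum.inr (a, b))⟩

end Mat
end Place

end Vale.Agent.P199
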