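import Vale.Agent.P199.Jet
import Vale.Agent.P199.Place
import Vale.Agent.P199.Clock

set_option linter.unusedSectionVars false

namespace Vale.Agent.P199
open Finset Module Submodule Matrix
open scoped Kronecker

variable {L k n ι E κ : Type} [Field L] [Field k] [CharZero L] [CharZero k] [Fintype n]
  [DecidableEq n] [Fintype ι] [DecidableEq ι] [Fintype E] [DecidableEq E] [Fintype κ]
  [DecidableEq κ] [Nonempty n] [Nonempty E]

theorem bil_zero {M S : Type*} [AddCommGroup M] [Module k M] [Fintype S] (W : Basis κ k M)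
    (t t' : S → M →ₗ[k] k) (c : S → k) (h : ∀ l l', ∑ s, c s * (t s (W l) * t' s (W l')) = 0)
    (H H' : M) : ∑ s, c s * (t s H * t' s H') = 0 := by
  have : (∑ s, c s • (LinearMap.mul k k).compl₁₂ (t s) (t' s)) = 0 :=
    LinearMap.ext_basis W W fun l l' => by simpa using h l l'
  simpa using LinearMap.congr_fun₂ this H H'

/-- Reduction data relating an unfolded series to its parent. -/
structure Setup (p : Place L k) {b : NC (Matrix n n k) ι} (R : Res b)
    (B : NC (Matrix (n × E) (n × E) L) (ι × κ)) where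
  W : Basis κ k (Matrix E E k)
  Y : ι → Matrix E E k
  pen : Pen fun j => ∑ i, R.th j i • Y i
  ε : L
  ε_ne : ε ≠ 0
  ε_rd : p.Rd ε 0
  B0 : Matrix (n × E) (n × E) L
  bh : NC (Matrix (n × E) (n × E) L) (ι × κ)
  hB : B = NC.C B0 + ε • bh
  rB0 : p.RdM B0 (kL E (b []))
  rh0 : p.RdM (bh []) (∑ i, b [i] ⊗ₖ Y i)
  rh1 : ∀ i l, p.RdM (bh [(i, l)]) (b [i] ⊗ₖ W l)
  rh2 : ∀ q q', p.RdM (bh [q, q']) 0
  Pl : R.Λ → Matrix (n × E) (n × E) L
  rPl : ∀ a, p.RdM (Pl a) (kL E (R.P a))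
  hPl : ∀ a g, Pl a * (B0 * g - g * B0) * Pl a = 0

namespace Setup
variable {p : Place L k} {b : NC (Matrix n n k) ι} {R : Res b}
  {B : NC (Matrix (n × E) (n × E) L) (ι × κ)} (S : Setup p R B)

/-- The refined idempotents. -/
def Q (a : R.Λ × E) : Matrix (n × E) (n × E) k := R.P a.1 ⊗ₖ S.pen.π (R.cls a.1) a.2

/-- The reduced linear part. -/
noncomputable def T (x : ι × κ → k) : Matrix (n × E) (n × E) k := ∑ q, x q • (b [q.1] ⊗ₖ S.W q.2)

/-- The class functional applied to a direction. -/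
noncomputable def H (j : R.J) (x : ι × κ → k) : Matrix E E k := ∑ q, (R.th j q.1 * x q) • S.W q.2

theorem oiQ : OI S.Q where
  orth a a' h := by
    rw [Q, Q, ← mul_kronecker_mul]
    by_cases h1 : a.1 = a'.1
    · rw [← h1, (S.pen.oi _).orth _ _ fun h2 => h (Prod.ext h1 h2), kronecker_zero]
    · rw [R.oi.orth _ _ h1, zero_kronecker]
  idem a := by rw [Q, ← mul_kronecker_mul, R.oi.idem, (S.pen.oi _).idem]
  sum := by
    simp only [Q, Fintype.sum_prod_type, ← kron_sum, (S.pen.oi _).sum]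
    rw [← sum_kron, R.oi.sum, one_kronecker_one]

theorem trQ (a) : (S.Q a).trace = R.μ := by rw [Q, trace_kronecker, R.tr, S.pen.tr, mul_one]

theorem finrank_DiagQ : finrank k (Diag S.Q) = Fintype.card E * R.ν * R.μ ^ 2 := by
  rw [S.oiQ.finrank_Diag S.trQ, Fintype.card_prod, mul_comm (Fintype.card E)]; rfl

theorem oiP : OI fun a => kL E (R.P a) where
  orth a a' h := by rw [← map_mul, R.oi.orth _ _ h, map_zero]
  idem a := by rw [← map_mul, R.oi.idem]
  sum := by rw [← map_sum, R.oi.sum, map_one]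

theorem P_mul_Q (a q) : kL E (R.P a) * S.Q (a, q) = S.Q (a, q) := by
  rw [Q, kL_apply, ← mul_kronecker_mul, R.oi.idem, one_mul]

theorem Q_mul_P (a q) : S.Q (a, q) * kL E (R.P a) = S.Q (a, q) := by
  rw [Q, kL_apply, ← mul_kronecker_mul, R.oi.idem, mul_one]

theorem sand (a i) (M : Matrix E E k) : kL E (R.P a) * (b [i] ⊗ₖ M) * kL E (R.P a) =
    R.ρ a • (R.P a ⊗ₖ (R.th (R.cls a) i • M)) := by
  rw [kL_apply, ← mul_kronecker_mul, ← mul_kronecker_mul, R.g1, one_mul, mul_one, smul_kronecker,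
    kronecker_smul, smul_smul]

theorem sandT (a x) : kL E (R.P a) * S.T x * kL E (R.P a) =
    R.ρ a • (R.P a ⊗ₖ S.H (R.cls a) x) := by
  simp only [T, H, mul_sum, sum_mul, mul_smul_comm, smul_mul_assoc, sand, kron_sum, smul_sum,
    kronecker_smul, smul_smul]
  exact sum_congr rfl fun q _ => by congr 1; ring

theorem rd_lin1 {x : ι × κ → L} {x' : ι × κ → k} (h : ∀ q, p.Rd (x q) (x' q)) :
    p.RdM (lin1 S.bh x) (S.T x') := by
  rw [lin1_apply]
  exact Place.rdM_sum _ fun q _ => (h q).smul (S.rh1 q.1 q.2)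

theorem B_nil : B [] = S.B0 + S.ε • S.bh [] := by conv_lhs => rw [S.hB]; simp
theorem B_cons (q w) : B (q :: w) = S.ε • S.bh (q :: w) := by conv_lhs => rw [S.hB]; simp

theorem lin1_B (x) : lin1 B x = S.ε • lin1 S.bh x := by
  simp only [lin1_apply, S.B_cons, smul_sum]
  exact sum_congr rfl fun q _ => smul_comm _ _ _

theorem KR {v} (hv : v ∈ p.redP (Vt B)) : (∀ a, kL E (R.P a) * v.2 = v.2 * kL E (R.P a)) ∧
    ∀ a q q', R.P a ⊗ₖ (S.pen.π (R.cls a) q * S.H (R.cls a) v.1 * S.pen.π (R.cls a) q') +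
      (S.pen.η (R.cls a) q - S.pen.η (R.cls a) q') • (S.Q (a, q) * v.2 * S.Q (a, q')) = 0 := by
  obtain ⟨x', g'⟩ := v
  obtain ⟨⟨x, g⟩, hv, hx, hg⟩ := hv
  dsimp only at hx hg ⊢
  have h0 : (S.B0 * g - g * S.B0) + S.ε • (lin1 S.bh x + (S.bh [] * g - g * S.bh [])) = 0 := by
    have : Phi B (x, g) = 0 := hv
    rw [Phi_apply, S.lin1_B, S.B_nil] at this
    rw [← this]
    simp only [add_mul, mul_add, smul_mul_assoc, mul_smul_comm, smul_add, smul_sub]
    abel
  have r1 := (S.rd_lin1 hx).add ((S.rh0.mul hg).sub (hg.mul S.rh0))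
  have h1 : kL E (b []) * g' = g' * kL E (b []) := by
    have := (((S.rB0.mul hg).sub (hg.mul S.rB0)).add (S.ε_rd.smul r1)).eq_zero h0
    rwa [zero_smul, add_zero, sub_eq_zero] at this
  have h2 : ∀ a, kL E (R.P a) * g' = g' * kL E (R.P a) :=
    (oiP (E := E)).comm (((oiP (E := E)).mem_Diag_iff R.lam_inj
      (fun a => by rw [← map_mul, R.eigL, kL_smul]) fun a => by
        rw [← map_mul, R.eigR, kL_smul]).mpr h1)
  refine ⟨h2, fun a q q' => ?_⟩
  have h3 : S.Pl a * (lin1 S.bh x + (S.bh [] * g - g * S.bh [])) * S.Pl a = 0 := by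
    have := congrArg (fun M => S.Pl a * M * S.Pl a) h0
    simp only [mul_add _ (S.B0 * g - g * S.B0), add_mul, S.hPl, zero_add, mul_smul_comm,
      smul_mul_assoc, mul_zero, zero_mul] at this
    exact (smul_eq_zero.mp this).resolve_left S.ε_ne
  have h4 := (((S.rPl a).mul r1).mul (S.rPl a)).eq_zero h3
  set A := ∑ i, R.th (R.cls a) i • S.Y i with hA
  have h5 : kL E (R.P a) * (∑ i, b [i] ⊗ₖ S.Y i) * kL E (R.P a) = R.ρ a • (R.P a ⊗ₖ A) := by
    simp only [hA, mul_sum, sum_mul, sand, kron_sum, smul_sum]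
  have h6 : R.P a ⊗ₖ S.H (R.cls a) x' + ((R.P a ⊗ₖ A) * g' - g' * (R.P a ⊗ₖ A)) = 0 := by
    refine (smul_eq_zero.mp ?_).resolve_left (R.ρ_ne a)
    rw [smul_add, smul_sub, ← smul_mul_assoc, ← mul_smul_comm, ← h5, ← S.sandT, ← h4, mul_add,
      add_mul, mul_sub, sub_mul, ← mul_assoc g', ← mul_assoc g', ← h2]
    simp only [mul_assoc, h2]
    rw [← mul_assoc g', ← h2, mul_assoc]
  have h7 : S.Q (a, q) * (R.P a ⊗ₖ A) = S.pen.η (R.cls a) q • S.Q (a, q) := by
    rw [Q, ← mul_kronecker_mul, R.oi.idem, S.pen.eigR, kronecker_smul]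
  have h8 : (R.P a ⊗ₖ A) * S.Q (a, q') = S.pen.η (R.cls a) q' • S.Q (a, q') := by
    rw [Q, ← mul_kronecker_mul, R.oi.idem, S.pen.eigL, kronecker_smul]
  have h9 := congrArg (fun M => S.Q (a, q) * M * S.Q (a, q')) h6
  simp only [mul_add, add_mul, mul_sub, sub_mul, mul_zero, zero_mul] at h9
  rw [← mul_assoc, h7, mul_assoc _ (g' * _), mul_assoc g', h8] at h9
  rw [← h9, sub_smul]
  congr 1
  · simp only [Q, ← mul_kronecker_mul, R.oi.idem]
  · simp only [smul_mul_assoc, mul_smul_comm, mul_assoc]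

theorem off_eq_zero {g : Matrix (n × E) (n × E) k}
    (h : ∀ a, kL E (R.P a) * g = g * kL E (R.P a)) {a a' q q'} (ha : a ≠ a') :
    S.Q (a, q) * g * S.Q (a', q') = 0 := by
  rw [← S.Q_mul_P, ← S.P_mul_Q a', mul_assoc (S.Q _), h, mul_assoc, mul_assoc,
    ← mul_assoc (kL E _), (oiP (E := E)).orth _ _ ha]
  simp

theorem mem_DiagQ {g} (hv : (0, g) ∈ p.redP (Vt B)) : g ∈ Diag S.Q := by
  obtain ⟨h1, h2⟩ := S.KR hv
  refine mem_Diag.mpr ?_
  rintro ⟨a, q⟩ ⟨a', q'⟩ hne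
  by_cases ha : a = a'
  · subst ha
    have := h2 a q q'
    simp only [H, Pi.zero_apply, mul_zero, zero_smul, sum_const_zero, zero_mul, kronecker_zero,
      zero_add] at this
    exact (smul_eq_zero.mp this).resolve_left
      (sub_ne_zero.mpr ((S.pen.inj _).ne fun h => hne (by rw [h])))
  · exact S.off_eq_zero h1 ha

theorem red_comm {c c'} (hc : B [] * c = c * B []) (h : p.RdM c c') : c' ∈ Diag S.Q :=
  S.mem_DiagQ ⟨(0, c), by
    change Phi B (0, c) = 0
    simp [Phi_apply, hc], fun _ => Place.rd_zero, h⟩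

variable (R' : Res B)

theorem red_le : p.redM (Diag R'.P) ≤ Diag S.Q := by
  rintro _ ⟨c, hc, h⟩
  exact S.red_comm (R'.mem_Diag.mp hc) h

theorem ν_mul : R'.ν * R'.μ = Fintype.card E * R.ν * R.μ := by
  rw [R'.ν_mul, mul_assoc, R.ν_mul, Fintype.card_prod, mul_comm]

include S in
theorem μ_le : R'.μ ≤ R.μ := by
  have h1 := (p.finrank_le_redM _).trans (Submodule.finrank_mono (S.red_le R'))
  rw [R'.finrank_Diag, S.finrank_DiagQ, sq, sq, ← mul_assoc, ← mul_assoc, ← ν_mul (R := R) R'] at h1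
  refine Nat.le_of_mul_le_mul_left h1 ?_
  rw [R'.ν_mul]
  exact Fintype.card_pos

variable {R'} (hμ : R'.μ = R.μ)
include hμ

theorem ν_eq : R'.ν = Fintype.card E * R.ν :=
  Nat.eq_of_mul_eq_mul_right R.μ_pos (by rw [← ν_mul (R := R) R', hμ])

theorem exists_red_P (a : R'.Λ) : ∃ q, p.RdM (R'.P a) (S.Q q) := by
  classical
  have heq : p.redM (Diag R'.P) = Diag S.Q := by
    refine eq_of_le_of_finrank_le (S.red_le R') (le_trans (le_of_eq ?_) (p.finrank_le_redM _))
    rw [R'.finrank_Diag, S.finrank_DiagQ, hμ, ν_eq hμ]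
  have hQ : ∀ q, (S.Q q).trace ≠ 0 := fun q => by
    rw [S.trQ]; exact Nat.cast_ne_zero.mpr R.μ_pos.ne'
  have hcen : ∀ (s : L) z, p.RdM (s • R'.P a) z → ∃ t : R.Λ × E → k, z = ∑ q, t q • S.Q q := by
    intro s z hz
    refine S.oiQ.central hQ (S.red_le R' ⟨_, smul_mem _ _ (R'.oi.self_mem a), hz⟩) fun c hc => ?_
    obtain ⟨c', hc', h⟩ : c ∈ p.redM (Diag R'.P) := heq ▸ hc
    refine (hz.mul h).unique ?_
    rw [smul_mul_assoc, R'.oi.comm hc', ← mul_smul_comm]
    exact h.mul hz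
  have hsq : ∀ (t : R.Λ × E → k) (u : k), (∑ q, t q • S.Q q) * (∑ q, t q • S.Q q) =
      u • ∑ q, t q • S.Q q → ∀ q, t q * t q = u * t q := by
    intro t u h q
    have h1 : (∑ q, t q • S.Q q) * S.Q q = t q • S.Q q := by
      simp [sum_mul, S.oiQ.mul]
    have h2 := congrArg (fun M => (M * S.Q q).trace) h
    simp only [mul_assoc, h1, mul_smul_comm, smul_mul_assoc, trace_smul, smul_eq_mul] at h2
    exact mul_right_cancel₀ (hQ q) (by rw [mul_assoc, mul_assoc, h2])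
  obtain ⟨s, z, hs, hz, hr⟩ := p.exists_scaleM _ (R'.P_ne a)
  rcases p.rd_or s with ⟨u, hu⟩ | hu
  · have h1 := hu.smul hr
    rw [smul_smul, inv_mul_cancel₀ hs] at h1
    obtain ⟨t, ht⟩ := hcen _ _ h1
    rw [one_smul, ht] at h1
    have h2 := hsq t 1 (by
      refine (h1.mul h1).unique ?_
      rw [R'.oi.idem, one_smul]; exact h1)
    have h3 : ∀ q, t q = if t q = 0 then 0 else 1 := fun q => by
      split_ifs with h
      · exact h
      · exact mul_right_cancel₀ h (h2 q)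
    have h4 := h1.trace.unique (by rw [R'.tr]; exact Place.rd_nat _)
    rw [trace_sum, sum_congr rfl fun q _ => by rw [trace_smul, S.trQ, h3 q], hμ] at h4
    simp only [smul_eq_mul, ← sum_mul, ← ite_not (t _ = 0), sum_boole] at h4
    have h5 : (univ.filter fun q => ¬ t q = 0).card = 1 := by
      have := mul_right_cancel₀ (Nat.cast_ne_zero.mpr R.μ_pos.ne') (h4.trans (one_mul _).symm)
      exact_mod_cast this
    obtain ⟨q, hq⟩ := card_eq_one.mp h5
    have h6 : ∀ q', ¬ t q' = 0 ↔ q' = q := fun q' => by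
      simpa using Finset.ext_iff.mp hq q'
    refine ⟨q, ?_⟩
    rwa [sum_eq_single q (fun q' _ h => by
      rw [not_not.mp fun h' => h ((h6 q').mp h'), zero_smul]) (by simp), h3 q,
      if_neg ((h6 q).mpr rfl), one_smul] at h1
  · obtain ⟨t, rfl⟩ := hcen _ _ hr
    have h2 := hsq t 0 (by
      refine (hr.mul hr).unique ?_
      rw [smul_mul_assoc, mul_smul_comm, R'.oi.idem]; exact hu.smul hr)
    exact absurd (sum_eq_zero fun q _ => by
      rw [mul_self_eq_zero.mp ((h2 q).trans (zero_mul _)), zero_smul]) hz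

theorem exists_phi : ∃ φ : R'.Λ ≃ R.Λ × E, ∀ a, p.RdM (R'.P a) (S.Q (φ a)) := by
  choose φ hφ using S.exists_red_P hμ
  refine ⟨Equiv.ofBijective φ ((Fintype.bijective_iff_injective_and_card φ).mpr
    ⟨fun a a' h => ?_, ?_⟩), hφ⟩
  · by_contra hne
    have := ((hφ a).mul (hφ a')).eq_zero (R'.oi.orth _ _ hne)
    rw [← h, S.oiQ.idem] at this
    have h2 := S.trQ (φ a)
    rw [this, trace_zero, eq_comm, Nat.cast_eq_zero] at h2
    exact R.μ_pos.ne' h2
  · rw [Fintype.card_prod, mul_comm]; exact ν_eq hμ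

theorem rd_theta {a q} (h : p.RdM (R'.P a) (S.Q q)) (i l) :
    p.Rd (S.ε⁻¹ * (R'.ρ a * R'.th (R'.cls a) (i, l)))
      (R.ρ q.1 * R.th (R.cls q.1) i * (S.pen.π (R.cls q.1) q.2 * S.W l).trace) := by
  have h1 := (h.mul (S.rh1 i l)).trace.mul
    ((Place.rd_nat R.μ).inv (Nat.cast_ne_zero.mpr R.μ_pos.ne'))
  have h2 := congrArg trace (R'.g1 a (i, l))
  rw [trace_mul_cycle, R'.oi.idem, S.B_cons, mul_smul_comm, trace_smul, trace_smul, R'.tr, hμ,
    smul_eq_mul, smul_eq_mul] at h2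
  have h3 := congrArg trace (R.g1 q.1 i)
  rw [trace_mul_cycle, R.oi.idem, trace_smul, R.tr, smul_eq_mul] at h3
  rw [Q, ← mul_kronecker_mul, trace_kronecker, h3] at h1
  have := S.ε_ne
  have : (R.μ : L) ≠ 0 := Nat.cast_ne_zero.mpr R.μ_pos.ne'
  have : (R.μ : k) ≠ 0 := Nat.cast_ne_zero.mpr R.μ_pos.ne'
  convert h1 using 1
  · field_simp
    linear_combination -h2
  · field_simp

theorem cls_eq {a a' q q'} (h : p.RdM (R'.P a) (S.Q q)) (h' : p.RdM (R'.P a') (S.Q q'))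
    (hc : R'.cls a = R'.cls a') : R.cls q.1 = R.cls q'.1 ∧ q.2 = q'.2 := by
  have h1 : ∀ i i' H H', R.th (R.cls q.1) i * R.th (R.cls q'.1) i' *
      ((S.pen.π (R.cls q.1) q.2 * H).trace * (S.pen.π (R.cls q'.1) q'.2 * H').trace) =
      R.th (R.cls q.1) i' * R.th (R.cls q'.1) i *
      ((S.pen.π (R.cls q'.1) q'.2 * H).trace * (S.pen.π (R.cls q.1) q.2 * H').trace) := by
    intro i i' H H'
    have := bil_zero S.W
      ![(trB k E).flip (S.pen.π (R.cls q.1) q.2), (trB k E).flip (S.pen.π (R.cls q'.1) q'.2)]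
      ![(trB k E).flip (S.pen.π (R.cls q'.1) q'.2), (trB k E).flip (S.pen.π (R.cls q.1) q.2)]
      ![R.th (R.cls q.1) i * R.th (R.cls q'.1) i', -(R.th (R.cls q.1) i' * R.th (R.cls q'.1) i)]
      (fun l l' => by
        have h2 := (((S.rd_theta hμ h i l).mul (S.rd_theta hμ h' i' l')).sub
          ((S.rd_theta hμ h i' l').mul (S.rd_theta hμ h' i l))).eq_zero (by rw [hc]; ring)
        refine mul_left_cancel₀ (mul_ne_zero (R.ρ_ne q.1) (R.ρ_ne q'.1)) ?_
        simp only [Fin.sum_univ_two, cons_val_zero, cons_val_one, cons_val_fin_one, trB_flip]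
        linear_combination h2) H H'
    simp [trB] at this
    linear_combination this
  have h2 : R.cls q.1 = R.cls q'.1 := R.nonpar _ _ fun i i' => by
    simpa [S.pen.tr] using h1 i i' 1 1
  refine ⟨h2, ?_⟩
  by_contra hne
  obtain ⟨i, hi⟩ := Function.ne_iff.mp (R.th_ne (R.cls q.1))
  have := h1 i i (S.pen.π (R.cls q.1) q.2) 1
  rw [← h2, (S.pen.oi _).idem, (S.pen.oi _).orth _ _ (Ne.symm hne)] at this
  simp [S.pen.tr] at this
  exact hi this

include S in
theorem κ_le : R'.κ ≤ R.κ := by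
  obtain ⟨φ, hφ⟩ := S.exists_phi hμ
  have : Nonempty R'.Λ := by
    by_contra h
    rw [not_nonempty_iff] at h
    simpa using R'.oi.sum
  obtain ⟨a₀⟩ := this
  rw [← R'.fib (R'.cls a₀), ← R.fib (R.cls (φ a₀).1)]
  refine card_le_card_of_injOn (fun a => (φ a).1) (fun a ha => ?_) fun a ha a' ha' h => ?_
  · simpa using (S.cls_eq hμ (hφ a) (hφ a₀) (by simpa using ha)).1
  · refine φ.injective (Prod.ext h (S.cls_eq hμ (hφ a) (hφ a') ?_).2)
    simp only [coe_filter, mem_univ, true_and, Set.mem_ofPred_eq] at ha ha'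
    rw [ha, ha']

variable (hκ : R'.κ = R.κ)
include hκ

theorem pi_eq : R'.pi = Fintype.card E * R.pi := by
  have := ν_eq hμ
  rw [R'.ν_eq, R.ν_eq, hκ, ← mul_assoc] at this
  exact Nat.eq_of_mul_eq_mul_right R.κ_pos this

include S in
theorem E2 (he : R.pi < Fintype.card E) : R'.E2 := by
  obtain ⟨φ, hφ⟩ := S.exists_phi hμ
  choose r hr using R'.cls_surj
  let ψ₀ : R'.J → R.J × E := fun j => (R.cls (φ (r j)).1, (φ (r j)).2)
  let ψ : R'.J ≃ R.J × E := Equiv.ofBijective ψ₀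
    ((Fintype.bijective_iff_surjective_and_card ψ₀).mpr ⟨by
      rintro ⟨j, q⟩
      obtain ⟨a, rfl⟩ := R.cls_surj j
      have := S.cls_eq hμ (hφ (r (R'.cls (φ.symm (a, q))))) (hφ (φ.symm (a, q))) (hr _)
      exact ⟨_, Prod.ext (by simpa using this.1) (by simpa using this.2)⟩, by
      rw [Fintype.card_prod, mul_comm]; exact pi_eq hμ hκ⟩)
  intro γ hγ
  by_contra hne
  have := S.ε_ne
  obtain ⟨s, w, j₀, -, -, hw, hrd⟩ := p.exists_scale
    (fun j => γ j * (S.ε / R'.ρ (r j)) ^ 2) fun h => hne (funext fun j => by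
      simpa [this, R'.ρ_ne] using congrFun h j)
  obtain ⟨i, hi⟩ := Function.ne_iff.mp (R.th_ne (ψ j₀).1)
  let c : R'.J → k := fun j => w j * (R.ρ (φ (r j)).1 * R.th (ψ j).1 i) ^ 2
  have h1 := bil_zero S.W (fun j => (trB k E).flip (S.pen.π (ψ j).1 (ψ j).2))
    (fun j => (trB k E).flip (S.pen.π (ψ j).1 (ψ j).2)) c fun l l' => by
      have h2 := (Place.rd_sum univ fun j _ => (hrd j).mul
        ((S.rd_theta hμ (hφ (r j)) i l).mul (S.rd_theta hμ (hφ (r j)) i l'))).eq_zero (by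
          rw [← mul_zero s, ← hγ (i, l) (i, l'), mul_sum]
          refine sum_congr rfl fun j _ => ?_
          have := R'.ρ_ne (r j)
          rw [hr]; field_simp)
      rw [← h2]
      refine sum_congr rfl fun j _ => ?_
      simp only [c, trB_flip]
      change _ = w j * (_ * R.th (ψ j).1 i * (S.pen.π (ψ j).1 (ψ j).2 * _).trace *
        (_ * R.th (ψ j).1 i * (S.pen.π (ψ j).1 (ψ j).2 * _).trace))
      ring
  let g : R.J → E → k := fun j q => c (ψ.symm (j, q)) *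
    (S.pen.π j q * S.pen.π (ψ j₀).1 (ψ j₀).2).trace
  have h3 : ∑ j, ∑ q, g j q • S.pen.π j q = 0 := eq_zero_of_trace fun H => by
    rw [← h1 (S.pen.π (ψ j₀).1 (ψ j₀).2) H, ← ψ.symm.sum_comp, Fintype.sum_prod_type]
    simp [sum_mul, g, trB, mul_assoc]
  rcases S.pen.PL g h3 (ψ j₀).1 with h4 | ⟨T, hT, hT'⟩
  · have := congrFun h4 (ψ j₀).2
    simp [g, c, (S.pen.oi _).idem, S.pen.tr, hw, R.ρ_ne] at this
    exact hi this
  · have h5 : univ.erase (ψ j₀).2 ⊆ T := fun q hq => by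
      by_contra h
      exact hT' q h (by simp [g, (S.pen.oi _).orth _ _ (mem_erase.mp hq).1])
    have := card_le_card h5
    rw [card_erase_of_mem (mem_univ _), card_univ] at this
    rw [Res.pi] at he
    omega

end Setup
end Vale.Agent.P199
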