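import Vale.Agent.P199.Ana1

set_option linter.unusedSectionVars false

namespace Vale.Agent.P199
open Finset Module Submodule Matrix
open scoped Kronecker

theorem finrank_map_add {k V W : Type*} [Field k] [AddCommGroup V] [Module k V] [AddCommGroup W]
    [Module k W] [FiniteDimensional k V] (f : V →ₗ[k] W) (S : Submodule k V) :
    finrank k (S.map f) + finrank k (S ⊓ LinearMap.ker f : Submodule k V) = finrank k S := by
  have h1 := (f.domRestrict S).finrank_range_add_finrank_ker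
  rwa [LinearMap.range_domRestrict, LinearMap.ker_domRestrict, ← finrank_map_subtype_eq,
    map_comap_subtype] at h1

theorem finrank_comap_ge {k V W : Type*} [Field k] [AddCommGroup V] [Module k V] [AddCommGroup W]
    [Module k W] [FiniteDimensional k V] [FiniteDimensional k W] (f : V →ₗ[k] W)
    (S : Submodule k W) : finrank k V + finrank k S ≤ finrank k (S.comap f) + finrank k W := by
  have h1 := (S.mkQ ∘ₗ f).finrank_range_add_finrank_ker
  rw [LinearMap.ker_comp, ker_mkQ] at h1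
  have h2 := (LinearMap.range (S.mkQ ∘ₗ f)).finrank_le
  have h3 := S.finrank_quotient_add_finrank
  omega

theorem finrank_inf_ge {k V : Type*} [Field k] [AddCommGroup V] [Module k V]
    [FiniteDimensional k V] (S T : Submodule k V) :
    finrank k S + finrank k T ≤ finrank k (S ⊓ T : Submodule k V) + finrank k V := by
  have := finrank_sup_add_finrank_inf_eq S T
  have := (S ⊔ T).finrank_le
  omega

theorem finrank_iInf_ge {k V I : Type*} [Field k] [AddCommGroup V] [Module k V]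
    [FiniteDimensional k V] (s : Finset I) (S : I → Submodule k V) (c : ℕ)
    (h : ∀ i, finrank k V ≤ finrank k (S i) + c) :
    finrank k V ≤ finrank k (s.inf S : Submodule k V) + s.card * c := by
  classical
  induction s using Finset.induction_on with
  | empty => rw [inf_empty, finrank_top]; omega
  | insert a s ha ih =>
    rw [inf_insert, card_insert_of_notMem ha, add_mul]
    have := finrank_inf_ge (S a) (s.inf S)
    have := h a
    omega

variable {L k n ι E κ : Type} [Field L] [Field k] [CharZero L] [CharZero k] [Fintype n]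
  [DecidableEq n] [Fintype ι] [DecidableEq ι] [Fintype E] [DecidableEq E] [Fintype κ]
  [DecidableEq κ] [Nonempty n] [Nonempty E]

namespace Setup
variable {p : Place L k} {b : NC (Matrix n n k) ι} {R : Res b}
  {B : NC (Matrix (n × E) (n × E) L) (ι × κ)} (S : Setup p R B)

/-- Weighted class traces. -/
def Γ : Matrix (n × E) (n × E) k →ₗ[k] (R.J × E → k) := LinearMap.pi fun q =>
  ∑ a ∈ univ.filter fun a => R.cls a = q.1, R.ρ a • trB k _ (S.Q (a, q.2))

theorem Γ_apply (c q) : S.Γ c q =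
    ∑ a ∈ univ.filter fun a => R.cls a = q.1, R.ρ a * (c * S.Q (a, q.2)).trace := by
  simp [Γ, trB_apply]

theorem sum_Γ (c) (f : R.J → E → k) :
    ∑ a : R.Λ × E, R.ρ a.1 * (c * S.Q a).trace * f (R.cls a.1) a.2 =
      ∑ j, ∑ q, S.Γ c (j, q) * f j q := by
  simp only [Γ_apply, sum_mul, Fintype.sum_prod_type]
  rw [← sum_fiberwise univ R.cls]
  refine sum_congr rfl fun j _ => ?_
  rw [sum_comm]
  exact sum_congr rfl fun q _ => sum_congr rfl fun a ha => by rw [(mem_filter.mp ha).2]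

theorem range_Γ : (Diag S.Q).map S.Γ = ⊤ := by
  rw [eq_top_iff, ← (Pi.basisFun k (R.J × E)).span_eq, span_le]
  rintro _ ⟨⟨j, q⟩, rfl⟩
  obtain ⟨a, rfl⟩ := R.cls_surj j
  refine ⟨(R.ρ a * R.μ)⁻¹ • S.Q (a, q), smul_mem _ _ (S.oiQ.self_mem _), funext ?_⟩
  rintro ⟨j', q'⟩
  have h1 := R.ρ_ne a
  have h2 : (R.μ : k) ≠ 0 := Nat.cast_ne_zero.mpr R.μ_pos.ne'
  rw [map_smul]
  simp only [Pi.smul_apply, Γ_apply, S.oiQ.mul, Prod.mk.injEq, apply_ite trace, S.trQ,
    trace_zero, mul_ite, mul_zero, ite_and, sum_ite_eq, mem_filter, mem_univ, true_and,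
    Pi.basisFun_apply, Pi.single_apply, smul_eq_mul, eq_comm (a := j'), eq_comm (a := q')]
  split_ifs
  · field_simp
  all_goals rfl

theorem finrank_ker_Γ : finrank k (Diag S.Q ⊓ LinearMap.ker S.Γ : Submodule k _) +
    Fintype.card E * R.pi = Fintype.card E * R.ν * R.μ ^ 2 := by
  have := finrank_map_add S.Γ (Diag S.Q)
  rw [S.range_Γ, finrank_top, finrank_fintype_fun_eq_card, Fintype.card_prod,
    S.finrank_DiagQ] at this
  rw [← this, Res.pi]; ring

theorem red_Ob {c c'} (hc : c ∈ Ob B) (h : p.RdM c c') :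
    c' ∈ Diag S.Q ∧ ∀ i l, (c' * (b [i] ⊗ₖ S.W l)).trace = 0 := by
  refine ⟨S.red_comm (mem_Ob.mp hc).1 h, fun i l => (h.mul (S.rh1 i l)).trace.eq_zero ?_⟩
  have := (mem_Ob.mp hc).2 (i, l)
  rw [S.B_cons, mul_smul_comm, trace_smul] at this
  exact (smul_eq_zero.mp this).resolve_left S.ε_ne

theorem Γ_PL {c} (hc : c ∈ Diag S.Q) (h : ∀ i l, (c * (b [i] ⊗ₖ S.W l)).trace = 0) {j q}
    (hq : S.Γ c (j, q) ≠ 0) : ∃ T : Finset E, T.card < R.pi ∧ ∀ q, q ∉ T → S.Γ c (j, q) ≠ 0 := by
  obtain ⟨i, hi⟩ := Function.ne_iff.mp (R.th_ne j)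
  have h1 : ∑ j, ∑ q, (S.Γ c (j, q) * R.th j i) • S.pen.π j q = 0 := by
    refine eq_zero_of_trace fun H => ?_
    have : (trB k E).flip (∑ j, ∑ q, (S.Γ c (j, q) * R.th j i) • S.pen.π j q) = 0 :=
      S.W.ext fun l => by
        rw [trB_flip, LinearMap.zero_apply, ← h i l, S.oiQ.trace_diag hc]
        simp only [sum_mul, smul_mul_assoc, trace_sum, trace_smul, smul_eq_mul, mul_assoc _ (R.th _ _)]
        rw [← S.sum_Γ c fun j q => R.th j i * (S.pen.π j q * S.W l).trace]
        refine sum_congr rfl fun a _ => ?_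
        simp only [Q, ← mul_kronecker_mul, R.g1, (S.pen.oi _).rank_one (S.pen.tr _), smul_kronecker,
          kronecker_smul, mul_smul_comm, trace_smul, smul_eq_mul]
        ring
    exact LinearMap.congr_fun this H
  rcases S.pen.PL _ h1 j with h2 | ⟨T, hT, hT'⟩
  · exact absurd (congrFun h2 q) (mul_ne_zero hq hi)
  · exact ⟨T, hT, fun q hq => left_ne_zero_of_mul (hT' q hq)⟩

/-- The operator describing the leading term of the obstruction form. -/
def Top (c : Matrix (n × E) (n × E) k) (j : R.J) : Matrix E E k →ₗ[k] Matrix E E k :=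
  ∑ q, ∑ q', (S.Γ c (j, q) * (S.pen.η j q' - S.pen.η j q)⁻¹) •
    (LinearMap.mulRight k (S.pen.π j q) ∘ₗ LinearMap.mulLeft k (S.pen.π j q'))

theorem Top_apply (c j H) : S.Top c j H = ∑ q, ∑ q',
    (S.Γ c (j, q) * (S.pen.η j q' - S.pen.η j q)⁻¹) • (S.pen.π j q' * H * S.pen.π j q) := by
  simp [Top]

theorem lead {c} (hc : c ∈ Diag S.Q) {v v'} (hv : v ∈ p.redP (Vt B)) (hv' : v' ∈ p.redP (Vt B)) :
    (c * (S.T v.1 * v'.2)).trace = -∑ j, (S.H j v.1 * S.Top c j (S.H j v'.1)).trace := by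
  obtain ⟨-, h2⟩ := S.KR hv
  obtain ⟨h3, h4⟩ := S.KR hv'
  rw [S.oiQ.trace_diag hc]
  simp only [Top_apply, mul_sum, trace_sum, mul_smul_comm, trace_smul, smul_eq_mul,
    mul_assoc (S.Γ _ _)]
  simp only [← mul_sum]
  rw [← S.sum_Γ c fun j q => ∑ q', (S.pen.η j q' - S.pen.η j q)⁻¹ *
    (S.H j v.1 * (S.pen.π j q' * S.H j v'.1 * S.pen.π j q)).trace, ← sum_neg_distrib]
  refine sum_congr rfl ?_
  rintro ⟨a, q⟩ -
  have h5 : S.Q (a, q) * (S.T v.1 * v'.2) * S.Q (a, q) =
      ∑ q', (S.Q (a, q) * S.T v.1 * S.Q (a, q')) * (S.Q (a, q') * v'.2 * S.Q (a, q)) := by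
    have : ∑ q', S.Q (a, q') = kL E (R.P a) := by
      simp only [Q, ← kron_sum, (S.pen.oi _).sum]; rfl
    calc _ = S.Q (a, q) * S.T v.1 * (∑ q', S.Q (a, q')) * v'.2 * S.Q (a, q) := by
          rw [this, mul_assoc _ (kL E _), h3]
          simp only [mul_assoc, S.P_mul_Q]
      _ = _ := by
          simp only [mul_sum, sum_mul]
          refine sum_congr rfl fun q' _ => ?_
          conv_lhs => rw [← S.oiQ.idem (a, q')]
          simp only [mul_assoc]
  rw [h5, mul_sum, trace_sum, mul_sum, ← sum_neg_distrib]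
  refine sum_congr rfl fun q' _ => ?_
  have h6 : S.Q (a, q) * S.T v.1 * S.Q (a, q') = R.ρ a • (R.P a ⊗ₖ
      (S.pen.π (R.cls a) q * S.H (R.cls a) v.1 * S.pen.π (R.cls a) q')) := by
    rw [← S.Q_mul_P, ← S.P_mul_Q a q', mul_assoc (S.Q _), mul_assoc (S.Q _), ← mul_assoc _ (kL E _),
      S.sandT, smul_mul_assoc, mul_smul_comm]
    simp only [Q, ← mul_kronecker_mul, R.oi.idem, mul_assoc]
  by_cases hq : q' = q
  · subst hq
    have := h2 a q' q'
    rw [sub_self, zero_smul, add_zero] at this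
    simp [h6, this]
  · have h7 := h4 a q' q
    have h8 : S.pen.η (R.cls a) q' - S.pen.η (R.cls a) q ≠ 0 :=
      sub_ne_zero.mpr ((S.pen.inj _).ne hq)
    have h9 : S.Q (a, q') * v'.2 * S.Q (a, q) = -(S.pen.η (R.cls a) q' - S.pen.η (R.cls a) q)⁻¹ •
        (R.P a ⊗ₖ (S.pen.π (R.cls a) q' * S.H (R.cls a) v'.1 * S.pen.π (R.cls a) q)) := by
      rw [eq_neg_of_add_eq_zero_left h7, smul_neg, neg_smul, neg_neg, smul_smul,
        inv_mul_cancel₀ h8, one_smul]
    have h10 : S.pen.π (R.cls a) q * S.H (R.cls a) v.1 * S.pen.π (R.cls a) q' *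
        (S.pen.π (R.cls a) q' * S.H (R.cls a) v'.1 * S.pen.π (R.cls a) q) =
        (S.H (R.cls a) v.1 * (S.pen.π (R.cls a) q' * S.H (R.cls a) v'.1 *
          S.pen.π (R.cls a) q)).trace • S.pen.π (R.cls a) q := by
      rw [mul_assoc _ (S.pen.π _ q'), ← mul_assoc (S.pen.π _ q'), ← mul_assoc (S.pen.π _ q'),
        (S.pen.oi _).idem, ← mul_assoc (S.H _ v.1), trace_mul_comm _ (S.pen.π _ q),
        ← (S.pen.oi _).rank_one (S.pen.tr _)]
      simp only [mul_assoc]
    rw [h6, h9, smul_mul_smul_comm, ← mul_kronecker_mul, R.oi.idem, h10, kronecker_smul]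
    simp only [Q, mul_smul_comm, trace_smul, smul_eq_mul]
    ring

include S in
theorem finrank_fst (U : Submodule L ((ι × κ → L) × Matrix (n × E) (n × E) L)) (hU : U ≤ Vt B) :
    finrank L U ≤ finrank k ((p.redP U).map (LinearMap.fst k _ _)) +
      Fintype.card E * R.ν * R.μ ^ 2 := by
  have h1 := finrank_map_add (LinearMap.fst k _ _) (p.redP U)
  have h2 : p.redP U ⊓ LinearMap.ker (LinearMap.fst k _ _) ≤
      (Diag S.Q).map (LinearMap.inr k _ _) := by
    rintro ⟨x, g⟩ ⟨⟨v, hv, h⟩, h0⟩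
    obtain rfl : x = 0 := h0
    exact ⟨g, S.mem_DiagQ ⟨v, hU hv, h⟩, rfl⟩
  have h3 := (Submodule.finrank_mono h2).trans (finrank_map_le _ _)
  rw [S.finrank_DiagQ] at h3
  have := p.finrank_le_redP U
  omega

theorem exists_big (X : Submodule k (ι × κ → k)) (c : ℕ)
    (h : Fintype.card (ι × κ) ≤ finrank k X + c) : ∃ U : Submodule k (Matrix E E k),
    Fintype.card E ^ 2 ≤ finrank k U + Fintype.card ι * c ∧
    ∀ M ∈ U, ∀ i, ∃ x ∈ X, ∀ j, S.H j x = R.th j i • M := by
  let f : ι → Matrix E E k →ₗ[k] (ι × κ → k) := fun i => LinearMap.pi fun q =>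
    if q.1 = i then S.W.coord q.2 else 0
  refine ⟨univ.inf fun i => X.comap (f i), ?_, fun M hM i => ⟨f i M, ?_, fun j => ?_⟩⟩
  · rw [← finrank_mat (k := k)]
    refine finrank_iInf_ge _ _ _ fun i => ?_
    have := finrank_comap_ge (f i) X
    rw [finrank_fintype_fun_eq_card] at this
    omega
  · exact (Finset.inf_le (f := fun i => X.comap (f i)) (mem_univ i)) hM
  · conv_rhs => rw [← S.W.sum_repr M]
    simp only [H, f, LinearMap.pi_apply, Fintype.sum_prod_type, smul_sum, smul_smul]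
    rw [sum_eq_single i (fun i' _ h => by simp [h]) (by simp)]
    simp

variable {R' : Res B} (hμ : R'.μ = R.μ)
include hμ

theorem hr_core (hE : R.E2) (he : 1 + R.pi + Fintype.card ι * (5 * R.ν + 2) < Fintype.card E)
    {c c'} (hc : c ∈ Ob B) (hr : p.RdM c c') (hΓ : S.Γ c' ≠ 0) :
    3 * R'.ν + 2 < finrank L (LinearMap.range (qr B c)) := by
  by_contra hlt
  obtain ⟨⟨j₀, q₀⟩, h0⟩ := Function.ne_iff.mp hΓ
  obtain ⟨hc1, hc2⟩ := S.red_Ob hc hr
  obtain ⟨T, hT, hT'⟩ := S.Γ_PL hc1 hc2 h0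
  have hν := ν_eq hμ
  have hV := finrank_Vt B
  have hO := R'.le_Ob_dim
  have hpi := R'.pi_le
  rw [hμ, hν] at hO
  have h1 := (qr B c).finrank_range_add_finrank_ker
  have h2 := S.finrank_fst ((LinearMap.ker (qr B c)).map (Vt B).subtype) (map_subtype_le _ _)
  rw [finrank_map_subtype_eq] at h2
  have h3 := S.finrank_fst (Vt B) le_rfl
  obtain ⟨U₁, hU₁, hU₁'⟩ := S.exists_big ((p.redP ((LinearMap.ker (qr B c)).map
    (Vt B).subtype)).map (LinearMap.fst k _ _)) (R'.ν + (3 * R'.ν + 2)) (by omega)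
  obtain ⟨U₂, hU₂, hU₂'⟩ := S.exists_big ((p.redP (Vt B)).map (LinearMap.fst k _ _)) R'.ν
    (by omega)
  have h4 : U₂.map (S.Top c' j₀) ≤ perp U₁ := by
    rintro _ ⟨M', hM', rfl⟩ M hM
    have := hE (fun j => (M * S.Top c' j M').trace) fun i i' => by
      obtain ⟨_, ⟨v, hv, rfl⟩, hx⟩ := hU₁' M hM i
      obtain ⟨_, ⟨v', hv', rfl⟩, hx'⟩ := hU₂' M' hM' i'
      obtain ⟨_, ⟨u, hu, rfl⟩, hu1, hu2⟩ := hv
      have h5 := S.lead hc1 (v := v) ⟨u, u.2, hu1, hu2⟩ hv'
      obtain ⟨u', hu', hu1', hu2'⟩ := hv'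
      have h6 : (c * sec B u u').trace = 0 := LinearMap.congr_fun hu ⟨u', hu'⟩
      have h7 : sec B u u' = S.ε • (lin2 S.bh u.1.1 u'.1 + lin1 S.bh u.1.1 * u'.2) := by
        rw [sec_apply, S.lin1_B, smul_add, smul_mul_assoc]
        congr 1
        simp only [lin2_apply, S.B_cons, smul_sum]
        exact sum_congr rfl fun _ _ => sum_congr rfl fun _ _ => smul_comm _ _ _
      rw [h7, mul_smul_comm, trace_smul] at h6
      have h8 : p.RdM (lin2 S.bh u.1.1 u'.1) 0 := by
        rw [lin2_apply]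
        have := Place.rdM_sum (p := p) univ fun q _ => Place.rdM_sum univ fun q' _ =>
          ((hu1 q).mul (hu1' q')).smul (S.rh2 q q')
        simpa using this
      have h9 := (hr.mul (h8.add ((S.rd_lin1 hu1).mul hu2'))).trace.eq_zero
        ((smul_eq_zero.mp h6).resolve_left S.ε_ne)
      rw [zero_add, h5, neg_eq_zero] at h9
      rw [← h9]
      refine sum_congr rfl fun j _ => ?_
      erw [hx, hx']
      simp only [map_smul, smul_mul_assoc, mul_smul_comm, trace_smul, smul_eq_mul]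
      ring
    change (S.Top c' j₀ M' * M).trace = 0
    rw [trace_mul_comm]
    exact congrFun this j₀
  have h5 : LinearMap.ker (S.Top c' j₀) ≤ Supp (S.pen.π j₀) (univ.diag ∪ univ ×ˢ T) := by
    intro M hM q' q hq
    simp only [mem_union, mem_diag, mem_univ, true_and, mem_product, not_or] at hq
    have := congrArg (fun N => S.pen.π j₀ q' * N * S.pen.π j₀ q) (LinearMap.mem_ker.mp hM)
    simp only [Top_apply, mul_sum, sum_mul, mul_smul_comm, smul_mul_assoc, (S.pen.oi _).sandwich,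
      Prod.mk.injEq, ite_and, smul_ite, smul_zero, sum_ite_eq', mem_univ, if_true, mul_zero,
      zero_mul] at this
    exact (smul_eq_zero.mp this).resolve_left (mul_ne_zero (hT' q hq.2)
      (inv_ne_zero (sub_ne_zero.mpr ((S.pen.inj _).ne hq.1))))
  have h6 := (Submodule.finrank_mono (inf_le_right (a := U₂) |>.trans h5))
  rw [(S.pen.oi _).finrank_Supp (μ := 1) (by simpa using S.pen.tr j₀)] at h6
  have h7 := card_union_le (univ.diag : Finset (E × E)) (univ ×ˢ T)
  rw [diag_card, card_product, card_univ] at h7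
  have h8 := finrank_map_add (S.Top c' j₀) U₂
  have h9 := Submodule.finrank_mono h4
  have h10 := finrank_perp U₁
  rw [hν] at hU₁ hU₂
  have h11 : 0 < Fintype.card E := Fintype.card_pos
  nlinarith [Nat.mul_le_mul_left (Fintype.card E) hT.le, Nat.mul_le_mul_left (Fintype.card E) he,
    Nat.mul_le_mul_left (Fintype.card ι) h11]

include S in
theorem HR (hκ : R'.κ = R.κ) (hE : R.E2)
    (he : 1 + R.pi + Fintype.card ι * (5 * R.ν + 2) < Fintype.card E) : R'.HR := by
  let bs := Module.finBasis k ((p.redM (Ob B)).map S.Γ)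
  choose c' hc' hΓ using fun s => (bs s).2
  choose c hc hr using hc'
  have key : ∀ a : _ → L, a ≠ 0 → ∃ (s : L) (z : _), s ≠ 0 ∧ p.RdM (s • ∑ i, a i • c i) z ∧
      S.Γ z ≠ 0 := by
    intro a ha
    obtain ⟨s, w, i, hs, -, hw, h⟩ := p.exists_scale a ha
    refine ⟨s, ∑ i, w i • c' i, hs, ?_, fun h0 => ?_⟩
    · simp only [smul_sum, smul_smul]
      exact Place.rdM_sum _ fun i _ => (h i).smul (hr i)
    · have := Fintype.linearIndependent_iff.mp bs.linearIndependent w (Subtype.ext (by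
        simpa [hΓ] using h0)) i
      rw [hw] at this
      exact one_ne_zero this
  have hli : LinearIndependent L c := Fintype.linearIndependent_iff.mpr fun a ha => by
    by_contra hne
    obtain ⟨s, z, -, h, h'⟩ := key a fun h => hne (congrFun h)
    exact h' (by rw [h.eq_zero (by rw [ha, smul_zero]), map_zero])
  refine ⟨span L (Set.range c), span_le.mpr (by rintro _ ⟨i, rfl⟩; exact hc i), ?_, ?_⟩
  · rw [finrank_span_eq_card hli, Fintype.card_fin, hμ, ν_eq hμ, pi_eq hμ hκ]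
    have h1 := p.finrank_le_redM (Ob B)
    have h2 := finrank_map_add S.Γ (p.redM (Ob B))
    have h3 : p.redM (Ob B) ≤ Diag S.Q := by
      rintro _ ⟨c, hc, h⟩
      exact (S.red_Ob hc h).1
    have h4 := Submodule.finrank_mono (inf_le_inf_right (LinearMap.ker S.Γ) h3)
    have h5 := S.finrank_ker_Γ
    omega
  · intro d hd hd0
    obtain ⟨a, rfl⟩ := (mem_span_range_iff_exists_fun L).mp hd
    obtain ⟨s, z, hs, h, h'⟩ := key a (by rintro rfl; simp at hd0)
    have := S.hr_core hμ hE he (smul_mem _ s (sum_mem fun i _ => smul_mem _ _ (hc i))) h h'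
    rwa [map_smul, LinearMap.range_smul _ _ hs] at this

end Setup
end Vale.Agent.P199
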