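import Mathlib

namespace Vale.Agent.P199
open Finset

/-- A complete separated multiplicative filtration on a ring. -/
structure FC (B : Type*) [Ring B] where
  F : ℕ → AddSubgroup B
  zero : ∀ b, b ∈ F 0
  anti : ∀ {m n b}, m ≤ n → b ∈ F n → b ∈ F m
  mul : ∀ {m n a b}, a ∈ F m → b ∈ F n → a * b ∈ F (m + n)
  sep : ∀ b, (∀ n, b ∈ F n) → b = 0
  compl : ∀ s : ℕ → B, (∀ n, s (n + 1) - s n ∈ F n) → ∃ b, ∀ n, b - s n ∈ F n

namespace FC
variable {B : Type*} [Ring B] (f : FC B)

theorem mul_left {n : ℕ} (a : B) {b : B} (hb : b ∈ f.F n) : a * b ∈ f.F n := by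
  simpa using f.mul (f.zero a) hb

theorem mul_right {n : ℕ} {a : B} (b : B) (ha : a ∈ f.F n) : a * b ∈ f.F n := by
  simpa using f.mul ha (f.zero b)

theorem mul_succ {n : ℕ} {a b : B} (ha : a ∈ f.F 1) (hb : b ∈ f.F n) : a * b ∈ f.F (n + 1) := by
  simpa [add_comm] using f.mul ha hb

theorem sep_shift (k : ℕ) (b : B) (h : ∀ n, b ∈ f.F (n - k)) : b = 0 :=
  f.sep b fun n => by simpa using h (n + k)

theorem compl_shift (k : ℕ) (t : ℕ → B) (h : ∀ n, t (n + 1) - t n ∈ f.F (n - k)) :
    ∃ b, ∀ n, b - t n ∈ f.F (n - k) := by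
  obtain ⟨b, hb⟩ := f.compl (fun n => t (n + k)) fun n => by
    have := h (n + k)
    simpa [add_right_comm] using this
  refine ⟨b, fun n => ?_⟩
  by_cases hn : k ≤ n
  · have := hb (n - k)
    simpa [Nat.sub_add_cancel hn] using this
  · rw [Nat.sub_eq_zero_of_le (by omega)]; exact f.zero _

/-- The trivial filtration. -/
def triv (B : Type*) [Ring B] : FC B where
  F n := if n = 0 then ⊤ else ⊥
  zero b := by simp
  anti {m n b} h hb := by
    by_cases hm : m = 0
    · simp [hm]
    · have : n ≠ 0 := by omega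
      simp_all
  mul {m n a b} ha hb := by
    by_cases hm : m = 0
    · by_cases hn : n = 0
      · simp [hm, hn]
      · simp_all
    · simp_all
  sep b h := by simpa using h 1
  compl s h := by
    refine ⟨s 1, fun n => ?_⟩
    rcases n with _ | n
    · simp
    · have : s (n + 1) = s 1 := by
        induction n with
        | zero => rfl
        | succ n ih =>
          have := h (n + 1)
          simp only [Nat.add_eq_zero_iff, one_ne_zero, and_false, if_false,
            AddSubgroup.mem_bot, sub_eq_zero] at this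
          rw [this, ih]
      simp [this]

theorem mem_triv {n : ℕ} {b : B} : b ∈ (triv B).F n ↔ n = 0 ∨ b = 0 := by
  by_cases h : n = 0 <;> simp [triv, h]

/-- Entrywise filtration on matrices. -/
def mat (n : Type*) [Fintype n] [DecidableEq n] : FC (Matrix n n B) where
  F k :=
    { carrier := {M | ∀ i j, M i j ∈ f.F k}
      add_mem' := fun ha hb i j => add_mem (ha i j) (hb i j)
      zero_mem' := fun _ _ => zero_mem _
      neg_mem' := fun ha i j => neg_mem (ha i j) }
  zero _ _ _ := f.zero _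
  anti h hb i j := f.anti h (hb i j)
  mul ha hb i j := by
    rw [Matrix.mul_apply]
    exact sum_mem fun k _ => f.mul (ha i k) (hb k j)
  sep b h := by
    ext i j
    exact f.sep _ fun n => h n i j
  compl s h := by
    choose b hb using fun i j => f.compl (fun n => s n i j) fun n => h n i j
    exact ⟨b, fun n i j => hb i j n⟩

theorem mem_mat {n : Type*} [Fintype n] [DecidableEq n] {k : ℕ} {M : Matrix n n B} :
    M ∈ (f.mat n).F k ↔ ∀ i j, M i j ∈ f.F k := Iff.rfl

/-- Weighted filtration on power series. -/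
def ps (ω : ℕ) : FC (PowerSeries B) where
  F k :=
    { carrier := {g | ∀ d, PowerSeries.coeff d g ∈ f.F (k - ω * d)}
      add_mem' := fun ha hb d => by rw [map_add]; exact add_mem (ha d) (hb d)
      zero_mem' := fun d => by rw [map_zero]; exact zero_mem _
      neg_mem' := fun ha d => by rw [map_neg]; exact neg_mem (ha d) }
  zero _ _ := by rw [Nat.zero_sub]; exact f.zero _
  anti h hb d := f.anti (Nat.sub_le_sub_right h _) (hb d)
  mul {m n a b} ha hb d := by
    rw [PowerSeries.coeff_mul]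
    refine sum_mem fun p hp => f.anti ?_ (f.mul (ha p.1) (hb p.2))
    rw [← mem_antidiagonal.mp hp, mul_add]; omega
  sep b h := by
    ext d
    exact f.sep_shift (ω * d) _ fun n => h n d
  compl s h := by
    choose b hb using fun d => f.compl_shift (ω * d) (fun n => PowerSeries.coeff d (s n))
      fun n => by have := h n d; rwa [map_sub] at this
    exact ⟨PowerSeries.mk b, fun n d => by rw [map_sub, PowerSeries.coeff_mk]; exact hb d n⟩

theorem mem_ps {ω k : ℕ} {g : PowerSeries B} :
    g ∈ (f.ps ω).F k ↔ ∀ d, PowerSeries.coeff d g ∈ f.F (k - ω * d) := Iff.rfl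

/-- The adic filtration on power series. -/
def adic (B : Type*) [Ring B] : FC (PowerSeries B) := (triv B).ps 1

theorem mem_adic {k : ℕ} {g : PowerSeries B} :
    g ∈ (adic B).F k ↔ ∀ d < k, PowerSeries.coeff d g = 0 := by
  simp only [adic, mem_ps, mem_triv, one_mul]
  refine forall_congr' fun d => ⟨fun h hd => h.resolve_left (by omega), fun h => ?_⟩
  by_cases hd : d < k
  · exact Or.inr (h hd)
  · exact Or.inl (by omega)

theorem X_mem_adic : (PowerSeries.X : PowerSeries B) ∈ (adic B).F 1 := by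
  rw [mem_adic]; intro d hd
  obtain rfl : d = 0 := by omega
  simp

theorem C_mem_ps {ω k : ℕ} {b : B} (hb : b ∈ f.F k) : PowerSeries.C b ∈ (f.ps ω).F k := by
  intro d
  rw [PowerSeries.coeff_C]
  split_ifs with h
  · subst h; simpa using hb
  · exact zero_mem _

end FC

/-- A ring of series over `R` with constant term, constants and left derivatives. -/
structure Der (S R α : Type*) [Ring S] [Ring R] where
  c : S →+* R
  σ : R →+* S
  d : α → S →+ S
  c_σ : ∀ r, c (σ r) = r
  d_σ : ∀ i r, d i (σ r) = 0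
  d_mul : ∀ i g h, d i (g * h) = d i g * h + σ (c g) * d i h

section Ev
variable {S R α B B' : Type*} [Ring S] [Ring R] [Ring B] [Ring B'] [Fintype α]

/-- `E` evaluates series at the point `Z` with coefficient map `φ`. -/
def IsEv (D : Der S R α) (φ : R → B) (Z : α → B) (E : S → B) : Prop :=
  ∀ g, E g = φ (D.c g) + ∑ i, Z i * E (D.d i g)

theorem FC.du_mem (f : FC B) (D : Der S R α) {Z : α → B} (hZ : ∀ i, Z i ∈ f.F 1) {k : ℕ}
    {Δ G : S → B} (hG : ∀ g, G g ∈ f.F k) (h : ∀ g, Δ g = G g + ∑ i, Z i * Δ (D.d i g)) (g : S) :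
    Δ g ∈ f.F k := by
  have : ∀ n ≤ k, ∀ g, Δ g ∈ f.F n := by
    intro n
    induction n with
    | zero => exact fun _ _ => f.zero _
    | succ n ih =>
      intro hn g
      rw [h]
      exact add_mem (f.anti hn (hG g)) (sum_mem fun i _ => f.mul_succ (hZ i) (ih (by omega) _))
  exact this k le_rfl g

theorem FC.du (f : FC B) (D : Der S R α) {Z : α → B} (hZ : ∀ i, Z i ∈ f.F 1)
    {E E' G : S → B} (h : ∀ g, E g = G g + ∑ i, Z i * E (D.d i g))
    (h' : ∀ g, E' g = G g + ∑ i, Z i * E' (D.d i g)) (g : S) : E g = E' g := by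
  rw [← sub_eq_zero]
  refine f.sep _ fun n => f.du_mem D hZ (Δ := fun g => E g - E' g) (G := fun _ => 0)
    (fun _ => zero_mem _) (fun g => ?_) g
  rw [h g, h' g]
  simp [mul_sub]

theorem IsEv.unique (f : FC B) {D : Der S R α} {φ : R → B} {Z : α → B} (hZ : ∀ i, Z i ∈ f.F 1)
    {E E' : S → B} (h : IsEv D φ Z E) (h' : IsEv D φ Z E') (g : S) : E g = E' g :=
  f.du D hZ (G := fun g => φ (D.c g)) h h' g

theorem IsEv.comp {D : Der S R α} {φ : R → B} {Z : α → B} {E : S → B} (h : IsEv D φ Z E)
    (χ : B →+* B') : IsEv D (fun r => χ (φ r)) (fun i => χ (Z i)) (fun g => χ (E g)) := by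
  intro g
  beta_reduce
  rw [h g]; simp

theorem IsEv.congr {D : Der S R α} {φ φ' : R → B} {Z Z' : α → B} {E : S → B} (h : IsEv D φ Z E)
    (hφ : ∀ r, φ r = φ' r) (hZ : ∀ i, Z i = Z' i) : IsEv D φ' Z' E := by
  obtain rfl : φ = φ' := funext hφ
  obtain rfl : Z = Z' := funext hZ
  exact h

theorem IsEv.sigma {D : Der S R α} {φ : R → B} {Z : α → B} {E : S →+* B} (h : IsEv D φ Z E)
    (r : R) : E (D.σ r) = φ r := by
  rw [h]; simp [D.c_σ, D.d_σ]

/-- Truncated evaluation. -/
def trunc (D : Der S R α) (φ : R →+* B) (Z : α → B) : ℕ → S →+ B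
  | 0 => 0
  | n + 1 => (φ.comp D.c).toAddMonoidHom +
      ∑ i, (AddMonoidHom.mulLeft (Z i)).comp ((trunc D φ Z n).comp (D.d i))

theorem trunc_succ (D : Der S R α) (φ : R →+* B) (Z : α → B) (n : ℕ) (g : S) :
    trunc D φ Z (n + 1) g = φ (D.c g) + ∑ i, Z i * trunc D φ Z n (D.d i g) := by
  simp [trunc]

theorem exists_ev (f : FC B) (D : Der S R α) (φ : R →+* B) (Z : α → B)
    (hZ : ∀ i, Z i ∈ f.F 1) (hc : ∀ r i, φ r * Z i = Z i * φ r) :
    ∃ E : S →+* B, IsEv D φ Z E := by
  have h1 : ∀ n g, trunc D φ Z (n + 1) g - trunc D φ Z n g ∈ f.F n := by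
    intro n
    induction n with
    | zero => exact fun _ => f.zero _
    | succ n ih =>
      intro g
      rw [trunc_succ, trunc_succ D φ Z n, add_sub_add_left_eq_sub, ← sum_sub_distrib]
      exact sum_mem fun i _ => by rw [← mul_sub]; exact f.mul_succ (hZ i) (ih _)
  choose E hE using fun g => f.compl (fun n => trunc D φ Z n g) fun n => h1 n g
  have hEv : IsEv D φ Z E := by
    intro g
    rw [← sub_eq_zero]
    refine f.sep _ fun n => f.anti n.le_succ ?_
    have : E g - (φ (D.c g) + ∑ i, Z i * E (D.d i g)) = (E g - trunc D φ Z (n + 1) g) -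
        ∑ i, Z i * (E (D.d i g) - trunc D φ Z n (D.d i g)) := by
      rw [trunc_succ]; simp only [mul_sub, sum_sub_distrib]; abel
    rw [this]
    exact sub_mem (hE g _) (sum_mem fun i _ => f.mul_succ (hZ i) (hE _ _))
  have hadd : ∀ g h, E (g + h) = E g + E h := by
    intro g h
    rw [← sub_eq_zero]
    refine f.sep _ fun n => ?_
    have : E (g + h) - (E g + E h) = (E (g + h) - trunc D φ Z n (g + h)) -
        (E g - trunc D φ Z n g) - (E h - trunc D φ Z n h) := by
      rw [map_add]; abel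
    rw [this]
    exact sub_mem (sub_mem (hE _ _) (hE _ _)) (hE _ _)
  let E' : S →+ B := AddMonoidHom.mk' E hadd
  have hE' : ∀ g, E' g = φ (D.c g) + ∑ i, Z i * E' (D.d i g) := hEv
  have hsm : ∀ r g, E' (D.σ r * g) = φ r * E' g := by
    intro r g
    refine f.du D hZ (E := fun g => E' (D.σ r * g)) (E' := fun g => φ r * E' g)
      (G := fun g => φ r * φ (D.c g)) (fun g => ?_) (fun g => ?_) g
    · rw [hE']; simp [D.d_mul, D.d_σ, D.c_σ]
    · rw [hE' g, mul_add, mul_sum]
      simp only [← mul_assoc, hc]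
  have hmul : ∀ g h, E' (g * h) = E' g * E' h := by
    intro g h
    refine f.du D hZ (E := fun g => E' (g * h)) (E' := fun g => E' g * E' h)
      (G := fun g => φ (D.c g) * E' h) (fun g => ?_) (fun g => ?_) g
    · rw [hE' (g * h), hE' h]
      simp only [D.d_mul, map_add, map_mul, hsm, mul_add, sum_add_distrib, mul_sum, ← mul_assoc, hc]
      abel
    · rw [hE' g, add_mul, sum_mul]
      simp only [mul_assoc]
  have hone : E' 1 = 1 := by
    rw [hE']
    have : ∀ i, D.d i 1 = 0 := fun i => by simpa using D.d_σ i 1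
    simp [this]
  exact ⟨{ E' with map_one' := hone, map_mul' := hmul }, hEv⟩

/-- Closed subring lemma. -/
theorem IsEv.mem_closed (f : FC B) {D : Der S R α} {φ : R → B} {Z : α → B}
    (hZ : ∀ i, Z i ∈ f.F 1) {E : S → B} (h : IsEv D φ Z E) (T : Subring B)
    (hT : ∀ b, (∀ n, ∃ t ∈ T, b - t ∈ f.F n) → b ∈ T) (hZT : ∀ i, Z i ∈ T)
    (P : S → Prop) (hP : ∀ g i, P g → P (D.d i g)) (hφ : ∀ g, P g → φ (D.c g) ∈ T)
    (g : S) (hg : P g) : E g ∈ T := by
  refine hT _ fun n => ?_
  induction n generalizing g with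
  | zero => exact ⟨0, zero_mem _, f.zero _⟩
  | succ n ih =>
    choose t ht ht' using fun i => ih (D.d i g) (hP g i hg)
    refine ⟨φ (D.c g) + ∑ i, Z i * t i,
      add_mem (hφ g hg) (sum_mem fun i _ => mul_mem (hZT i) (ht i)), ?_⟩
    rw [h g, add_sub_add_left_eq_sub, ← sum_sub_distrib]
    exact sum_mem fun i _ => by rw [← mul_sub]; exact f.mul_succ (hZ i) (ht' i)

end Ev

/-- Power series as a series ring. -/
noncomputable def Der.ps (R : Type*) [Ring R] : Der (PowerSeries R) R Unit where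
  c := PowerSeries.constantCoeff
  σ := PowerSeries.C
  d _ := AddMonoidHom.mk' (fun g => PowerSeries.mk fun n => PowerSeries.coeff (n + 1) g)
    fun a b => by ext; simp
  c_σ r := by simp
  d_σ _ r := by ext; simp
  d_mul _ g h := by
    ext n
    simp only [AddMonoidHom.mk'_apply, PowerSeries.coeff_mk, map_add, PowerSeries.coeff_C_mul]
    rw [PowerSeries.coeff_mul, PowerSeries.coeff_mul, Finset.Nat.sum_antidiagonal_succ, add_comm]
    simp

theorem exists_ev_ps {R B : Type*} [Ring R] [Ring B] (f : FC B) (φ : R →+* B) (t : B)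
    (ht : t ∈ f.F 1) (hc : ∀ r, φ r * t = t * φ r) :
    ∃ E : PowerSeries R →+* B, IsEv (Der.ps R) φ (fun _ => t) E ∧
      (∀ r, E (PowerSeries.C r) = φ r) ∧ E PowerSeries.X = t := by
  obtain ⟨E, hE⟩ := exists_ev f (Der.ps R) φ (fun _ => t) (fun _ => ht) fun r _ => hc r
  refine ⟨E, hE, fun r => hE.sigma r, ?_⟩
  rw [hE]
  have : (Der.ps R).d () PowerSeries.X = 1 := by
    ext n
    simp [Der.ps, PowerSeries.coeff_X, PowerSeries.coeff_one]
  simp only [univ_unique, PUnit.default_eq_unit, sum_singleton, this, map_one, mul_one]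
  simp [Der.ps]

theorem FC.isUnit_one_sub {B : Type*} [Ring B] (f : FC B) {a : B} (ha : a ∈ f.F 1) :
    IsUnit (1 - a) := by
  obtain ⟨E, -, -, hX⟩ := exists_ev_ps f (Int.castRingHom B) a ha fun r => (Int.cast_comm r a)
  have : IsUnit (1 - PowerSeries.X : PowerSeries ℤ) := by
    rw [PowerSeries.isUnit_iff_constantCoeff]; simp
  simpa [hX] using this.map E

end Vale.Agent.P199
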