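import Vale.Agent.P199.Solve2

set_option linter.unusedSectionVars false

namespace Vale.Agent.P199
open Finset Module Submodule Matrix PowerSeries
open scoped Kronecker

/-- The coefficient ring of the generic unfolding. -/
abbrev RR (F ι κ : Type) [Field F] := PowerSeries (MvPolynomial ((ι × κ) ⊕ κ) F)

variable {F n ι E κ : Type} [Field F] [Fintype n] [DecidableEq n] [Fintype ι] [DecidableEq ι]
  [Fintype E] [DecidableEq E] [Fintype κ] [DecidableEq κ]

variable (F) in
/-- Position variables. -/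
noncomputable def yv (q : ι × κ) : RR F ι κ := C (MvPolynomial.X (Sum.inl q))

variable (F ι) in
/-- Scaling variables. -/
noncomputable def tv (l : κ) : RR F ι κ := C (MvPolynomial.X (Sum.inr l))

theorem map_upt {A A' : Type*} [CommRing A] [CommRing A'] (χ : A →+* A') (Y : ι → Matrix E E A)
    (W : κ → Matrix E E A) (i) : NC.map χ.mapMatrix (upt (n := n) Y W i) =
      upt (fun i => (Y i).map χ) (fun l => (W l).map χ) i := by
  rw [upt, NC.map_aff]
  simp only [RingHom.mapMatrix_apply, apply_ite (Matrix.map · χ), map_kR,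
    Matrix.map_zero _ (map_zero χ)]
  rfl

theorem smul_upt {A : Type*} [CommRing A] (t : A) (Y : ι → Matrix E E A)
    (W : κ → Matrix E E A) (i) : upt (n := n) (fun i => t • Y i) (fun l => t • W l) i =
      t • upt Y W i := by
  ext1 w
  rcases w with _ | ⟨q, _ | ⟨q', w⟩⟩ <;> simp [upt, kR_smul]

/-- A point of the unfolding. -/
def pt {A : Type*} [CommRing A] (n : Type) [Fintype n] [DecidableEq n] (W : κ → Matrix E E F)
    (j : F →+* A) (t : A) (y : ι × κ → A) (τ : κ → A) :
    ι → NC (Matrix (n × E) (n × E) A) (ι × κ) :=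
  upt (fun i => t • ∑ l, y (i, l) • (W l).map j) fun l => t • τ l • (W l).map j

theorem pt_mem {A : Type*} [CommRing A] (f : FC A) (W : κ → Matrix E E F)
    (j : F →+* A) {t : A} (ht : t ∈ f.F 1) (y : ι × κ → A) (τ : κ → A) (i) :
    pt n W j t y τ i ∈ ((f.mat (n × E)).nc (ι × κ) 0).F 1 :=
  upt_mem f (fun _ => smul_mem_mat f ht _) (fun _ => smul_mem_mat f ht _) i

theorem exists_chi {A : Type*} [CommRing A] (f : FC A) (W : κ → Matrix E E F)
    (j : F →+* A) {t : A} (ht : t ∈ f.F 1) (y : ι × κ → A) (τ : κ → A) :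
    ∃ χ : NC (Matrix n n F) ι →+* NC (Matrix (n × E) (n × E) A) (ι × κ),
      Ev (fun m => NC.C (kL E (m.map j))) (pt n W j t y τ) χ :=
  exists_upt f j (fun _ => smul_mem_mat f ht _) fun _ => smul_mem_mat f ht _

variable (F ι κ) in
/-- The adic filtration on the coefficient ring. -/
noncomputable def fR : FC (RR F ι κ) := FC.adic (MvPolynomial ((ι × κ) ⊕ κ) F)

theorem X_mem_fR : (X : RR F ι κ) ∈ (fR F ι κ).F 1 := FC.X_mem_adic

variable (W : κ → Matrix E E F)

/-- The generic unfolding. -/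
noncomputable def chi1 :
    NC (Matrix n n F) ι →+* NC (Matrix (n × E) (n × E) (RR F ι κ)) (ι × κ) :=
  (exists_chi (fR F ι κ) W (algebraMap F _) X_mem_fR (yv F) (tv F ι)).choose

theorem chi1_ev : Ev (fun m : Matrix n n F => NC.C (kL E (m.map (algebraMap F (RR F ι κ)))))
    (pt n W (algebraMap F _) X (yv F) (tv F ι)) (chi1 W) :=
  (exists_chi (fR F ι κ) W (algebraMap F _) X_mem_fR (yv F) (tv F ι)).choose_spec

/-- The divided higher order part of the generic unfolding. -/
noncomputable def hat (g : NC (Matrix n n F) ι) :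
    NC (Matrix (n × E) (n × E) (RR F ι κ)) (ι × κ) :=
  ∑ i, pt n W (algebraMap F _) 1 (yv F) (tv F ι) i * chi1 W (NC.der i g)

theorem chi1_eq (g : NC (Matrix n n F) ι) :
    chi1 W g = NC.C (kL E ((g []).map (algebraMap F _))) + (X : RR F ι κ) • hat W g := by
  rw [(chi1_ev W).eq, hat, smul_sum]
  simp only [pt, smul_upt, one_smul, smul_mul_assoc]

/-- Specializations of the coefficient ring. -/
structure Sp {A : Type*} [CommRing A] (φ : RR F ι κ →+* A) (j : F →+* A) (t : A)
    (y : ι × κ → A) (τ : κ → A) : Prop where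
  al : ∀ a, φ (algebraMap F _ a) = j a
  X : φ X = t
  y : ∀ q, φ (yv F q) = y q
  τ : ∀ l, φ (tv F ι l) = τ l

theorem exists_sp {A : Type*} [CommRing A] (f : FC A) (j : F →+* A) {t : A} (ht : t ∈ f.F 1)
    (y : ι × κ → A) (τ : κ → A) : ∃ φ : RR F ι κ →+* A, Sp φ j t y τ := by
  obtain ⟨φ, -, h1, h2⟩ := exists_ev_ps f (MvPolynomial.eval₂Hom j (Sum.elim y τ)) t ht
    fun _ => mul_comm _ _
  exact ⟨φ, fun a => by simp [PowerSeries.algebraMap_apply, h1], h2, fun q => by simp [yv, h1],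
    fun l => by simp [tv, h1]⟩

section Sp
variable {A : Type*} [CommRing A] {φ : RR F ι κ →+* A} {j : F →+* A} {t : A}
  {y : ι × κ → A} {τ : κ → A} (h : Sp φ j t y τ)
include h

theorem Sp.comp {A' : Type*} [CommRing A'] (ψ : A →+* A') :
    Sp (ψ.comp φ) (ψ.comp j) (ψ t) (fun q => ψ (y q)) fun l => ψ (τ l) :=
  ⟨fun a => congrArg ψ (h.al a), congrArg ψ h.X, fun q => congrArg ψ (h.y q),
    fun l => congrArg ψ (h.τ l)⟩

theorem Sp.map_map {m : Type*} (M : Matrix m m F) :
    (M.map (algebraMap F (RR F ι κ))).map φ = M.map j := by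
  ext; simp [h.al]

theorem Sp.map_pt (s : RR F ι κ) (i) :
    NC.map φ.mapMatrix (pt n W (algebraMap F _) s (yv F) (tv F ι) i) = pt n W j (φ s) y τ i := by
  rw [pt, map_upt, pt]
  congr 1
  · funext i; ext; simp [Matrix.sum_apply, h.al, h.y]
  · funext l; ext; simp [h.al, h.τ]

theorem Sp.ev : Ev (fun m : Matrix n n F => NC.C (kL E (m.map j))) (pt n W j t y τ)
    fun g => NC.map φ.mapMatrix (chi1 W g) :=
  ((chi1_ev (n := n) (ι := ι) W).comp (NC.map (φ.mapMatrix (m := n × E)))).congr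
    (fun m => by rw [NC.map_C, RingHom.mapMatrix_apply, map_kL, h.map_map])
    fun i => by rw [h.map_pt, h.X]

theorem Sp.eq (f : FC A) (ht : t ∈ f.F 1) {χ : NC (Matrix n n F) ι → _}
    (hχ : Ev (fun m : Matrix n n F => NC.C (kL E (m.map j))) (pt n W j t y τ) χ) (g) :
    χ g = NC.map φ.mapMatrix (chi1 W g) :=
  Ev.unique _ (pt_mem f W j ht y τ) hχ (h.ev W) g

end Sp

section Zero
variable {A : Type*} [CommRing A] {φ : RR F ι κ →+* A} {j : F →+* A}
  {y : ι × κ → A} (h : Sp φ j 0 y 1)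
include h

theorem Sp.chi_zero (g : NC (Matrix n n F) ι) :
    NC.map φ.mapMatrix (chi1 W g) = NC.C (kL E ((g []).map j)) := by
  rw [(h.ev W).eq]
  simp only [pt, smul_upt]
  simp

theorem Sp.hat_eq (g : NC (Matrix n n F) ι) : NC.map φ.mapMatrix (hat W g) =
    NC.aff (∑ i, (g [i]).map j ⊗ₖ ∑ l, y (i, l) • (W l).map j)
      fun q => (g [q.1]).map j ⊗ₖ (W q.2).map j := by
  rw [hat, map_sum]
  simp only [map_mul, h.chi_zero, h.map_pt, map_one]
  ext1 w
  rcases w with _ | ⟨q, _ | ⟨q', w⟩⟩ <;> simp [NC.sum_apply, pt, upt, kR_mul_kL, -map_sum]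

end Zero

theorem famP_map {A A' m : Type*} [CommRing A] [CommRing A'] [Fintype m] [DecidableEq m]
    (χ : A →+* A') (B : NC (Matrix m m A) ι) :
    famP (NC.map χ.mapMatrix B) = fun i => (famP B i).map χ := by
  funext i
  rcases i with i | p
  · rfl
  · simp [famP, Matrix.map_sub, Matrix.map_mul, Matrix.map_single]

theorem famA_map {A A' m : Type*} [CommRing A] [CommRing A'] [Fintype m] [DecidableEq m]
    (χ : A →+* A') (B : Matrix m m A) : famA (B.map χ) = fun i => (famA B i).map χ := by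
  funext p
  simp [famA, Matrix.map_sub, Matrix.map_mul, Matrix.map_single]

variable {L : Type} [Field L] (i : RR F ι κ →+* L) (hi : Function.Injective i)

/-- The generic unfolding over a field. -/
noncomputable def chiL : NC (Matrix n n F) ι →+* NC (Matrix (n × E) (n × E) L) (ι × κ) :=
  (NC.map i.mapMatrix).comp (chi1 W)

include hi

theorem rk_chi1 (b : NC (Matrix n n F) ι) :
    RkM (famP (chi1 W b)) (finrank L (LinearMap.range (Phi (chiL W i b)))) := by
  refine RkM.of_map i hi ?_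
  rw [← famP_map]
  exact rkM_famP _

theorem scp (hW : ∀ H, ∃ h : κ → F, H = ∑ l, h l • W l) (b : NC (Matrix n n F) ι) :
    SCP b E (finrank L (LinearMap.range (Phi (chiL W i b)))) := by
  refine ⟨κ, inferInstance, W, hW, fun y χ hχ => ?_⟩
  have hX : (C X : PowerSeries (PowerSeries F)) ∈ ((FC.adic F).ps 0).F 1 :=
    (FC.adic F).C_mem_ps FC.X_mem_adic
  obtain ⟨φ, hφ⟩ := exists_sp _ (algebraMap F _) hX (fun q : ι × κ => y q.1 q.2) 1
  rw [hφ.eq W _ hX (hχ.congr (fun _ => rfl) fun i => by simp [pt, smul_sum, smul_smul]), famP_map]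
  exact (rk_chi1 W i hi b).map φ

omit hi in
theorem RkM.fo' {I m : Type*} [Fintype I] [Fintype m] [DecidableEq m]
    {v : I → Matrix m m (PowerSeries L)} {S : Submodule L (Matrix m m L)}
    (h : RkM v (finrank L S)) (hS : S ≤ span L (Set.range fun a => cf0 (v a)))
    {M} (hM : M ∈ span (PowerSeries L) (Set.range v)) (h0 : cf0 M = 0) : cf1 M ∈ S := by
  let T : Submodule L (Matrix m m L) :=
    { carrier := {t | ∃ w : Matrix m m (PowerSeries L), cf0 w = t ∧
        (X : PowerSeries L) • w ∈ span (PowerSeries L) (Set.range v)}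
      add_mem' := by
        rintro _ _ ⟨w, rfl, h⟩ ⟨w', rfl, h'⟩
        exact ⟨w + w', map_add _ _ _, smul_add (X : PowerSeries L) w w' ▸ add_mem h h'⟩
      zero_mem' := ⟨0, map_zero _, by simp⟩
      smul_mem' := by
        rintro a _ ⟨w, rfl, h⟩
        refine ⟨(C a : PowerSeries L) • w, by ext; simp [cf0_apply], ?_⟩
        rw [smul_comm]
        exact smul_mem _ _ h }
  have h1 : S ≤ T := hS.trans (span_le.mpr (by
    rintro _ ⟨a, rfl⟩
    exact ⟨_, rfl, smul_mem _ _ (subset_span ⟨a, rfl⟩)⟩))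
  obtain ⟨w, hw, hw'⟩ := exists_X_smul h0
  rw [eq_of_le_of_finrank_le h1 (h.fo T fun t ht => ht)]
  exact ⟨w, hw', hw ▸ hM⟩

omit hi in
theorem exists_def (b : NC (Matrix n n F) ι) (q₀ : ι × κ) :
    ∃ φ : RR F ι κ →+* PowerSeries L, ∀ B, B = NC.map φ.mapMatrix (chi1 W b) →
      (∀ w, cf0 (B w) = chiL W i b w) ∧ cf1 (B []) = chiL W i b [q₀] ∧
      ∀ q, cf1 (B [q]) = chiL W i b [q₀, q] + chiL W i b [q, q₀] := by
  let f := fR F ι κ
  obtain ⟨φ, hφ⟩ := exists_sp (FC.ps f 0) (C.comp (algebraMap F _)) (f.C_mem_ps X_mem_fR)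
    (fun q : ι × κ => C (yv F q) + X * C ((Pi.single q₀ 1 : _ → RR F ι κ) q * tv F ι q.2))
    fun l => C (tv F ι l)
  have h0 : ∀ g w, cf0 (NC.map φ.mapMatrix (chi1 (n := n) W g) w) = chi1 W g w := fun g w => by
    have := (hφ.comp constantCoeff).eq W f (by simpa using X_mem_fR)
      ((chi1_ev (n := n) W).congr (fun m => by congr 2) fun i => by
        congr 1 <;> ext <;> simp) g
    conv_rhs => rw [this]
    rfl
  have ha : ∀ m : Matrix n n F, cf1 (kL E (m.map (C.comp (algebraMap F (RR F ι κ))))) = 0 :=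
    fun m => by rw [RingHom.coe_comp, ← Matrix.map_map, ← map_kL, cf1_C]
  have hY : ∀ i, cf0 (kR n ((C X : PowerSeries (RR F ι κ)) • ∑ l, (C (yv F (i, l)) +
      X * C ((Pi.single q₀ 1 : _ → RR F ι κ) (i, l) * tv F ι l)) •
      (W l).map (C.comp (algebraMap F (RR F ι κ))))) ∈ (f.mat _).F 1 := fun i p q => by
    have := kR_mem (n := n) (FC.ps f 0) (smul_mem_mat _ (f.C_mem_ps X_mem_fR) (∑ l, (C (yv F (i, l)) +
      X * C ((Pi.single q₀ 1 : _ → RR F ι κ) (i, l) * tv F ι l)) •
      (W l).map (C.comp (algebraMap F (RR F ι κ))))) p q 0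
    rwa [coeff_zero_eq_constantCoeff] at this
  have hh : ∀ i, cf1 (kR n ((C X : PowerSeries (RR F ι κ)) • ∑ l, (C (yv F (i, l)) +
      X * C ((Pi.single q₀ 1 : _ → RR F ι κ) (i, l) * tv F ι l)) •
      (W l).map (C.comp (algebraMap F (RR F ι κ))))) =
      ∑ q, (Pi.single q₀ 1 : _ → RR F ι κ) q • cf0 (if q.1 = i then kR n
        ((C X : PowerSeries (RR F ι κ)) • (C (tv F ι q.2) : PowerSeries (RR F ι κ)) •
          (W q.2).map (C.comp (algebraMap F (RR F ι κ)))) else 0) := fun i => by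
    simp only [Fintype.sum_prod_type, apply_ite cf0, map_zero, smul_ite, smul_zero, cf0_kR]
    rw [sum_comm]
    simp only [sum_ite_eq', mem_univ, if_true, cf1_kR, ← kR_smul, ← map_sum]
    congr 1
    ext1
    simp only [cf0_apply, cf1_apply, map_apply, Matrix.smul_apply, Matrix.sum_apply, smul_eq_mul,
      RingHom.comp_apply, map_sum, coeff_C_mul, coeff_mul_C, map_add, coeff_succ_C, mul_sum,
      coeff_one_X, constantCoeff_C, zero_add, map_mul constantCoeff]
    exact sum_congr rfl fun _ _ => by ring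
  have h1 := Ev.DL1 (hφ.ev W) (f.mat _) cf0 cf1 cf_leib ha hY _ hh b
  have h2 := Ev.DL2 (hφ.ev W) (f.mat _) cf0 cf1 cf_leib ha hY _ hh (fun i q => by
    split_ifs
    · rw [cf1_kR, ← map_zero (kR n)]
      congr 1
      ext1; simp [cf1_apply, ← map_mul, coeff_C]
    · exact map_zero _) b
  simp only [h0, Pi.single_apply, ite_smul, one_smul, zero_smul, sum_ite_eq', mem_univ,
    if_true] at h1 h2
  have e1 : ∀ M : Matrix (n × E) (n × E) (PowerSeries (RR F ι κ)),
      cf1 (M.map (PowerSeries.map i)) = (cf1 M).map i := fun M => by ext; simp [cf1_apply]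
  refine ⟨(PowerSeries.map i).comp φ, ?_⟩
  rintro _ rfl
  refine ⟨fun w => ?_, (e1 _).trans (congrArg (Matrix.map · i) h1), fun q =>
    (e1 _).trans ((congrArg (Matrix.map · i) (h2 q)).trans (Matrix.map_add _ (map_add i) _ _))⟩
  refine Eq.trans ?_ (congrArg (Matrix.map · i) (h0 b w))
  ext; simp [cf0_apply, ← coeff_zero_eq_constantCoeff_apply, -coeff_zero_eq_constantCoeff]

omit hi in
theorem cf0_famA {m : Type*} [Fintype m] [DecidableEq m] (B : Matrix m m (PowerSeries L)) (p) :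
    cf0 (famA B p) = famA (cf0 B) p := (congrFun (famA_map _ B) p).symm

theorem g1_chi (b : NC (Matrix n n F) ι) : G1 (chiL W i b) := by
  intro q c hc
  obtain ⟨φ, hφ⟩ := exists_def W i b q
  obtain ⟨h0, h1, -⟩ := hφ _ rfl
  set B := chiL W i b
  let S := LinearMap.range (LinearMap.mulLeft L (B []) - LinearMap.mulRight L (B []))
  have hr : RkM (famA (NC.map φ.mapMatrix (chi1 W b) [])) (finrank L S) := by
    rw [NC.map_apply, RingHom.mapMatrix_apply, famA_map]
    refine RkM.map (RkM.of_map i hi ?_) φ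
    rw [← famA_map]
    exact RkM.of_finrank S (fun p => ⟨single p.1 p.2 1, rfl⟩) le_rfl
  obtain ⟨g, hg⟩ := hr.fo' (by
    rintro _ ⟨g, rfl⟩
    exact comm_mem_span _ _ _ fun p => subset_span ⟨p, (cf0_famA _ _).trans (by rw [h0])⟩)
    (comm_mem_span _ (c.map C) _ fun p => subset_span ⟨p, rfl⟩)
    (by rw [map_sub, map_mul, map_mul, h0, cf0_C, hc, sub_self])
  refine ⟨g, ?_⟩
  rw [map_sub, cf_leib, cf_leib, cf0_C, cf1_C, h1] at hg
  simpa using hg.symm

theorem as_chi (b : NC (Matrix n n F) ι) : AS (chiL W i b) := by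
  refine AS_of_raw fun q v hv => ?_
  obtain ⟨φ, hφ⟩ := exists_def W i b q
  obtain ⟨h0, h1, h2⟩ := hφ _ rfl
  have hr := (rk_chi1 W i hi b).map φ
  rw [← famP_map] at hr
  set Bs := NC.map φ.mapMatrix (chi1 W b)
  have := hr.fo' (by
    rintro _ ⟨v, rfl⟩
    rw [Phi_apply, lin1_apply]
    refine add_mem (sum_mem fun j _ => smul_mem _ _ (subset_span ⟨Sum.inl j, h0 _⟩))
      (comm_mem_span _ _ _ fun p => subset_span ⟨Sum.inr p, ?_⟩)
    exact (cf0_famA _ _).trans (by rw [h0]))
    (M := ∑ j, (C (v.1 j) : PowerSeries L) • Bs [j] + (Bs [] * v.2.map C - v.2.map C * Bs []))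
    (add_mem (sum_mem fun j _ => smul_mem _ _ (subset_span ⟨Sum.inl j, rfl⟩))
      (comm_mem_span _ _ _ fun p => subset_span ⟨Sum.inr p, rfl⟩)) (by
    refine Eq.trans ?_ hv
    rw [map_add, map_sub, map_mul, map_mul, h0, cf0_C, Phi_apply, lin1_apply, map_sum]
    simp only [← h0]
    congr 1
    refine sum_congr rfl fun j _ => ?_
    ext; simp [cf0_apply])
  rw [map_add, map_sub, cf_leib, cf_leib, cf0_C, cf1_C, h1, map_sum] at this
  convert this using 2
  · refine sum_congr rfl fun j _ => ?_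
    rw [← h2]
    ext; simp [cf1_apply]
  · simp

end Vale.Agent.P199
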