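import Vale.Agent.P199.Child1

set_option linter.unusedSectionVars false

namespace Vale.Agent.P199
open Finset Module Submodule Matrix PowerSeries
open scoped Kronecker

variable {F n ι E κ : Type} [Field F] [Fintype n] [DecidableEq n] [Fintype ι] [DecidableEq ι]
  [Fintype E] [DecidableEq E] [Fintype κ] [DecidableEq κ] (W : κ → Matrix E E F)

theorem trace_kL {A : Type*} [CommRing A] (m : Matrix n n A) :
    (kL E m).trace = m.trace * Fintype.card E := by
  rw [kL_apply, trace_kronecker, trace_one]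

theorem tv_ne (l : κ) : tv F ι l ≠ 0 := fun h =>
  MvPolynomial.X_ne_zero _ (C_injective (h.trans (map_zero _).symm))

theorem map_al {m : Type*} (M : Matrix m m F) : M.map (algebraMap F (RR F ι κ)) =
    (M.map (MvPolynomial.C (σ := (ι × κ) ⊕ κ))).map C := by
  ext1; simp [PowerSeries.algebraMap_apply]

section Eul
variable {P m : Type*} [CommRing P] [Fintype m] [DecidableEq m] (T : PowerSeries P)

/-- A multiple of the derivative, applied entrywise. -/
noncomputable def eul : Matrix m m (PowerSeries P) →+ Matrix m m (PowerSeries P) :=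
  ((AddMonoidHom.mulLeft T).comp (derivative P).toLinearMap.toAddMonoidHom).mapMatrix

theorem eul_apply (M : Matrix m m (PowerSeries P)) (a b) :
    eul T M a b = T * derivative P (M a b) := rfl

theorem eul_C (M : Matrix m m P) : eul T (M.map C) = 0 := by ext1; simp [eul_apply]

theorem eul_X (M : Matrix m m P) : eul T ((X : PowerSeries P) • M.map C) = T • M.map C := by
  ext1; simp [eul_apply]

theorem eul_mul (M N : Matrix m m (PowerSeries P)) :
    eul T (M * N) = M * eul T N + eul T M * N := by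
  ext1
  simp only [eul_apply, Matrix.mul_apply, map_sum, Derivation.leibniz, Matrix.add_apply,
    ← sum_add_distrib, smul_eq_mul, mul_sum]
  exact sum_congr rfl fun _ _ => by ring

theorem eul_trace (M : Matrix m m (PowerSeries P)) :
    (eul T M).trace = T * derivative P M.trace := by
  simp [Matrix.trace, eul_apply, mul_sum]

end Eul

theorem eul_pt (i : ι) : eul ((∏ l, tv F ι l) * X) (kR n ((X : RR F ι κ) •
    ∑ l, yv F (i, l) • (W l).map (algebraMap F (RR F ι κ)))) =
    ∑ q : ι × κ, (yv F q * ∏ l ∈ univ.erase q.2, tv F ι l) • (if q.1 = i then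
      kR n ((X : RR F ι κ) • tv F ι q.2 • (W q.2).map (algebraMap F (RR F ι κ))) else 0) := by
  have : ∑ l, yv F (i, l) • (W l).map (algebraMap F (RR F ι κ)) =
      (∑ l, (MvPolynomial.X (Sum.inl (i, l)) : MvPolynomial ((ι × κ) ⊕ κ) F) •
        (W l).map MvPolynomial.C).map C := by
    ext1; simp [Matrix.sum_apply, yv, PowerSeries.algebraMap_apply]
  rw [kR_smul, this, ← map_kR, eul_X, map_kR, ← this]
  simp only [Fintype.sum_prod_type, smul_ite, smul_zero]
  rw [sum_comm]
  simp only [sum_ite_eq', mem_univ, if_true, map_sum, kR_smul, smul_sum, smul_smul]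
  refine sum_congr rfl fun l _ => ?_
  rw [← prod_erase_mul _ _ (mem_univ l)]
  exact congrArg (· • _) (by ring)

theorem euler [CharZero F] {g : NC (Matrix n n F) ι} (h : ∀ q, (chi1 W g [q]).trace = 0)
    (h0 : g [] = 0) : (chi1 W g []).trace = 0 := by
  have h1 := Ev.DL1 (chi1_ev W) ((fR F ι κ).mat _) (RingHom.id _) (eul ((∏ l, tv F ι l) * X))
    (eul_mul _) (fun m => by rw [map_al, ← map_kL, eul_C])
    (fun i => kR_mem _ (smul_mem_mat _ X_mem_fR _)) _ (eul_pt W) g
  have h2 := congrArg trace h1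
  simp only [trace_sum, trace_smul, RingHom.id_apply, h, smul_zero, sum_const_zero, eul_trace,
    mul_eq_zero (M₀ := RR F ι κ), X_ne_zero, prod_eq_zero_iff, tv_ne, and_false, exists_false,
    false_or] at h2
  refine derivative.ext (h2.trans (map_zero _).symm) ?_
  simp [chi1_eq, h0]

theorem path (hW : ∀ H, ∃ h : κ → F, H = ∑ l, h l • W l) {ν : E → ℕ} (hν : Function.Injective ν)
    {g : NC (Matrix n n F) ι} (h : chi1 W g [] = 0) (w : List ι)
    (hs : ∀ m < w.length + 1, ∃ s, ν s = m) : g w = 0 := by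
  choose c hc using fun j => hW (chainZ F ν (w.length + 1) w j)
  obtain ⟨φ, hφ⟩ := exists_sp (FC.adic F) C FC.X_mem_adic (fun q : ι × κ => C (c q.1 q.2)) 1
  obtain ⟨r, hr⟩ := hs 0 (by omega)
  obtain ⟨r', hr'⟩ := hs w.length (by omega)
  have := coeff_E0 (Z := chainZ F ν (w.length + 1) w) (((hφ.ev (n := n) W).comp NC.c0).congr
    (fun _ => rfl) fun j => by
      rw [hc]
      change kR n _ = _
      congr 2
      ext1; simp [Matrix.sum_apply]) w.length g r r'
  rw [Sb_chain hν hs le_rfl _ _ _ _ (by omega), if_pos (by omega), hr, hr'] at this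
  simpa [h] using this.symm

theorem trace_of_not_thne {B : NC (Matrix n n F) ι} (h : ¬ ThNe B) {g}
    (hg : g ∈ Algebra.adjoin F {B}) (q) : (g [q]).trace = 0 := by
  have h0 : ∀ g ∈ Algebra.adjoin F {B}, g [] ∈ Algebra.adjoin F {B []} := fun g hg =>
    adjoin_map_mem (RingHom.id F) NC.c0 (fun _ => rfl) _
      (by rintro _ rfl; exact Algebra.subset_adjoin rfl) hg
  have : ∀ c ∈ Algebra.adjoin F {B []}, (c * g [q]).trace = 0 := by
    induction hg using Algebra.adjoin_induction with
    | mem x hx =>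
      intro c hc
      by_contra hne
      exact h ⟨c, hc, q, hx ▸ hne⟩
    | algebraMap r => simp [NC.algebraMap_eq]
    | add x y _ _ hx hy => intro c hc; rw [NC.add_apply, mul_add, trace_add, hx c hc, hy c hc, add_zero]
    | mul x y hx' hy' hx hy =>
      intro c hc
      rw [NC.mul_single, mul_add, trace_add, ← mul_assoc, trace_mul_comm, ← mul_assoc, ← mul_assoc,
        hx _ (mul_mem (h0 _ hy') hc), hy _ (mul_mem hc (h0 _ hx')), add_zero]
  simpa using this 1 (one_mem _)

/-- Base change of a resolution. -/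
def Res.map {k : Type} [Field k] (j : F →+* k) {b : NC (Matrix n n F) ι} (R : Res b) :
    Res (NC.map j.mapMatrix b) where
  Λ := R.Λ
  lam a := j (R.lam a)
  lam_inj := j.injective.comp R.lam_inj
  P a := (R.P a).map j
  oi := ⟨fun a a' h => by rw [← Matrix.map_mul, R.oi.orth a a' h, Matrix.map_zero _ (map_zero j)],
    fun a => by rw [← Matrix.map_mul, R.oi.idem],
    (map_sum j.mapMatrix _ _).symm.trans (by rw [R.oi.sum, map_one])⟩
  eigL a := by rw [← map_smul'', ← R.eigL, Matrix.map_mul]; rfl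
  eigR a := by rw [← map_smul'', ← R.eigR, Matrix.map_mul]; rfl
  μ := R.μ
  μ_pos := R.μ_pos
  tr a := by rw [trace_map, R.tr, map_natCast]
  J := R.J
  cls := R.cls
  th a i := j (R.th a i)
  ρ a := j (R.ρ a)
  ρ_ne a := (map_ne_zero j).mpr (R.ρ_ne a)
  g1 a i := by rw [← map_mul, ← map_smul'', ← R.g1, Matrix.map_mul, Matrix.map_mul]; rfl
  th_ne a h := R.th_ne a (funext fun i => j.injective ((congrFun h i).trans (map_zero j).symm))
  nonpar a a' h := R.nonpar a a' fun i i' => j.injective (by simpa using h i i')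
  κ := R.κ
  κ_pos := R.κ_pos
  fib := R.fib

theorem Res.E2.map {k : Type} [Field k] (j : F →+* k) {b : NC (Matrix n n F) ι} {R : Res b}
    (h : R.E2) : (R.map j).E2 := by
  let := j.toAlgebra
  have h1 : LinearIndependent F fun a (p : ι × ι) => R.th a p.1 * R.th a p.2 :=
    Fintype.linearIndependent_iff.mpr fun γ hγ => congrFun (h γ fun i i' => by
      simpa using congrFun hγ (i, i'))
  have h2 := Fintype.linearIndependent_iff.mp
    ((linearIndependent_algebraMap_comp_iff (S := k)).mpr h1)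
  refine fun γ hγ => funext (h2 γ (funext fun p => ?_))
  simpa [RingHom.algebraMap_toAlgebra] using! hγ p.1 p.2

theorem Res.exists_pencil [IsAlgClosed F] [CharZero F] {b : NC (Matrix n n F) ι} (R : Res b)
    {e : ℕ} (he : 0 < e) : ∃ (u u' : ι → F) (ω : R.J → F), (∀ j, R.th j ⬝ᵥ u ≠ 0) ∧
      (∀ j j', R.th j ⬝ᵥ u * R.th j' ⬝ᵥ u' = R.th j' ⬝ᵥ u * R.th j ⬝ᵥ u' → j = j') ∧
      (∀ j, ω j ≠ 0) ∧ ∀ j, ω j ^ e = (R.th j ⬝ᵥ u) ^ e + (R.th j ⬝ᵥ u') ^ e := by
  obtain ⟨u, hu⟩ := R.exists_eta
  change ∀ j, R.th j ⬝ᵥ u ≠ 0 at hu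
  obtain ⟨v, hv⟩ := Module.Dual.exists_forall_ne_zero_of_forall_exists
    (fun p : {p : R.J × R.J // p.1 ≠ p.2} => dotProductEquiv F ι
      ((R.th p.1.1 ⬝ᵥ u) • R.th p.1.2 - (R.th p.1.2 ⬝ᵥ u) • R.th p.1.1)) fun p => by
      by_contra hne
      push Not at hne
      refine p.2 (R.nonpar _ _ fun i i' => mul_left_cancel₀ (hu p.1.1) ?_)
      have h1 := hne (Pi.single i 1)
      have h2 := hne (Pi.single i' 1)
      simp [sub_eq_zero] at h1 h2
      linear_combination R.th p.1.1 i * h2 - R.th p.1.1 i' * h1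
  let q : Polynomial F := Polynomial.X * ∏ j, (Polynomial.C ((R.th j ⬝ᵥ u) ^ e) +
      Polynomial.C ((R.th j ⬝ᵥ v) ^ e) * Polynomial.X ^ e)
  have hp : q ≠ 0 := by
    refine mul_ne_zero Polynomial.X_ne_zero (prod_ne_zero_iff.mpr fun j _ h => hu j ?_)
    simpa [he.ne'] using congrArg (Polynomial.eval 0) h
  obtain ⟨t, ht⟩ : ∃ t, q.eval t ≠ 0 := by
    by_contra h
    push Not at h
    exact hp (Polynomial.funext fun t => (h t).trans Polynomial.eval_zero.symm)
  simp only [q, Polynomial.eval_mul, Polynomial.eval_X, Polynomial.eval_prod, Polynomial.eval_add,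
    Polynomial.eval_C, Polynomial.eval_pow, ne_eq, mul_eq_zero, not_or, prod_eq_zero_iff,
    mem_univ, true_and, not_exists] at ht
  choose ω hω using fun j => IsAlgClosed.exists_pow_nat_eq
    ((R.th j ⬝ᵥ u) ^ e + (R.th j ⬝ᵥ v) ^ e * t ^ e) he
  refine ⟨u, t • v, ω, hu, fun j j' h => ?_, fun j h => ht.2 j ?_, fun j => ?_⟩
  · by_contra hne
    refine hv ⟨(j, j'), hne⟩ (mul_left_cancel₀ ht.1 ?_)
    simp only [dotProduct_smul, smul_eq_mul] at h
    simp only [dotProductEquiv_apply_apply, sub_dotProduct, smul_dotProduct, smul_eq_mul]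
    linear_combination h
  · rw [← hω, h, zero_pow he.ne']
  · rw [hω, dotProduct_smul, smul_eq_mul, mul_pow, mul_comm]

variable {L : Type} [Field L] (i : RR F ι κ →+* L)

theorem chiL_scal (a : F) : chiL (n := n) W i (algebraMap F _ a) =
    algebraMap L _ ((i.comp (algebraMap F _)) a) := by
  rw [chiL, RingHom.comp_apply, NC.algebraMap_eq, (chi1_ev W).C, NC.map_C, NC.algebraMap_eq]
  congr 1
  rw [Algebra.algebraMap_eq_smul_one, Algebra.algebraMap_eq_smul_one, map_smul'', kL_smul,
    RingHom.mapMatrix_apply, map_smul'', Matrix.map_one _ (map_zero _) (map_one _), map_one,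
    Matrix.map_one _ (map_zero _) (map_one _)]
  rfl

theorem chiL_apply (g : NC (Matrix n n F) ι) (w) : chiL W i g w = (chi1 W g w).map i := rfl

theorem chiL_eq (g : NC (Matrix n n F) ι) : chiL W i g =
    NC.C (kL E ((g []).map (i.comp (algebraMap F _)))) + i X • NC.map i.mapMatrix (hat W g) := by
  rw [chiL, RingHom.comp_apply, chi1_eq, map_add, NC.map_C, RingHom.mapMatrix_apply, map_kL,
    Matrix.map_map]
  congr 1
  ext1
  exact map_smul'' _ _ _

variable (hi : Function.Injective i)
include hi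

theorem thne_chi [CharZero F] [Nonempty E] {l₀} (hl : W l₀ = 1) {b : NC (Matrix n n F) ι}
    (h : ThNe b) : ThNe (chiL W i b) := by
  obtain ⟨c, hc, q, hq⟩ := h
  rw [Algebra.adjoin_singleton_eq_range_aeval] at hc
  obtain ⟨p, rfl⟩ := hc
  refine ⟨chiL W i (Polynomial.aeval b p) [], adjoin_map_mem _ (NC.c0.comp (chiL W i))
    (fun a => congrArg NC.c0 (chiL_scal W i a)) _ (by
      rintro _ rfl; exact Algebra.subset_adjoin rfl) (Polynomial.aeval_mem_adjoin_singleton F b),
    (q, l₀), fun h => hq ?_⟩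
  rw [chiL_apply, chiL_apply, ← Matrix.map_mul, trace_map, map_eq_zero_iff i hi, chi1_eq W b] at h
  simp only [NC.add_apply, NC.C_cons, zero_add, NC.smul_apply, mul_smul_comm, trace_smul,
    smul_eq_mul, mul_eq_zero, X_ne_zero, false_or] at h
  obtain ⟨φ, hφ⟩ := exists_sp (ι := ι) (κ := κ) (FC.triv F) (RingHom.id F) (t := 0)
    (zero_mem _) 0 1
  have h1 := congrArg (· []) (hφ.chi_zero W (Polynomial.aeval b p))
  have h2 := congrArg (· [(q, l₀)]) (hφ.hat_eq W b)
  have := congrArg φ h
  simp only [NC.map_apply, RingHom.mapMatrix_apply] at h1 h2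
  rw [← trace_map, Matrix.map_mul, h1, h2] at this
  simpa [hl, kL_apply, ← mul_kronecker_mul, trace_kronecker, NC.aeval_nil] using this

theorem exists_setup [IsAlgClosed F] [CharZero F] {e : ℕ} [NeZero e] {ζ : F}
    {X' Y' : Matrix (ZMod e) (ZMod e) F} (h : CS ζ X' Y') (i : RR F ι (ZMod e × ZMod e) →+* L)
    (hi : Function.Injective i) {b : NC (Matrix n n F) ι} (R : Res b) :
    ∃ (k : Type) (_ : Field k) (_ : CharZero k) (j : F →+* k) (p : Place L k),
      Nonempty (Setup p (R.map j) (chiL (Wm X' Y') i b)) := by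
  obtain ⟨u, u', ω, h1, h2, h3, h4⟩ := R.exists_pencil (NeZero.pos e)
  choose c hc using fun i => h.span_Wm (u i • X' + u' i • Y')
  obtain ⟨φ, hφ⟩ := exists_sp (FC.triv F) (RingHom.id F) (t := 0) (zero_mem _)
    (fun q : ι × ZMod e × ZMod e => c q.1 q.2) 1
  obtain ⟨k, _, j, p, hp⟩ := exists_place i hi (⟨φ, hφ.al⟩ : _ →ₐ[F] F)
  have : CharZero k := charZero_of_injective_ringHom j.injective
  have hr : ∀ M : Matrix (n × ZMod e) (n × ZMod e) (RR F ι (ZMod e × ZMod e)),
      p.RdM (M.map i) ((M.map φ).map j) := fun M a a' => hp _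
  have hk : ∀ m : Matrix n n F, p.RdM (kL (ZMod e) (m.map (i.comp (algebraMap F _))))
      (kL (ZMod e) (m.map j)) := fun m => by
    have := hr (kL (ZMod e) (m.map (algebraMap F _)))
    simpa only [map_kL, hφ.map_map, RingHom.coe_id, Matrix.map_id, Matrix.map_map] using! this
  have hh := fun w => hr (hat (Wm X' Y') b w)
  have h5 := fun w => congrArg (· w) (hφ.hat_eq (Wm X' Y') b)
  simp only [NC.map_apply, RingHom.mapMatrix_apply, RingHom.coe_id, Matrix.map_id, ← hc] at h5
  simp only [h5] at hh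
  obtain ⟨pen⟩ := (h.map j).exists_pen (fun a => j (R.th a ⬝ᵥ u)) (fun a => j (R.th a ⬝ᵥ u'))
    (fun a => j (ω a)) (fun a => (map_ne_zero j).mpr (h1 a))
    (fun a a' h => h2 a a' (j.injective (by simpa only [map_mul] using h)))
    (fun a => (map_ne_zero j).mpr (h3 a)) fun a => by simp only [← map_pow, ← map_add, h4]
  refine ⟨k, inferInstance, this, j, p, ⟨{
    W := (h.map j).basis
    Y := fun i => (u i • X' + u' i • Y').map j
    pen := cast (congrArg Pen (funext fun a => ?_)) pen
    ε := i X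
    ε_ne := (map_ne_zero_iff i hi).mpr X_ne_zero
    ε_rd := ?_
    B0 := _
    bh := _
    hB := chiL_eq _ i b
    rB0 := hk _
    rh0 := ?_
    rh1 := fun a l => ?_
    rh2 := fun q q' => ?_
    Pl := fun a => kL (ZMod e) ((R.P a).map (i.comp (algebraMap F _)))
    rPl := fun a => hk _
    hPl := fun a g => ?_ }⟩⟩
  · ext1
    simp [Res.map, dotProduct, Matrix.sum_apply, sum_mul, mul_add, sum_add_distrib, mul_assoc]
  · have := hp X
    rwa [show (⟨φ, hφ.al⟩ : _ →ₐ[F] F) X = 0 from hφ.X, map_zero] at this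
  · convert hh [] using 1
    · rfl
    rw [NC.aff_nil, ← RingHom.mapMatrix_apply, map_sum]
    simp only [RingHom.mapMatrix_apply, map_kron, NC.map_apply]
  · convert hh [(a, l)] using 1
    · rfl
    rw [NC.aff_one, map_kron, CS.basis_apply, Wm_map]
    rfl
  · simpa using hh [q, q']
  · rw [mul_sub, sub_mul, ← mul_assoc, mul_assoc _ (g * _), mul_assoc g, ← map_mul, ← map_mul,
      ← Matrix.map_mul, ← Matrix.map_mul, R.eigL a, R.eigR a]
    simp [map_smul'', kL_smul, mul_assoc, -RingHom.coe_comp]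

end Vale.Agent.P199
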