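import Vale.Agent.P199.Child2

set_option linter.unusedSectionVars false

namespace Vale.Agent.P199
open Finset Module Submodule Matrix
open scoped Kronecker

/-- A graded family of additive subgroups without homogeneous zero divisors. -/
structure GF (B κ : Type*) [Ring B] [AddCommGroup κ] where
  T : κ → AddSubgroup B
  one : 1 ∈ T 0
  mul : ∀ {k l a b}, a ∈ T k → b ∈ T l → a * b ∈ T (k + l)
  dom : ∀ {k l a b}, a ∈ T k → b ∈ T l → a * b = 0 → a = 0 ∨ b = 0

namespace GF
variable {B κ : Type*} [Ring B] [AddCommGroup κ] (G : GF B κ)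

/-- The degree zero subring. -/
def sub : Subring B :=
  { G.T 0 with
    mul_mem' := fun ha hb => by simpa using G.mul ha hb
    one_mem' := G.one }

/-- The graded family of series with coefficients in a graded family. -/
def lift {S I Γ : Type*} [Ring S] [AddCommMonoid I] [HasAntidiagonal I] [DecidableEq I]
    [AddCommMonoid Γ] [LinearOrder Γ] [IsOrderedCancelAddMonoid Γ] [WellFoundedLT Γ]
    (f : I →+ Γ) (hf : Function.Injective f) (c : I → S →+ B)
    (hc : ∀ a, (∀ i, c i a = 0) → a = 0)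
    (hm : ∀ i a b, c i (a * b) = ∑ p ∈ antidiagonal i, c p.1 a * c p.2 b)
    (h1 : ∀ i, c i 1 = if i = 0 then 1 else 0) (wt : I →+ κ) : GF S κ where
  T k := ⨅ i, (G.T (k + wt i)).comap (c i)
  one := AddSubgroup.mem_iInf.mpr fun i => by
    rw [AddSubgroup.mem_comap, h1]
    split_ifs with h
    · simpa [h] using G.one
    · exact zero_mem _
  mul {k l a b} ha hb := AddSubgroup.mem_iInf.mpr fun i => by
    rw [AddSubgroup.mem_comap, hm]
    refine sum_mem fun p hp => ?_
    rw [← mem_antidiagonal.mp hp, map_add, add_add_add_comm]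
    exact G.mul (AddSubgroup.mem_iInf.mp ha p.1) (AddSubgroup.mem_iInf.mp hb p.2)
  dom {k l a b} ha hb hab := by
    by_contra hne
    push Not at hne
    have key : ∀ a, a ≠ 0 → ∃ i, c i a ≠ 0 ∧ ∀ j, c j a ≠ 0 → f i ≤ f j := fun a ha => by
      obtain ⟨i, hi, hi'⟩ := (InvImage.wf f wellFounded_lt).has_min {i | c i a ≠ 0} (by
        by_contra h
        exact ha (hc a fun i => by_contra fun hi => h ⟨i, hi⟩))
      exact ⟨i, hi, fun j hj => not_lt.mp (hi' j hj)⟩
    obtain ⟨i, hi, hi'⟩ := key a hne.1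
    obtain ⟨j, hj, hj'⟩ := key b hne.2
    have := hm (i + j) a b
    rw [hab, map_zero, sum_eq_single (i, j)] at this
    · exact (G.dom (AddSubgroup.mem_iInf.mp ha i) (AddSubgroup.mem_iInf.mp hb j)
        this.symm).elim hi hj
    · intro p hp hne
      by_contra h
      have h2 := congrArg f (mem_antidiagonal.mp hp)
      rw [map_add, map_add, eq_comm, add_eq_add_iff_eq_and_eq (hi' _ (left_ne_zero_of_mul h))
        (hj' _ (right_ne_zero_of_mul h))] at h2
      exact hne (Prod.ext (hf h2.1).symm (hf h2.2).symm)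
    · simp

variable {A m : Type*} [CommRing A] [Fintype m] [DecidableEq m] (G : GF (Matrix m m A) κ)

/-- Matrices over power series. -/
noncomputable def ps : GF (Matrix m m (PowerSeries A)) κ :=
  G.lift (AddMonoidHom.id ℕ) Function.injective_id
    (fun d => (PowerSeries.coeff (R := A) d).toAddMonoidHom.mapMatrix)
    (fun a h => by ext i j d; exact congrFun₂ (h d) i j)
    (fun d a b => by
      ext i j
      simp only [AddMonoidHom.mapMatrix_apply, map_apply, Matrix.mul_apply, map_sum,
        LinearMap.toAddMonoidHom_coe, PowerSeries.coeff_mul, Matrix.sum_apply]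
      exact sum_comm)
    (fun d => by
      ext i j
      by_cases h : d = 0 <;> by_cases h' : i = j <;> simp [h, h', PowerSeries.coeff_one, one_apply]) 0

theorem mem_ps {k M} : M ∈ G.ps.T k ↔ ∀ d, M.map (PowerSeries.coeff d) ∈ G.T k := by
  simp [ps, lift]

theorem C_mem_ps {k M} (h : M ∈ G.T k) : M.map PowerSeries.C ∈ G.ps.T k := G.mem_ps.mpr fun d => by
  rcases d with _ | d
  · convert h using 1; ext; simp
  · convert zero_mem (G.T k) using 1; ext; simp

theorem X_mem_ps : (PowerSeries.X : PowerSeries A) • (1 : Matrix m m _) ∈ G.ps.T 0 :=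
  G.mem_ps.mpr fun d => by
    by_cases h : d = 1
    · convert G.one using 1
      ext i j
      by_cases h' : i = j <;> simp [h, h', one_apply]
    · convert zero_mem (G.T 0) using 1
      ext i j
      by_cases h' : i = j <;> simp [h, h', PowerSeries.coeff_X]

variable {σ : Type*} [Fintype σ] [DecidableEq σ] (deg : σ → κ)

/-- Matrices over graded polynomial rings. -/
noncomputable def mv : GF (Matrix m m (MvPolynomial σ A)) κ :=
  letI : LinearOrder σ := LinearOrder.lift' _ (Fintype.equivFin σ).injective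
  G.lift (MonomialOrder.lex (σ := σ)).toSyn.toAddMonoidHom (AddEquiv.injective _)
    (fun d => (MvPolynomial.coeffAddMonoidHom (R := A) d).mapMatrix)
    (fun a h => by ext i j d; exact congrFun₂ (h d) i j)
    (fun d a b => by
      ext i j
      simp only [AddMonoidHom.mapMatrix_apply, map_apply, Matrix.mul_apply, map_sum,
        MvPolynomial.coeffAddMonoidHom_apply, MvPolynomial.coeff_mul, Matrix.sum_apply]
      exact sum_comm)
    (fun d => by
      ext i j
      by_cases h : d = 0 <;> by_cases h' : i = j <;>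
        simp [h, h', MvPolynomial.coeff_one, eq_comm, one_apply]) (Finsupp.weight deg)

theorem mem_mv {k M} : M ∈ (G.mv deg).T k ↔
    ∀ d, M.map (MvPolynomial.coeff d) ∈ G.T (k + Finsupp.weight deg d) := by
  simp [mv, lift]
  rfl

theorem C_mem_mv {k M} (h : M ∈ G.T k) : M.map MvPolynomial.C ∈ (G.mv deg).T k :=
  (G.mem_mv deg).mpr fun d => by
    by_cases hd : 0 = d
    · subst hd
      convert h using 1
      · simp
      · ext; simp
    · convert zero_mem (G.T _) using 1; ext; simp [hd]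

theorem X_mem_mv (v : σ) : (MvPolynomial.X v : MvPolynomial σ A) • (1 : Matrix m m _) ∈
    (G.mv deg).T (-deg v) := (G.mem_mv deg).mpr fun d => by
  by_cases h : Finsupp.single v 1 = d
  · subst h
    convert G.one using 1
    · simp [Finsupp.weight_single]
    · ext i j
      by_cases h' : i = j <;> simp [h', one_apply]
  · convert zero_mem (G.T _) using 1
    ext i j
    by_cases h' : i = j <;> simp [h, h', MvPolynomial.coeff_X]

theorem smul_mem {k l} {a : A} {M} (ha : a • (1 : Matrix m m A) ∈ G.T k) (hM : M ∈ G.T l) :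
    a • M ∈ G.T (k + l) := by
  simpa using G.mul ha hM

end GF

theorem exists_form {R L m B : Type} [CommRing R] [Field L] [Fintype m] [DecidableEq m] [Fintype B]
    (i : R →+* L) (hi : Function.Injective i) (D : Subring (Matrix m m R))
    (dom : ∀ a ∈ D, ∀ b ∈ D, a * b = 0 → a = 0 ∨ b = 0) (e : Basis B L (Matrix m m L))
    (he : ∀ β, ∃ u ∈ D, e β = u.map i)
    (hD : ∀ M ∈ D, ∀ β, ∃ p q : R, p • 1 ∈ D ∧ q • 1 ∈ D ∧ e.repr (M.map i) β = i p / i q)
    (roots : ∀ p : ℕ, p.Prime → ∃ ζ : R, ζ • 1 ∈ D ∧ IsPrimitiveRoot ζ p) :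
    ∃ fm : Form L m, (∀ a : R, a • 1 ∈ D → i a ∈ fm.K) ∧ ∀ M ∈ D, M.map i ∈ fm.D := by
  have : IsDomain R := hi.isDomain i
  let R₀ := D.comap (algebraMap R (Matrix m m R))
  have hR : ∀ a, a ∈ R₀ ↔ a • 1 ∈ D := fun a => by
    rw [Subring.mem_comap, Algebra.algebraMap_eq_smul_one]
  have hs : ∀ a ∈ R₀, ∀ M ∈ D, a • M ∈ D := fun a ha M hM => by
    rw [Algebra.smul_def]; exact mul_mem ha hM
  let K := Subfield.closure (R₀.map i : Set L)
  have hK : ∀ a, a • 1 ∈ D → i a ∈ K := fun a ha =>
    Subfield.subset_closure ⟨a, (hR a).mpr ha, rfl⟩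
  have h1 : ∀ M ∈ D, ∀ β, e.repr (M.map i) β ∈ K := fun M hM β => by
    obtain ⟨p, q, hp, hq, h⟩ := hD M hM β
    exact h ▸ div_mem (hK p hp) (hK q hq)
  choose u hu hu' using he
  let D' : Subring (Matrix m m L) :=
    { carrier := {M | ∀ β, e.repr M β ∈ K}
      mul_mem' := fun {a b} ha hb β => by
        rw [← e.sum_repr a, ← e.sum_repr b]
        simp only [sum_mul, mul_sum, smul_mul_assoc, mul_smul_comm, map_sum, map_smul,
          Finsupp.coe_finsetSum, Finset.sum_apply, Finsupp.smul_apply, smul_eq_mul]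
        refine sum_mem fun γ _ => sum_mem fun γ' _ => mul_mem (hb _) (mul_mem (ha _) ?_)
        rw [hu', hu', ← Matrix.map_mul]
        exact h1 _ (mul_mem (hu _) (hu _)) β
      one_mem' := by simpa using h1 1 (one_mem _)
      add_mem' := fun ha hb β => by rw [map_add]; exact add_mem (ha β) (hb β)
      zero_mem' := fun β => by rw [map_zero]; exact zero_mem _
      neg_mem' := fun ha β => by rw [map_neg]; exact neg_mem (ha β) }
  have h2 : ∀ M ∈ D', ∃ s ∈ R₀, s ≠ 0 ∧ ∃ M' ∈ D, i s • M = M'.map i := fun M hM => by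
    rw [← e.sum_repr M]
    refine sum_induction _ (fun M => ∃ s ∈ R₀, s ≠ 0 ∧ ∃ M' ∈ D, i s • M = M'.map i) ?_
      ⟨1, one_mem _, one_ne_zero, 0, zero_mem _, by simp⟩ fun β _ => ?_
    · rintro a b ⟨s, hs₀, hs₁, M, hM, h⟩ ⟨s', hs₀', hs₁', M', hM', h'⟩
      refine ⟨s * s', mul_mem hs₀ hs₀', mul_ne_zero hs₁ hs₁', s' • M + s • M',
        add_mem (hs _ hs₀' _ hM) (hs _ hs₀ _ hM'), ?_⟩
      rw [Matrix.map_add _ (map_add i), map_smul'', map_smul'', ← h, ← h', map_mul, smul_add,
        smul_smul, smul_smul, mul_comm (i s')]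
    · obtain ⟨p, hp, q, hq, h⟩ := Subfield.mem_closure_iff.mp (hM β)
      rw [Subring.closure_eq] at hp hq
      obtain ⟨p, hp, rfl⟩ := hp
      obtain ⟨q, hq, rfl⟩ := hq
      by_cases h0 : q = 0
      · exact ⟨1, one_mem _, one_ne_zero, 0, zero_mem _, by simp [← h, h0]⟩
      · refine ⟨q, hq, h0, p • u β, hs _ hp _ (hu β), ?_⟩
        rw [← h, smul_smul, mul_div_cancel₀ _ ((map_ne_zero_iff i hi).mpr h0), map_smul'', hu']
  refine ⟨⟨K, B, e, D', fun _ => Iff.rfl, fun a ha b hb hab => ?_, fun p hp => ?_⟩, hK, h1⟩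
  · obtain ⟨s, -, hs, M, hM, h⟩ := h2 a ha
    obtain ⟨s', -, hs', M', hM', h'⟩ := h2 b hb
    have h3 : M * M' = 0 := Matrix.map_injective hi (by
      simp only [Matrix.map_mul, ← h, ← h', smul_mul_assoc, mul_smul_comm, hab, smul_zero,
        Matrix.map_zero _ (map_zero i)])
    refine (dom _ hM _ hM' h3).imp ?_ ?_
    · rintro rfl
      simpa [map_eq_zero_iff i hi, hs] using h
    · rintro rfl
      simpa [map_eq_zero_iff i hi, hs'] using h'
  · obtain ⟨ζ, h, h'⟩ := roots p hp
    exact ⟨i ζ, hK ζ h, h'.map_of_injective hi⟩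

end Vale.Agent.P199
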