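import Vale.Agent.P199.Child3

set_option linter.unusedSectionVars false

namespace Vale.Agent.P199
open Finset Module Submodule Matrix PowerSeries
open scoped Kronecker

section TB
variable {F n E B κ : Type} [Field F] [Fintype n] [DecidableEq n] [Fintype E] [DecidableEq E]

/-- Kronecker product of bases. -/
noncomputable def kronB (e : Basis B F (Matrix n n F)) (W : Basis κ F (Matrix E E F)) :
    Basis (B × κ) F (Matrix (n × E) (n × E) F) :=
  (e.tensorProduct W).map (kroneckerLinearEquiv n n E E F)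

theorem kronB_apply (e : Basis B F (Matrix n n F)) (W : Basis κ F (Matrix E E F)) (l) :
    kronB e W l = e l.1 ⊗ₖ W l.2 := by
  simp [kronB, Basis.tensorProduct_apply']

theorem kronB_repr (e : Basis B F (Matrix n n F)) (W : Basis κ F (Matrix E E F)) (a w l) :
    (kronB e W).repr (a ⊗ₖ w) l = W.repr w l.2 * e.repr a l.1 := by
  rcases l with ⟨β, l⟩
  simp [kronB]

end TB

variable {F n ι : Type} [Field F] [CharZero F] [Fintype n] [DecidableEq n] [Fintype ι]
  [DecidableEq ι] {e : ℕ} [NeZero e] {ζ : F} {X' Y' : Matrix (ZMod e) (ZMod e) F}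
  (h : CS ζ X' Y') (fm : Form F n) (hζ : ζ ∈ fm.K)

/-- The graded family on the tensor product with clock and shift matrices. -/
def gf0 : GF (Matrix (n × ZMod e) (n × ZMod e) F) (ZMod e × ZMod e) where
  T k :=
    { carrier := {M | ∃ d ∈ fm.D, d ⊗ₖ Wm X' Y' k = M}
      add_mem' := by
        rintro _ _ ⟨d, hd, rfl⟩ ⟨d', hd', rfl⟩
        exact ⟨d + d', add_mem hd hd', add_kronecker _ _ _⟩
      zero_mem' := ⟨0, zero_mem _, zero_kronecker _⟩
      neg_mem' := by
        rintro _ ⟨d, hd, rfl⟩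
        exact ⟨-d, neg_mem hd, by ext; simp⟩ }
  one := ⟨1, one_mem _, by simp⟩
  mul := by
    rintro k l _ _ ⟨d, hd, rfl⟩ ⟨d', hd', rfl⟩
    refine ⟨_, fm.smul_mem (pow_mem hζ (l.1.val * k.2.val)) (mul_mem hd hd'), ?_⟩
    rw [← mul_kronecker_mul, h.Wm_mul, kronecker_smul, smul_kronecker]
  dom := by
    rintro k l _ _ ⟨d, hd, rfl⟩ ⟨d', hd', rfl⟩ h0
    rw [← mul_kronecker_mul, h.Wm_mul, kronecker_smul, smul_eq_zero] at h0
    have h1 := h0.resolve_left (pow_ne_zero _ h.zeta_ne)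
    obtain ⟨p, hp⟩ := Function.ne_iff.mp (h.li_Wm.ne_zero (k + l))
    obtain ⟨q, hq⟩ := Function.ne_iff.mp hp
    have h2 : d * d' = 0 := by
      ext a c
      exact (mul_eq_zero.mp (congrFun₂ h1 (a, p) (c, q))).resolve_right hq
    exact (fm.dom _ hd _ hd' h2).imp (by rintro rfl; simp) (by rintro rfl; simp)

variable (ι) in
/-- The graded family over the coefficient ring. -/
noncomputable def gfR : GF (Matrix (n × ZMod e) (n × ZMod e) (RR F ι (ZMod e × ZMod e)))
    (ZMod e × ZMod e) := ((gf0 h fm hζ).mv (Sum.elim Prod.snd id)).ps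

theorem al_mem {k M} (hM : M ∈ (gf0 h fm hζ).T k) :
    M.map (algebraMap F _) ∈ (gfR ι h fm hζ).T k := by
  rw [map_al]
  exact GF.C_mem_ps _ (GF.C_mem_mv _ _ hM)

theorem var_mem (v) : (C (MvPolynomial.X v) : RR F ι (ZMod e × ZMod e)) • 1 ∈
    (gfR ι h fm hζ).T (-Sum.elim Prod.snd id v) := by
  have := GF.C_mem_ps _ (GF.X_mem_mv (gf0 h fm hζ) (Sum.elim Prod.snd id) v)
  rwa [map_smul'', Matrix.map_one _ (map_zero _) (map_one _)] at this

theorem scal_mem {a} (ha : a ∈ fm.K) :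
    algebraMap F (RR F ι (ZMod e × ZMod e)) a • 1 ∈ (gfR ι h fm hζ).T 0 := by
  have := al_mem (ι := ι) h fm hζ (k := 0) (M := a • 1)
    ⟨_, fm.smul_mem ha (one_mem _), by simp [smul_kronecker]⟩
  rwa [map_smul'', Matrix.map_one _ (map_zero _) (map_one _)] at this

theorem kR_mem_gf (l) : kR n ((Wm X' Y' l).map (algebraMap F _)) ∈ (gfR ι h fm hζ).T l := by
  rw [← map_kR]
  exact al_mem h fm hζ ⟨1, one_mem _, rfl⟩

theorem chi1_mem {g} (hg : g ∈ NC.sub fm.D ι) :
    chi1 (Wm X' Y') g ∈ NC.sub (gfR ι h fm hζ).sub _ := by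
  have hX : ∀ M ∈ (gfR ι h fm hζ).T 0, (X : RR F ι (ZMod e × ZMod e)) • M ∈ (gfR ι h fm hζ).sub :=
    fun M hM => by simpa using! (gfR ι h fm hζ).smul_mem (GF.X_mem_ps _) hM
  refine (chi1_ev (Wm X' Y')).mem_closed _ (pt_mem (fR F ι _) _ _ X_mem_fR _ _)
    (NC.sub (gfR ι h fm hζ).sub _) (fun b hb w => (GF.mem_ps _).mpr fun d => ?_) (fun i => NC.aff_mem_sub ?_ fun q => ?_) fm.D
    (fun m hm => NC.C_mem_sub ?_) hg
  · obtain ⟨t, ht, ht'⟩ := hb (d + 1)
    convert (GF.mem_ps _).mp (ht w) d using 1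
    ext1 p q
    exact sub_eq_zero.mp ((map_sub (coeff d) _ _).symm.trans
      (FC.mem_adic.mp ((FC.mem_nc0 _).mp ht' w p q) d d.lt_succ_self))
  · rw [kR_smul, map_sum]
    refine hX _ (sum_mem fun l _ => ?_)
    rw [kR_smul]
    simpa using! (gfR ι h fm hζ).smul_mem (var_mem h fm hζ (Sum.inl (i, l))) (kR_mem_gf h fm hζ l)
  · split_ifs
    · rw [kR_smul, kR_smul]
      refine hX _ ?_
      simpa using! (gfR ι h fm hζ).smul_mem (var_mem h fm hζ (Sum.inr q.2)) (kR_mem_gf h fm hζ q.2)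
    · exact zero_mem _
  · rw [← map_kL]
    exact al_mem h fm hζ ⟨m, hm, by rw [Wm_zero, kL_apply]⟩

theorem coord_mem {M} (hM : M ∈ (gfR ι h fm hζ).T 0) :
    ∃ y : fm.B × ZMod e × ZMod e → RR F ι (ZMod e × ZMod e),
      M = ∑ l, y l • (kronB fm.e h.basis l).map (algebraMap F _) ∧
      ∀ l, y l • 1 ∈ (gfR ι h fm hζ).T (-l.2) := by
  classical
  obtain ⟨y, hy⟩ := exists_coord (algebraMap F _) (kronB fm.e h.basis)
    (fun H => ⟨_, (Basis.sum_repr _ H).symm⟩) M
  refine ⟨y, hy, fun l => (GF.mem_ps _).mpr fun d => (GF.mem_mv _ _).mpr fun m => ?_⟩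
  obtain ⟨a, ha, ha'⟩ := (GF.mem_mv _ _).mp ((GF.mem_ps _).mp hM d) m
  have h1 : (M.map (coeff d)).map (MvPolynomial.coeff m) =
      ∑ l, MvPolynomial.coeff m (coeff d (y l)) • kronB fm.e h.basis l := by
    rw [hy]
    ext p q
    simp [Matrix.sum_apply, MvPolynomial.coeff_sum, PowerSeries.algebraMap_apply,
      mul_comm _ (MvPolynomial.C _), mul_comm]
  have h2 := congrArg (fun M => (kronB fm.e h.basis).repr M l) (ha'.trans h1)
  simp only [Basis.repr_sum_self, kronB_repr, ← h.basis_apply, Basis.repr_self, zero_add,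
    Finsupp.single_apply] at h2
  have h3 : ((y l • (1 : Matrix (n × ZMod e) (n × ZMod e) (RR F ι (ZMod e × ZMod e)))).map (coeff d)).map
      (MvPolynomial.coeff m) = MvPolynomial.coeff m (coeff d (y l)) • 1 := by
    ext p q
    by_cases h : p = q <;> simp [h]
  rw [h3, ← h2]
  split_ifs with h4
  · rw [h4, neg_add_cancel, one_mul]
    exact ⟨_, fm.smul_mem ((fm.mem_D a).mp ha l.1) (one_mem _), by simp [smul_kronecker]⟩
  · rw [zero_mul, zero_smul]; exact zero_mem _

include h hζ in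
theorem child_form {L : Type} [Field L] (i : RR F ι (ZMod e × ZMod e) →+* L)
    (hi : Function.Injective i) : ∃ fm' : Form L (n × ZMod e),
      (∀ a ∈ fm.K, i (algebraMap F _ a) ∈ fm'.K) ∧
      ∀ g ∈ NC.sub fm.D ι, chiL (Wm X' Y') i g ∈ NC.sub fm'.D _ := by
  have ht : ∀ l, i (tv F ι l) ≠ 0 := fun l => (map_ne_zero_iff i hi).mpr (tv_ne l)
  let v : fm.B × ZMod e × ZMod e → Matrix (n × ZMod e) (n × ZMod e) L := fun l =>
    i (tv F ι l.2) • (kronB fm.e h.basis l).map (i.comp (algebraMap F _))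
  let bs := basisOfTopLeSpanOfCardEqFinrank (R := L) v (fun M _ => by
      obtain ⟨y, rfl⟩ := exists_coord (i.comp (algebraMap F _)) (kronB fm.e h.basis)
        (fun H => ⟨_, (Basis.sum_repr _ H).symm⟩) M
      refine sum_mem fun l _ => ?_
      rw [← inv_smul_smul₀ (ht l.2) (Matrix.map _ _)]
      exact smul_mem _ _ (smul_mem _ _ (subset_span ⟨l, rfl⟩)))
    (by rw [finrank_mat, ← finrank_mat (k := F), finrank_eq_card_basis (kronB fm.e h.basis)])
  have hbs : ∀ l, bs l = v l := congrFun (coe_basisOfTopLeSpanOfCardEqFinrank _ _ _)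
  have htv : ∀ l, tv F ι l • 1 ∈ (gfR ι h fm hζ).T (-l) := fun l => var_mem h fm hζ (Sum.inr l)
  obtain ⟨fm', h1, h2⟩ := exists_form i hi (gfR ι h fm hζ).sub
    (fun a ha b hb => (gfR ι h fm hζ).dom ha hb) bs (fun l => ⟨tv F ι l.2 •
      (kronB fm.e h.basis l).map (algebraMap F _), by
        simpa using! (gfR ι h fm hζ).smul_mem (htv l.2) (al_mem h fm hζ (k := l.2)
          ⟨_, fm.e_mem l.1, by rw [kronB_apply, h.basis_apply]⟩), by
        rw [hbs, map_smul'', Matrix.map_map]; rfl⟩) (fun M hM l => by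
      obtain ⟨y, rfl, hy⟩ := coord_mem h fm hζ hM
      refine ⟨tv F ι (-l.2) * y l, tv F ι (-l.2) * tv F ι l.2, ?_, ?_, ?_⟩
      · simpa [mul_smul] using! (gfR ι h fm hζ).smul_mem (htv (-l.2)) (hy l)
      · simpa [mul_smul] using! (gfR ι h fm hζ).smul_mem (htv (-l.2)) (htv l.2)
      · rw [map_mul, map_mul, mul_div_mul_left _ _ (ht _),
          ← congrFun (bs.repr_sum_self fun l => i (y l) / i (tv F ι l.2)) l]
        congr 2
        refine (map_sum i.mapMatrix _ _).trans (sum_congr rfl fun l _ => ?_)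
        rw [hbs, smul_smul, div_mul_cancel₀ _ (ht _), RingHom.mapMatrix_apply, map_smul'',
          Matrix.map_map]
        rfl) fun p hp => by
      obtain ⟨z, hz, hz'⟩ := fm.roots p hp
      exact ⟨_, scal_mem h fm hζ hz, hz'.map_of_injective (algebraMap F _).injective⟩
  exact ⟨fm', fun a ha => h1 _ (scal_mem h fm hζ ha), fun g hg w => h2 _ (chi1_mem h fm hζ hg w)⟩

end Vale.Agent.P199
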