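import Vale.Agent.P199.Child4

set_option linter.unusedSectionVars false

namespace Vale.Agent.P199
open Finset Module Submodule Matrix PowerSeries
open scoped Kronecker

theorem RkLE.finrank_le {k I J : Type*} [Field k] [Fintype I] [Fintype J] {v : I → J → k} {r : ℕ}
    (h : RkLE v r) : finrank k (span k (Set.range v)) ≤ r := by
  by_contra hlt
  obtain ⟨t, ht⟩ := exists_linearIndependent_of_le_finrank (R := k) (M := span k (Set.range v))
    (n := r + 1) (by omega)
  obtain ⟨g, hg⟩ := exists_minor (fun a => (t a : J → k)) (ht.map' _ (Submodule.ker_subtype _))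
  exact hg (h.det_span _ (fun a => (t a).2) g)

theorem rank_spec {R L F I J : Type*} [CommRing R] [Field L] [Field F] [Fintype I] [Fintype J]
    (i : R →+* L) (hi : Function.Injective i) (φ : R →+* F) (v : I → J → R)
    (S : Submodule L (J → L)) (h : ∀ a, (fun j => i (v a j)) ∈ S) :
    finrank F (span F (Set.range fun a j => φ (v a j))) ≤ finrank L S :=
  (((RkLE.of_finrank (Submodule.finrank_mono (span_le.mpr (Set.range_subset_iff.mpr h)))).of_map
    i hi).map φ).finrank_le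

theorem geo {S F m : Type*} [Ring S] [Field F] [Fintype m] [DecidableEq m] (c : S →+* Matrix m m F)
    (D : S → Matrix m m F) (leib : ∀ g h, D (g * h) = D g * c h + c g * D h) (G : S) (z : F)
    (a : ℕ) (N : Matrix m m F) (hN : N * c G = z • (c G * N)) :
    (D (G ^ (a + 1)) * N).trace = (∑ s ∈ range (a + 1), z ^ s) * (D G * c G ^ a * N).trace := by
  induction a generalizing N with
  | zero => simp
  | succ a ih =>
    have h1 : ∀ a, N * c G ^ a = z ^ a • (c G ^ a * N) := fun a => by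
      induction a with
      | zero => simp
      | succ a ih =>
        rw [pow_succ, ← mul_assoc, ih, smul_mul_assoc, mul_assoc, hN, mul_smul_comm, smul_smul,
          pow_succ, mul_assoc]
    rw [pow_succ, leib, add_mul, trace_add, mul_assoc,
      ih _ (by rw [mul_assoc, hN, mul_smul_comm]), map_pow, mul_assoc (c G ^ _),
      trace_mul_comm (c G ^ _), mul_assoc (D G) N, h1, sum_range_succ _ (a + 1), add_mul]
    simp only [pow_succ, mul_assoc, mul_smul_comm, trace_smul, smul_eq_mul]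

theorem exists_dual_pair {F ι : Type} [Field F] [Fintype ι] [DecidableEq ι]
    (W : Submodule F (ι → F)) (h : 2 ≤ finrank F W) : ∃ l u : Fin 2 → ι → F, (∀ a, l a ∈ W) ∧
      ∀ a a', u a ⬝ᵥ l a' = if a = a' then 1 else 0 := by
  obtain ⟨t, ht⟩ := exists_linearIndependent_of_le_finrank h
  obtain ⟨p, hp⟩ := (Fintype.linearCombination F fun a => (t a : ι → F)).exists_leftInverse_of_injective
    (LinearMap.ker_eq_bot.mpr (linearIndependent_iff_injective_fintypeLinearCombination.1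
      (ht.map' _ W.ker_subtype)))
  choose u hu using fun a => (dotProductEquiv F ι).surjective (LinearMap.proj a ∘ₗ p)
  refine ⟨fun a => t a, u, fun a => (t a).2, fun a a' => ?_⟩
  have := congrFun (LinearMap.congr_fun hp (Pi.single a' 1)) a
  refine (LinearMap.congr_fun (hu a) (t a')).trans ?_
  simpa [Pi.single_apply] using this

variable {F n ι : Type} [Field F] [CharZero F] [Fintype n] [DecidableEq n] [Nonempty n] [Fintype ι]
  [DecidableEq ι] {e : ℕ} [NeZero e] {ζ : F} {X' Y' : Matrix (ZMod e) (ZMod e) F}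
  (h : CS ζ X' Y') {L : Type} [Field L] [CharZero L] (i : RR F ι (ZMod e × ZMod e) →+* L)
  (hi : Function.Injective i) {A : Subalgebra F (NC (Matrix n n F) ι)}
  {A' : Subalgebra L (NC (Matrix (n × ZMod e) (n × ZMod e) L) (ι × ZMod e × ZMod e))}
  (hA : ∀ g ∈ A, chiL (Wm X' Y') i g ∈ A')
include h hi hA

theorem exists_gens (hW : 2 ≤ finrank F (Wz A)) :
    ∃ (φ : RR F ι (ZMod e × ZMod e) →+* F) (y : _) (_ : Sp φ (RingHom.id F) 0 y 1) (u : ι → F)
      (G G' : NC (Matrix (n × ZMod e) (n × ZMod e) (RR F ι (ZMod e × ZMod e)))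
        (ι × ZMod e × ZMod e)), NC.map i.mapMatrix G ∈ A' ∧ NC.map i.mapMatrix G' ∈ A' ∧
      NC.map φ.mapMatrix G [] = kR n X' ∧ NC.map φ.mapMatrix G' [] = kR n Y' ∧
      (∀ l, ∑ a, u a • NC.map φ.mapMatrix G [(a, l)] = kR n (Wm X' Y' l)) ∧
      ∀ l, ∑ a, u a • NC.map φ.mapMatrix G' [(a, l)] = 0 := by
  obtain ⟨l, u, hl, hu⟩ := exists_dual_pair _ hW
  choose g hg h0 h1 using hl
  choose c hc using fun a => h.span_Wm (u 0 a • X' + u 1 a • Y')
  obtain ⟨φ, hφ⟩ := exists_sp (FC.triv F) (RingHom.id F) (t := 0) (zero_mem _)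
    (fun q : ι × ZMod e × ZMod e => c q.1 q.2) 1
  have h2 : ∀ a, NC.map i.mapMatrix (hat (Wm X' Y') (g a)) ∈ A' := fun a => by
    have := A'.smul_mem (hA _ (hg a)) (i X)⁻¹
    rwa [chiL_eq, h0, Matrix.map_zero _ (map_zero _), map_zero, map_zero, zero_add,
      inv_smul_smul₀ ((map_ne_zero_iff i hi).mpr X_ne_zero)] at this
  have h3 : ∀ a, NC.map φ.mapMatrix (hat (Wm X' Y') (g a)) [] =
      (u 0 ⬝ᵥ l a) • kR n X' + (u 1 ⬝ᵥ l a) • kR n Y' := fun a => by
    simp only [hφ.hat_eq, RingHom.coe_id, Matrix.map_id, ← hc, NC.aff_nil, h1, smul_kronecker,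
      ← kR_apply, map_add, kR_smul, smul_add, smul_smul, sum_add_distrib, dotProduct, sum_smul,
      mul_comm]
  have h4 : ∀ a k, ∑ b, u 0 b • NC.map φ.mapMatrix (hat (Wm X' Y') (g a)) [(b, k)] =
      (u 0 ⬝ᵥ l a) • kR n (Wm X' Y' k) := fun a k => by
    simp only [hφ.hat_eq, RingHom.coe_id, Matrix.map_id, NC.aff_one, h1, smul_kronecker,
      ← kR_apply, smul_smul, dotProduct, sum_smul]
  exact ⟨φ, _, hφ, u 0, _, _, h2 0, h2 1, by rw [h3]; simp [hu], by rw [h3]; simp [hu],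
    fun k => by rw [h4]; simp [hu], fun k => by rw [h4]; simp [hu]⟩

theorem child_S0 (h0 : ∀ m, ∃ g ∈ A, g [] = m) (hW : 2 ≤ finrank F (Wz A)) (m) :
    ∃ g ∈ A', g [] = m := by
  obtain ⟨φ, y, hφ, u, G, G', h1, h2, h3, h4, -, -⟩ := exists_gens h i hi hA hW
  let bs := kronB (Module.finBasis F (Matrix n n F)) h.basis
  choose g hg hg' using fun β => h0 (Module.finBasis F (Matrix n n F) β)
  let S := (A'.toSubmodule.map (NC.c0A L).toLinearMap).map (unc L _).toLinearMap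
  have h5 := rank_spec i hi φ (fun (l : _ × ZMod e × ZMod e) (p : (n × ZMod e) × (n × ZMod e)) =>
    (chi1 (Wm X' Y') (g l.1) * (G ^ l.2.1.val * G' ^ l.2.2.val)) [] p.1 p.2) S fun l =>
      ⟨_, ⟨NC.map i.mapMatrix _, by
        rw [map_mul, map_mul, map_pow, map_pow]
        exact A'.mul_mem (hA _ (hg _)) (mul_mem (pow_mem h1 _) (pow_mem h2 _)), rfl⟩, rfl⟩
  have h6 : (fun (l : _ × ZMod e × ZMod e) (p : (n × ZMod e) × (n × ZMod e)) => φ
      ((chi1 (Wm X' Y') (g l.1) * (G ^ l.2.1.val * G' ^ l.2.2.val)) [] p.1 p.2)) =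
      bs.map (unc F _) := by
    funext l
    change unc F _ (NC.c0 (NC.map φ.mapMatrix
      (chi1 (Wm X' Y') (g l.1) * (G ^ l.2.1.val * G' ^ l.2.2.val)))) = _
    simp only [map_mul, map_pow, NC.c0_apply, h3, h4, hφ.chi_zero, NC.C_nil, hg', Basis.map_apply,
      bs, kronB_apply, RingHom.coe_id, Matrix.map_id, CS.basis_apply]
    rw [← map_pow, ← map_pow, ← map_mul, kL_mul_kR, Wm]
  rw [h6, Basis.span_eq, finrank_top, finrank_fintype_fun_eq_card,
    ← finrank_fintype_fun_eq_card L] at h5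
  obtain ⟨_, ⟨g, hg, rfl⟩, h7⟩ := (eq_top_of_finrank_eq (le_antisymm S.finrank_le h5)).ge
    (mem_top (x := unc L _ m))
  exact ⟨g, hg, (unc L _).injective h7⟩

omit hi hA in
theorem span_big (he : e.Prime) {u : ι → F}
    {G G' : NC (Matrix (n × ZMod e) (n × ZMod e) F) (ι × ZMod e × ZMod e)}
    (h3 : G [] = kR n X') (h4 : G' [] = kR n Y')
    (h5 : ∀ l, ∑ a, u a • G [(a, l)] = kR n (Wm X' Y' l)) (h6 : ∀ l, ∑ a, u a • G' [(a, l)] = 0) :
    (e - 1) ^ 2 ≤ finrank F (span F (Set.range fun (l : Fin (e - 1) × Fin (e - 1)) q =>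
      ((G ^ (l.1 + 1 : ℕ) * G' ^ (l.2 + 1 : ℕ)) [q]).trace)) := by
  let Θ : (ι × ZMod e × ZMod e → F) →ₗ[F] (ZMod e × ZMod e → F) :=
    LinearMap.pi fun l => ∑ a, u a • LinearMap.proj (a, l)
  let Ψ : Matrix (ZMod e) (ZMod e) F →ₗ[F] (ZMod e × ZMod e → F) :=
    LinearMap.pi fun l => (trB F _).flip (Wm X' Y' l)
  have hΨ : LinearMap.ker Ψ = ⊥ := LinearMap.ker_eq_bot'.mpr fun M hM => eq_zero_of_trace fun m => by
    obtain ⟨c, rfl⟩ := h.span_Wm m
    have : ∀ l, (M * Wm X' Y' l).trace = 0 := fun l => (trace_mul_comm _ _).trans (congrFun hM l)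
    simp [mul_sum, this]
  have hli := (h.li_Wm.comp (fun l : Fin (e - 1) × Fin (e - 1) =>
    (((l.1 : ℕ) : ZMod e), ((l.2 + 1 : ℕ) : ZMod e))) fun l l' hl => by
      have := congrArg (fun p : ZMod e × ZMod e => (p.1.val, p.2.val)) hl
      simp only [ZMod.val_natCast, Prod.mk.injEq] at this
      rw [Nat.mod_eq_of_lt (by omega), Nat.mod_eq_of_lt (by omega), Nat.mod_eq_of_lt (by omega),
        Nat.mod_eq_of_lt (by omega)] at this
      exact Prod.ext (Fin.ext this.1) (Fin.ext (by omega))).map' Ψ hΨ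
  have h7 := finrank_span_eq_card hli
  simp only [Fintype.card_prod, Fintype.card_fin, ← pow_two] at h7
  rw [← h7]
  refine le_trans ?_ (finrank_map_le Θ _)
  refine Submodule.finrank_mono (span_le.mpr ?_)
  rintro _ ⟨l, rfl⟩
  have hc : ∑ s ∈ range (l.1 + 1), (ζ ^ (l.2 + 1 : ℕ)) ^ s ≠ 0 := fun h0 => by
    have := geom_sum_mul (ζ ^ (l.2 + 1 : ℕ)) (l.1 + 1)
    rw [h0, zero_mul, eq_comm, sub_eq_zero, ← pow_mul, h.prim.pow_eq_one_iff_dvd, he.dvd_mul] at this
    rcases this with h | h <;> have := Nat.le_of_dvd (Nat.succ_pos _) h <;> omega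
  have hn : (Fintype.card n : F) ≠ 0 := Nat.cast_ne_zero.mpr Fintype.card_ne_zero
  refine Submodule.mem_map.mpr ⟨_, smul_mem _ ((∑ s ∈ range (l.1 + 1),
    (ζ ^ (l.2 + 1 : ℕ)) ^ s) * Fintype.card n)⁻¹ (subset_span (Set.mem_range_self l)), ?_⟩
  rw [map_smul, inv_smul_eq_iff₀ (mul_ne_zero hc hn)]
  funext k
  let D := fun g : NC (Matrix (n × ZMod e) (n × ZMod e) F) (ι × ZMod e × ZMod e) =>
    ∑ a, u a • g [(a, k)]
  have leib : ∀ g g', D (g * g') = D g * NC.c0 g' + NC.c0 g * D g' := fun g g' => by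
    simp [D, NC.mul_single, sum_add_distrib, sum_mul, mul_sum]
  have h8 : ∀ m, D (G' ^ m) = 0 := fun m => by
    induction m with
    | zero => simp [D]
    | succ m ih => rw [pow_succ, leib, ih, show D G' = 0 from h6 k]; simp
  have h9 := geo (c := (NC.c0 : NC (Matrix (n × ZMod e) (n × ZMod e) F) (ι × ZMod e × ZMod e) →+*
    Matrix (n × ZMod e) (n × ZMod e) F)) D leib G (ζ ^ (l.2 + 1 : ℕ)) l.1 (kR n Y' ^ (l.2 + 1 : ℕ)) (by
      rw [NC.c0_apply, h3, ← map_pow, ← map_mul, ← map_mul, ← kR_smul]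
      simpa using congrArg (kR n) (h.Ypow_Xpow 1 (l.2 + 1)))
  rw [show D G = _ from h5 k, NC.c0_apply, h3, ← map_pow, ← map_pow, ← map_mul,
    ← map_mul, kR_apply (_ * _), trace_kronecker, trace_one] at h9
  have h10 : D (G ^ (l.1 + 1 : ℕ) * G' ^ (l.2 + 1 : ℕ)) =
      D (G ^ (l.1 + 1 : ℕ)) * kR n (Y' ^ (l.2 + 1 : ℕ)) := by
    rw [leib, h8, mul_zero, add_zero, map_pow, NC.c0_apply, h4, map_pow]
  rw [← h10] at h9
  simp only [D, trace_sum, trace_smul] at h9
  simp only [Θ, Ψ, LinearMap.pi_apply, LinearMap.sum_apply, LinearMap.smul_apply,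
    LinearMap.proj_apply, Pi.smul_apply, Function.comp_apply, trB_flip, h9]
  rw [Wm_nat _ _ (by omega) (by omega), mul_assoc, smul_eq_mul, mul_assoc]

theorem child_W (he : e.Prime) (h0 : ∀ m, ∃ g ∈ A, g [] = m) (hW : 2 ≤ finrank F (Wz A)) :
    (e - 1) ^ 2 ≤ finrank L (Wz A') := by
  obtain ⟨φ, y, hφ, u, G, G', h1, h2, h3, h4, h5, h6⟩ := exists_gens h i hi hA hW
  refine (span_big h he h3 h4 h5 h6).trans ?_
  refine le_of_eq_of_le ?_ (rank_spec i hi φ (fun (l : Fin (e - 1) × Fin (e - 1)) q =>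
    ((G ^ (l.1 + 1 : ℕ) * G' ^ (l.2 + 1 : ℕ)) [q]).trace) (Wz A') fun l => ?_)
  · refine congrArg (fun v => finrank F (span F (Set.range v))) (funext₂ fun l q => ?_)
    rw [← map_pow, ← map_pow, ← map_mul]
    exact trace_map _ _
  have := trace_mem_Wz (child_S0 h i hi hA h0 hW)
    (mul_mem (pow_mem h1 (l.1 + 1 : ℕ)) (pow_mem h2 (l.2 + 1 : ℕ)))
  rw [← map_pow, ← map_pow, ← map_mul] at this
  simpa only [NC.map_apply, RingHom.mapMatrix_apply, trace_map] using this

end Vale.Agent.P199
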