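import Vale.Agent.P199.Rank

set_option linter.unusedSectionVars false

namespace Vale.Agent.P199
open Finset Module Submodule Matrix

variable {k n Λ : Type*} [Field k] [Fintype n] [DecidableEq n] [Fintype Λ] [DecidableEq Λ]

theorem eq_zero_of_trace {a : Matrix n n k} (h : ∀ m, (a * m).trace = 0) : a = 0 := by
  ext i j
  simpa [trace_mul_single] using h (single j i 1)

theorem finrank_mat : finrank k (Matrix n n k) = Fintype.card n ^ 2 := by
  simp [Module.finrank_matrix, sq]

variable (k n) in
/-- The trace form. -/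
def trB : LinearMap.BilinForm k (Matrix n n k) :=
  LinearMap.mk₂ k (fun a b => (b * a).trace) (fun _ _ _ => by simp [mul_add])
    (fun _ _ _ => by simp) (fun _ _ _ => by simp [add_mul]) (fun _ _ _ => by simp)

theorem trB_apply (a b : Matrix n n k) : trB k n a b = (b * a).trace := rfl

theorem trB_flip (a b : Matrix n n k) : (trB k n).flip a b = (a * b).trace := rfl

theorem trB_refl : (trB k n).IsRefl := fun a b h => by
  change (a * b).trace = 0
  rw [trace_mul_comm]; exact h

theorem trB_nondeg : (trB k n).Nondegenerate :=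
  (LinearMap.IsRefl.nondegenerate_iff_separatingLeft (B := trB k n) trB_refl).mpr fun a h => eq_zero_of_trace fun m => by
    rw [trace_mul_comm]; exact h m

/-- Orthogonal complement for the trace form. -/
def perp (S : Submodule k (Matrix n n k)) : Submodule k (Matrix n n k) := (trB k n).orthogonal S

theorem mem_perp {S : Submodule k (Matrix n n k)} {c} :
    c ∈ perp S ↔ ∀ s ∈ S, (c * s).trace = 0 := Iff.rfl

theorem finrank_perp (S : Submodule k (Matrix n n k)) :
    finrank k (perp S) + finrank k S = Fintype.card n ^ 2 := by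
  have := LinearMap.BilinForm.finrank_orthogonal trB_nondeg S
  have h2 := S.finrank_le
  rw [finrank_mat] at this h2
  rw [perp, this]; omega

theorem perp_perp (S : Submodule k (Matrix n n k)) : perp (perp S) = S :=
  LinearMap.BilinForm.orthogonal_orthogonal trB_nondeg trB_refl S

theorem mem_of_perp {S : Submodule k (Matrix n n k)} {m}
    (h : ∀ c ∈ perp S, (c * m).trace = 0) : m ∈ S := by
  rw [← perp_perp S]
  intro c hc
  have := h c hc
  rw [trace_mul_comm] at this
  exact this

/-- A complete family of orthogonal idempotents. -/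
structure OI (P : Λ → Matrix n n k) : Prop where
  orth : ∀ a b, a ≠ b → P a * P b = 0
  idem : ∀ a, P a * P a = P a
  sum : ∑ a, P a = 1

/-- Matrices supported on given blocks. -/
def Supp (P : Λ → Matrix n n k) (S : Finset (Λ × Λ)) : Submodule k (Matrix n n k) where
  carrier := {c | ∀ a b, (a, b) ∉ S → P a * c * P b = 0}
  add_mem' := fun hx hy a b h => by simp [mul_add, add_mul, hx a b h, hy a b h]
  zero_mem' := fun _ _ _ => by simp
  smul_mem' := fun t _ hx a b h => by simp [hx a b h]

/-- Block diagonal matrices. -/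
def Diag (P : Λ → Matrix n n k) : Submodule k (Matrix n n k) := Supp P univ.diag

theorem mem_Supp {P : Λ → Matrix n n k} {S c} :
    c ∈ Supp P S ↔ ∀ a b, (a, b) ∉ S → P a * c * P b = 0 := Iff.rfl

theorem mem_Diag {P : Λ → Matrix n n k} {c} :
    c ∈ Diag P ↔ ∀ a b, a ≠ b → P a * c * P b = 0 := by
  simp [Diag, mem_Supp]

theorem trace_sandwich (P Q : Matrix n n k) :
    LinearMap.trace k _ (LinearMap.mulRight k Q ∘ₗ LinearMap.mulLeft k P) = P.trace * Q.trace := by
  rw [LinearMap.trace_eq_matrix_trace k (Basis.ofEquivFun (unc k n))]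
  simp only [Matrix.trace, Matrix.diag, LinearMap.toMatrix_apply, Basis.ofEquivFun_repr_apply,
    Basis.coe_ofEquivFun, sum_mul_sum, Fintype.sum_prod_type]
  refine sum_congr rfl fun a _ => sum_congr rfl fun b _ => ?_
  have : (unc k n).symm (Pi.single (a, b) 1) = single a b 1 := by
    ext i j
    change (Pi.single (a, b) 1 : n × n → k) (i, j) = _
    simp [Pi.single_apply, single_apply, eq_comm]
  rw [this]
  change (P * single a b (1 : k) * Q : Matrix n n k) a b = _
  simp [Matrix.mul_apply, single_apply, ite_and]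

namespace OI
variable {P : Λ → Matrix n n k} (h : OI P)
include h

theorem mul (a b) : P a * P b = if a = b then P a else 0 := by
  split_ifs with hab
  · rw [← hab, h.idem]
  · exact h.orth a b hab

theorem left (c : Matrix n n k) : ∑ a, P a * c = c := by rw [← sum_mul, h.sum, one_mul]
theorem right (c : Matrix n n k) : ∑ a, c * P a = c := by rw [← mul_sum, h.sum, mul_one]

theorem sandwich (c : Matrix n n k) (a b a' b') :
    P a * (P a' * c * P b') * P b = if (a', b') = (a, b) then P a * c * P b else 0 := by
  have : P a * (P a' * c * P b') * P b = (P a * P a') * c * (P b' * P b) := by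
    simp only [mul_assoc]
  rw [this, h.mul, h.mul]
  by_cases h1 : a = a'
  · by_cases h2 : b' = b <;> simp [h1, h2]
  · simp [h1, Ne.symm h1]

theorem supp_sum {S : Finset (Λ × Λ)} {c} (hc : c ∈ Supp P S) :
    ∑ p ∈ S, P p.1 * c * P p.2 = c := by
  have : ∑ p : Λ × Λ, P p.1 * c * P p.2 = c := by
    rw [Fintype.sum_prod_type]
    simp only [h.right, h.left]
  refine Eq.trans ?_ this
  exact sum_subset (subset_univ _) fun p _ hp => hc p.1 p.2 hp

theorem finrank_Supp [CharZero k] {μ : ℕ} (hμ : ∀ a, (P a).trace = μ) (S : Finset (Λ × Λ)) :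
    finrank k (Supp P S) = S.card * μ ^ 2 := by
  let T : Matrix n n k →ₗ[k] Matrix n n k :=
    ∑ p ∈ S, LinearMap.mulRight k (P p.2) ∘ₗ LinearMap.mulLeft k (P p.1)
  have hT : ∀ c, T c = ∑ p ∈ S, P p.1 * c * P p.2 := fun c => by simp [T]
  have h1 : LinearMap.IsProj (Supp P S) T := by
    refine ⟨fun c a b hab => ?_, fun c hc => by rw [hT, h.supp_sum hc]⟩
    rw [hT, mul_sum, sum_mul]
    refine sum_eq_zero fun p hp => ?_
    rw [h.sandwich, if_neg]
    intro he
    exact hab (he ▸ hp)
  have h2 := h1.trace
  simp only [T, map_sum, trace_sandwich, hμ, sum_const, nsmul_eq_mul] at h2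
  apply Nat.cast_injective (R := k)
  rw [← h2]; push_cast; ring

theorem finrank_Diag [CharZero k] {μ : ℕ} (hμ : ∀ a, (P a).trace = μ) :
    finrank k (Diag P) = Fintype.card Λ * μ ^ 2 := by
  rw [Diag, h.finrank_Supp hμ]; simp

theorem card_mul [CharZero k] {μ : ℕ} (hμ : ∀ a, (P a).trace = μ) :
    Fintype.card Λ * μ = Fintype.card n := by
  have := congrArg Matrix.trace h.sum
  simp only [trace_sum, hμ, sum_const, card_univ, nsmul_eq_mul, trace_one] at this
  exact_mod_cast this

theorem diag_left {c} (hc : c ∈ Diag P) (a) : P a * c = P a * c * P a := by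
  conv_lhs => rw [← h.right (P a * c)]
  exact sum_eq_single a (fun b _ hb => mem_Diag.mp hc a b hb.symm) (by simp)

theorem diag_right {c} (hc : c ∈ Diag P) (a) : c * P a = P a * c * P a := by
  conv_lhs => rw [← h.left (c * P a)]
  simp only [← mul_assoc]
  exact sum_eq_single a (fun b _ hb => mem_Diag.mp hc b a hb) (by simp)

theorem comm {c} (hc : c ∈ Diag P) (a) : P a * c = c * P a := by
  rw [h.diag_left hc, h.diag_right hc]

theorem mem_of_comm {c} (hc : ∀ a, P a * c = c * P a) : c ∈ Diag P :=
  mem_Diag.mpr fun a b hab => by rw [hc, mul_assoc, h.orth a b hab, mul_zero]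

theorem sandwich_mem (c : Matrix n n k) (a) : P a * c * P a ∈ Diag P :=
  mem_Diag.mpr fun a' b hab => by
    rw [h.sandwich, if_neg]
    rintro ⟨⟩
    exact hab rfl

theorem self_mem (a) : P a ∈ Diag P := by
  simpa [h.idem] using h.sandwich_mem 1 a

theorem diag_sum {c} (hc : c ∈ Diag P) : ∑ a, P a * c * P a = c := by
  simp_rw [← h.diag_left hc]; exact h.left c

theorem trace_diag {c} (hc : c ∈ Diag P) (m : Matrix n n k) :
    (c * m).trace = ∑ a, (c * (P a * m * P a)).trace := by
  conv_lhs => rw [← h.diag_sum hc, sum_mul, trace_sum]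
  refine sum_congr rfl fun a _ => ?_
  simp only [mul_assoc]
  rw [trace_mul_comm (P a)]
  simp only [mul_assoc]

end OI

theorem eq_smul_of_comm {z P : Matrix n n k} (hP : P.trace ≠ 0)
    (h : ∀ m, z * m * P = P * m * z) : z = (z.trace / P.trace) • P := by
  ext a s
  have : ∀ t, z a s * P t t = P a s * z t t := fun t => by
    have := congrFun₂ (h (single s t 1)) a t
    simpa [Matrix.mul_apply, single_apply, ite_and] using this
  have h2 : z a s * P.trace = P a s * z.trace := by
    simp only [Matrix.trace, Matrix.diag, mul_sum, this]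
  rw [Matrix.smul_apply, smul_eq_mul]
  field_simp
  rw [h2, mul_comm]

theorem OI.central {P : Λ → Matrix n n k} (h : OI P) (hP : ∀ a, (P a).trace ≠ 0) {z}
    (hz : z ∈ Diag P) (hc : ∀ c ∈ Diag P, z * c = c * z) : ∃ t : Λ → k, z = ∑ a, t a • P a := by
  refine ⟨fun a => (P a * z * P a).trace / (P a).trace, ?_⟩
  conv_lhs => rw [← h.diag_sum hz]
  refine sum_congr rfl fun a _ => eq_smul_of_comm (hP a) fun m => ?_
  have h1 := hc _ (h.sandwich_mem m a)
  calc P a * z * P a * m * P a = P a * (z * (P a * m * P a)) := by simp only [mul_assoc]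
    _ = (P a * P a) * m * (P a * z) := by rw [h1]; simp only [mul_assoc]
    _ = _ := by rw [h.idem, ← h.diag_left hz]

theorem OI.rank_one [CharZero k] {P : Λ → Matrix n n k} (h : OI P) (hP : ∀ a, (P a).trace = 1)
    (a) (H : Matrix n n k) : P a * H * P a = (P a * H).trace • P a := by
  have h1 := h.finrank_Supp (μ := 1) (by simpa using hP) {(a, a)}
  have hm : ∀ H, P a * H * P a ∈ Supp P {(a, a)} := fun H a' b hab => by
    rw [h.sandwich, if_neg]
    intro he
    exact hab (by simp [he])
  have h0 : P a ∈ Supp P {(a, a)} := by simpa [h.idem] using hm 1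
  have hne : (⟨P a, h0⟩ : Supp P {(a, a)}) ≠ 0 := fun he => by
    have h2 : P a = 0 := congrArg Subtype.val he
    have := hP a
    simp [h2] at this
  obtain ⟨t, ht⟩ := (finrank_eq_one_iff_of_nonzero' _ hne).mp (by simpa using h1) ⟨_, hm H⟩
  have h3 : t • P a = P a * H * P a := congrArg Subtype.val ht
  have h4 := congrArg Matrix.trace h3
  rw [trace_smul, hP, trace_mul_cycle, h.idem, smul_eq_mul, mul_one] at h4
  rw [← h3, h4]

/-- Commuting with a diagonalizable matrix. -/
theorem OI.mem_Diag_iff {P : Λ → Matrix n n k} (h : OI P) {b : Matrix n n k} {lam : Λ → k}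
    (hl : Function.Injective lam) (h1 : ∀ a, b * P a = lam a • P a)
    (h2 : ∀ a, P a * b = lam a • P a) {c} : c ∈ Diag P ↔ b * c = c * b := by
  constructor
  · intro hc
    rw [← h.diag_sum hc, mul_sum, sum_mul]
    refine sum_congr rfl fun a _ => ?_
    simp only [← mul_assoc, h1]
    simp only [mul_assoc, h2]
    simp
  · intro hc
    refine mem_Diag.mpr fun a a' haa => ?_
    have : (lam a - lam a') • (P a * c * P a') = 0 := by
      calc _ = (P a * b) * c * P a' - P a * c * (b * P a') := by simp [h1, h2, sub_smul]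
        _ = P a * (b * c - c * b) * P a' := by simp only [mul_sub, sub_mul, mul_assoc]
        _ = 0 := by simp [hc]
    exact (smul_eq_zero.mp this).resolve_left (sub_ne_zero.mpr (hl.ne haa))

end Vale.Agent.P199
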