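import Vale.Agent.P199.NC
import Vale.Agent.P199.Idem

set_option linter.unusedSectionVars false

namespace Vale.Agent.P199
open Finset Module Submodule Matrix
open scoped Kronecker

section Kron
variable {A A' n E : Type*} [CommRing A] [CommRing A'] [Fintype n] [DecidableEq n] [Fintype E]
  [DecidableEq E]

variable (E) in
/-- `m ↦ m ⊗ 1`. -/
def kL : Matrix n n A →+* Matrix (n × E) (n × E) A where
  toFun m := m ⊗ₖ (1 : Matrix E E A)
  map_one' := one_kronecker_one
  map_mul' a b := by rw [← mul_kronecker_mul, mul_one]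
  map_zero' := zero_kronecker _
  map_add' a b := add_kronecker _ _ _

variable (n) in
/-- `m ↦ 1 ⊗ m`. -/
def kR : Matrix E E A →+* Matrix (n × E) (n × E) A where
  toFun m := (1 : Matrix n n A) ⊗ₖ m
  map_one' := one_kronecker_one
  map_mul' a b := by rw [← mul_kronecker_mul, mul_one]
  map_zero' := kronecker_zero _
  map_add' a b := kronecker_add _ _ _

theorem kL_apply (m : Matrix n n A) : kL E m = m ⊗ₖ (1 : Matrix E E A) := rfl
theorem kR_apply (m : Matrix E E A) : kR n m = (1 : Matrix n n A) ⊗ₖ m := rfl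

theorem kL_mul_kR (m : Matrix n n A) (a : Matrix E E A) : kL E m * kR n a = m ⊗ₖ a := by
  rw [kL_apply, kR_apply, ← mul_kronecker_mul, mul_one, one_mul]

theorem kR_mul_kL (m : Matrix n n A) (a : Matrix E E A) : kR n a * kL E m = m ⊗ₖ a := by
  rw [kL_apply, kR_apply, ← mul_kronecker_mul, mul_one, one_mul]

theorem kL_comm_kR (m : Matrix n n A) (a : Matrix E E A) : kL E m * kR n a = kR n a * kL E m := by
  rw [kL_mul_kR, kR_mul_kL]

theorem kL_smul (t : A) (m : Matrix n n A) : kL E (t • m) = t • kL E m := smul_kronecker _ _ _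
theorem kR_smul (t : A) (m : Matrix E E A) : kR n (t • m) = t • kR n m := kronecker_smul _ _ _

theorem map_kron (χ : A →+* A') (m : Matrix n n A) (a : Matrix E E A) :
    (m ⊗ₖ a).map χ = m.map χ ⊗ₖ a.map χ := by
  ext i j; simp

theorem map_kL (χ : A →+* A') (m : Matrix n n A) : (kL E m).map χ = kL E (m.map χ) := by
  rw [kL_apply, map_kron, Matrix.map_one _ (map_zero χ) (map_one χ)]; rfl

theorem map_kR (χ : A →+* A') (m : Matrix E E A) : (kR n m).map χ = kR n (m.map χ) := by
  rw [kR_apply, map_kron, Matrix.map_one _ (map_zero χ) (map_one χ)]; rfl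

theorem kron_sum {β : Type*} (s : Finset β) (m : Matrix n n A) (a : β → Matrix E E A) :
    m ⊗ₖ (∑ b ∈ s, a b) = ∑ b ∈ s, m ⊗ₖ a b := by
  ext i j; simp [Matrix.sum_apply, mul_sum]

theorem sum_kron {β : Type*} (s : Finset β) (m : β → Matrix n n A) (a : Matrix E E A) :
    (∑ b ∈ s, m b) ⊗ₖ a = ∑ b ∈ s, m b ⊗ₖ a := by
  ext i j; simp [Matrix.sum_apply, sum_mul]

theorem trace_map (χ : A →+* A') (m : Matrix n n A) : (m.map χ).trace = χ m.trace := by
  simp [Matrix.trace]

theorem map_smul'' (χ : A →+* A') (t : A) (m : Matrix n n A) :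
    (t • m).map χ = χ t • m.map χ := by
  ext i j; simp

end Kron

section Jet
variable {k n ι : Type*} [Field k] [Fintype n] [DecidableEq n] [Fintype ι] [DecidableEq ι]

/-- Linear part of a series in the direction `x`. -/
def lin1 (b : NC (Matrix n n k) ι) : (ι → k) →ₗ[k] Matrix n n k :=
  Fintype.linearCombination k fun i => b [i]

theorem lin1_apply (b : NC (Matrix n n k) ι) (x : ι → k) : lin1 b x = ∑ i, x i • b [i] :=
  Fintype.linearCombination_apply _ _ _

/-- Quadratic part of a series. -/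
def lin2 (b : NC (Matrix n n k) ι) : (ι → k) →ₗ[k] (ι → k) →ₗ[k] Matrix n n k :=
  Fintype.linearCombination k fun i => lin1 (NC.der i b)

theorem lin2_apply (b : NC (Matrix n n k) ι) (x x' : ι → k) :
    lin2 b x x' = ∑ i, ∑ j, (x i * x' j) • b [i, j] := by
  simp [lin2, Fintype.linearCombination_apply, lin1_apply, smul_sum, smul_smul]

@[simp] theorem lin1_single (b : NC (Matrix n n k) ι) (i : ι) :
    lin1 b (Pi.single i 1) = b [i] := by
  simp [lin1]

/-- First order deformation map. -/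
def Phi (b : NC (Matrix n n k) ι) : ((ι → k) × Matrix n n k) →ₗ[k] Matrix n n k :=
  (lin1 b).coprod (LinearMap.mulLeft k (b []) - LinearMap.mulRight k (b []))

theorem Phi_apply (b : NC (Matrix n n k) ι) (v : (ι → k) × Matrix n n k) :
    Phi b v = lin1 b v.1 + (b [] * v.2 - v.2 * b []) := rfl

/-- First order solutions. -/
def Vt (b : NC (Matrix n n k) ι) : Submodule k ((ι → k) × Matrix n n k) := LinearMap.ker (Phi b)

/-- Obstruction space. -/
def Ob (b : NC (Matrix n n k) ι) : Submodule k (Matrix n n k) := perp (LinearMap.range (Phi b))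

theorem trace_comm_eq {c b g : Matrix n n k} (h : b * c = c * b) :
    (c * (b * g - g * b)).trace = 0 := by
  rw [mul_sub, trace_sub, ← mul_assoc, ← h, mul_assoc, trace_mul_comm, mul_assoc, sub_self]

theorem comm_of_trace {c b : Matrix n n k} (h : ∀ g, (c * (b * g - g * b)).trace = 0) :
    b * c = c * b := by
  rw [eq_comm, ← sub_eq_zero]
  refine eq_zero_of_trace fun g => ?_
  rw [← h g, mul_sub, sub_mul, trace_sub, trace_sub, mul_assoc, ← mul_assoc c g,
    trace_mul_comm (c * g), mul_assoc]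

theorem mem_Ob {b : NC (Matrix n n k) ι} {c} :
    c ∈ Ob b ↔ b [] * c = c * b [] ∧ ∀ i, (c * b [i]).trace = 0 := by
  constructor
  · intro h
    refine ⟨comm_of_trace fun g => ?_, fun i => ?_⟩
    · simpa [Phi_apply] using mem_perp.mp h _ ⟨(0, g), rfl⟩
    · simpa [Phi_apply] using mem_perp.mp h _ ⟨(Pi.single i 1, 0), rfl⟩
  · rintro ⟨h1, h2⟩ _ ⟨v, rfl⟩
    change (c * Phi b v).trace = 0
    rw [Phi_apply, mul_add, trace_add, trace_comm_eq h1]
    simp [lin1_apply, mul_sum, h2]

theorem finrank_Ob (b : NC (Matrix n n k) ι) :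
    finrank k (Ob b) + finrank k (LinearMap.range (Phi b)) = Fintype.card n ^ 2 := finrank_perp _

theorem finrank_Vt (b : NC (Matrix n n k) ι) :
    finrank k (Vt b) = Fintype.card ι + finrank k (Ob b) := by
  have h1 := (Phi b).finrank_range_add_finrank_ker
  have h2 := finrank_Ob b
  rw [finrank_prod, finrank_mat, finrank_fintype_fun_eq_card] at h1
  rw [Vt]; omega

/-- The second order obstruction, before taking traces. -/
def sec (b : NC (Matrix n n k) ι) :
    ((ι → k) × Matrix n n k) →ₗ[k] ((ι → k) × Matrix n n k) →ₗ[k] Matrix n n k :=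
  (lin2 b).compl₁₂ (LinearMap.fst _ _ _) (LinearMap.fst _ _ _) +
    (LinearMap.mul k _).compl₁₂ (lin1 b ∘ₗ LinearMap.fst _ _ _) (LinearMap.snd _ _ _)

theorem sec_apply (b : NC (Matrix n n k) ι) (v v') :
    sec b v v' = lin2 b v.1 v'.1 + lin1 b v.1 * v'.2 := rfl

/-- The quadratic obstruction form of `c` on first order solutions. -/
def qr (b : NC (Matrix n n k) ι) : Matrix n n k →ₗ[k] Vt b →ₗ[k] Dual k (Vt b) where
  toFun c := ((sec b).domRestrict₁₂ (Vt b) (Vt b)).compr₂ (trB k n |>.flip c)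
  map_add' c c' := by ext v v'; simp
  map_smul' t c := by ext v v'; simp

theorem qr_apply (b : NC (Matrix n n k) ι) (c) (v v' : Vt b) :
    qr b c v v' = (c * sec b v v').trace := rfl

/-- First genericity property. -/
def G1 (b : NC (Matrix n n k) ι) : Prop :=
  ∀ i c, b [] * c = c * b [] → ∃ g, b [i] * c - c * b [i] = b [] * g - g * b []

/-- Second genericity property: antisymmetry. -/
def AS (b : NC (Matrix n n k) ι) : Prop :=
  ∀ c ∈ Ob b, ∀ v v' : Vt b, qr b c v v' + qr b c v' v = 0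

/-- Some eigenvalue moves to first order. -/
def ThNe (b : NC (Matrix n n k) ι) : Prop :=
  ∃ c ∈ Algebra.adjoin k {b []}, ∃ i, (c * b [i]).trace ≠ 0

theorem AS_of_raw {b : NC (Matrix n n k) ι}
    (h : ∀ i, ∀ v ∈ Vt b, (∑ j, v.1 j • (b [i, j] + b [j, i])) + (b [i] * v.2 - v.2 * b [i]) ∈
      LinearMap.range (Phi b)) : AS b := by
  rintro c hc ⟨⟨x, g⟩, hv⟩ ⟨⟨x', g'⟩, hv'⟩
  have h1 : lin2 b x x' + lin2 b x' x + (lin1 b x * g' - g' * lin1 b x) ∈
      LinearMap.range (Phi b) := by
    have := sum_mem (t := univ) fun i _ => smul_mem _ (x i) (h i _ hv')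
    convert this using 1
    simp only [lin2_apply, lin1_apply, smul_add, smul_sub, sum_add_distrib, sum_sub_distrib,
      smul_sum, smul_smul, sum_mul, mul_sum, smul_mul_assoc, mul_smul_comm]
    congr 2
    rw [sum_comm]
    simp only [mul_comm]
  have h2 := mem_perp.mp hc _ h1
  have h3 := (mem_Ob.mp hc).1
  have e1 : lin1 b x = g * b [] - b [] * g := by
    have : lin1 b x + (b [] * g - g * b []) = 0 := hv
    rw [← sub_eq_zero, ← this]; abel
  have e2 : lin1 b x' = g' * b [] - b [] * g' := by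
    have : lin1 b x' + (b [] * g' - g' * b []) = 0 := hv'
    rw [← sub_eq_zero, ← this]; abel
  have h4 : (c * (b [] * (g' * g) - g' * g * b [])).trace = 0 := trace_comm_eq h3
  simp only [qr_apply, sec_apply]
  have h5 : lin2 b x x' + lin1 b x * g' + (lin2 b x' x + lin1 b x' * g) =
      (lin2 b x x' + lin2 b x' x + (lin1 b x * g' - g' * lin1 b x)) -
        (b [] * (g' * g) - g' * g * b []) := by
    have : g' * lin1 b x = g' * (g * b [] - b [] * g) := by rw [← e1]
    rw [this, e2]
    noncomm_ring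
  rw [← trace_add, ← mul_add, h5, mul_sub, trace_sub, h2, h4, sub_zero]

/-- A spectral resolution of the constant term together with first order eigenvalue data. -/
structure Res (b : NC (Matrix n n k) ι) where
  Λ : Type
  [fΛ : Fintype Λ]
  [dΛ : DecidableEq Λ]
  lam : Λ → k
  lam_inj : Function.Injective lam
  P : Λ → Matrix n n k
  oi : OI P
  eigL : ∀ a, b [] * P a = lam a • P a
  eigR : ∀ a, P a * b [] = lam a • P a
  μ : ℕ
  μ_pos : 0 < μ
  tr : ∀ a, (P a).trace = μ
  J : Type
  [fJ : Fintype J]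
  [dJ : DecidableEq J]
  cls : Λ → J
  th : J → ι → k
  ρ : Λ → k
  ρ_ne : ∀ a, ρ a ≠ 0
  g1 : ∀ a i, P a * b [i] * P a = (ρ a * th (cls a) i) • P a
  th_ne : ∀ j, th j ≠ 0
  nonpar : ∀ j j', (∀ i i', th j i * th j' i' = th j i' * th j' i) → j = j'
  κ : ℕ
  κ_pos : 0 < κ
  fib : ∀ j, (univ.filter fun a => cls a = j).card = κ

attribute [instance] Res.fΛ Res.dΛ Res.fJ Res.dJ

namespace Res
variable {b : NC (Matrix n n k) ι} (R : Res b)

/-- Number of eigenvalues. -/
def ν : ℕ := Fintype.card R.Λ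
/-- Number of classes of eigenvalues. -/
def pi : ℕ := Fintype.card R.J

/-- Squares of class functionals are independent. -/
def E2 : Prop := ∀ γ : R.J → k, (∀ i i', ∑ j, γ j * (R.th j i * R.th j i') = 0) → γ = 0

/-- High rank property. -/
def HR : Prop := ∃ O₁ : Submodule k (Matrix n n k), O₁ ≤ Ob b ∧
  finrank k (Ob b) + R.pi ≤ finrank k O₁ + R.ν * R.μ ^ 2 ∧
  ∀ c ∈ O₁, c ≠ 0 → 3 * R.ν + 2 < finrank k (LinearMap.range (qr b c))

theorem cls_surj : Function.Surjective R.cls := fun j => by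
  obtain ⟨a, ha⟩ := card_pos.mp (R.fib j ▸ R.κ_pos)
  exact ⟨a, (mem_filter.mp ha).2⟩

theorem ν_eq : R.ν = R.pi * R.κ := by
  have := card_eq_sum_card_fiberwise (s := univ) (t := univ) (f := R.cls) (by simp)
  simpa [R.fib, ν, pi] using this

theorem pi_le : R.pi ≤ R.ν := R.ν_eq ▸ Nat.le_mul_of_pos_right _ R.κ_pos

theorem mem_Diag {c} : c ∈ Diag R.P ↔ b [] * c = c * b [] :=
  R.oi.mem_Diag_iff R.lam_inj R.eigL R.eigR

theorem Ob_le : Ob b ≤ Diag R.P := fun _ hc => R.mem_Diag.mpr (mem_Ob.mp hc).1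

theorem trace_lin {c} (hc : c ∈ Diag R.P) (i) :
    (c * b [i]).trace = ∑ a, R.ρ a * R.th (R.cls a) i * (c * R.P a).trace := by
  rw [R.oi.trace_diag hc]
  simp [R.g1]

variable [CharZero k]

theorem tr_ne (a) : (R.P a).trace ≠ 0 := by
  rw [R.tr]; exact Nat.cast_ne_zero.mpr R.μ_pos.ne'

theorem P_ne (a) : R.P a ≠ 0 := fun h => R.tr_ne a (by simp [h])

theorem ν_mul : R.ν * R.μ = Fintype.card n := R.oi.card_mul R.tr

theorem finrank_Diag : finrank k (Diag R.P) = R.ν * R.μ ^ 2 := R.oi.finrank_Diag R.tr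

theorem Ob_le_dim : finrank k (Ob b) ≤ R.ν * R.μ ^ 2 :=
  R.finrank_Diag ▸ Submodule.finrank_mono R.Ob_le

theorem le_Ob_dim : R.ν * R.μ ^ 2 ≤ finrank k (Ob b) + R.pi := by
  let Γ : Matrix n n k →ₗ[k] (R.J → k) := LinearMap.pi fun j =>
    ∑ a ∈ univ.filter fun a => R.cls a = j, R.ρ a • trB k n (R.P a)
  have hΓ : ∀ c j, Γ c j = ∑ a ∈ univ.filter fun a => R.cls a = j, R.ρ a * (c * R.P a).trace := by
    intro c j; simp [Γ, trB]
  have h1 := (Γ.domRestrict (Diag R.P)).finrank_range_add_finrank_ker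
  have h2 := (LinearMap.range (Γ.domRestrict (Diag R.P))).finrank_le
  rw [finrank_fintype_fun_eq_card] at h2
  rw [R.finrank_Diag, LinearMap.ker_domRestrict, ← finrank_map_subtype_eq,
    map_comap_subtype] at h1
  have h3 : Diag R.P ⊓ LinearMap.ker Γ ≤ Ob b := by
    rintro c ⟨hc, hc'⟩
    refine mem_Ob.mpr ⟨R.mem_Diag.mp hc, fun i => ?_⟩
    rw [R.trace_lin hc, ← sum_fiberwise univ R.cls]
    refine sum_eq_zero fun j _ => ?_
    have : Γ c j = 0 := congrFun hc' j
    rw [hΓ] at this
    rw [← mul_zero (R.th j i), ← this, mul_sum]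
    refine sum_congr rfl fun a ha => ?_
    rw [(mem_filter.mp ha).2]; ring
  have := Submodule.finrank_mono h3
  rw [pi]; omega

theorem exists_eta : ∃ η : ι → k, ∀ j, ∑ i, R.th j i * η i ≠ 0 := by
  obtain ⟨η, hη⟩ := Module.Dual.exists_forall_ne_zero_of_forall_exists
    (fun j => Fintype.linearCombination k (R.th j)) fun j => by
      obtain ⟨i, hi⟩ := Function.ne_iff.mp (R.th_ne j)
      exact ⟨Pi.single i 1, by simpa using hi⟩
  exact ⟨η, fun j => by simpa [Fintype.linearCombination_apply, mul_comm] using hη j⟩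

end Res

/-- The family whose span is the image of the deformation map. -/
def famP {A m ι : Type*} [CommRing A] [Fintype m] [DecidableEq m] (B : NC (Matrix m m A) ι) :
    ι ⊕ (m × m) → Matrix m m A
  | Sum.inl i => B [i]
  | Sum.inr p => B [] * single p.1 p.2 1 - single p.1 p.2 1 * B []

/-- The family whose span is the image of the commutator map. -/
def famA {A m : Type*} [CommRing A] [Fintype m] [DecidableEq m] (B : Matrix m m A) :
    m × m → Matrix m m A := fun p => B * single p.1 p.2 1 - single p.1 p.2 1 * B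

theorem comm_mem_span {A m : Type*} [CommRing A] [Fintype m] [DecidableEq m] (B g : Matrix m m A)
    (S : Submodule A (Matrix m m A)) (h : ∀ p, famA B p ∈ S) : B * g - g * B ∈ S := by
  rw [matrix_eq_sum_single g]
  simp only [mul_sum, sum_mul, ← sum_sub_distrib]
  refine sum_mem fun i _ => sum_mem fun j _ => ?_
  have := smul_mem S (g i j) (h (i, j))
  rwa [famA, smul_sub, ← mul_smul_comm, ← smul_mul_assoc, smul_single, smul_eq_mul,
    mul_one] at this

theorem rkM_famP (b : NC (Matrix n n k) ι) :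
    RkM (famP b) (finrank k (LinearMap.range (Phi b))) := by
  refine RkM.of_finrank _ (fun i => ?_) le_rfl
  rcases i with i | p
  · exact ⟨(Pi.single i 1, 0), by simp [Phi_apply, famP]⟩
  · exact ⟨(0, single p.1 p.2 1), by simp [Phi_apply, famP]⟩

end Jet

/-- The point `t (Ξ + ∑ W ξ)` in the unfolded variables. -/
def upt {A n E ι κ : Type*} [CommRing A] [Fintype n] [DecidableEq n] [Fintype E] [DecidableEq E]
    [DecidableEq ι] (Y : ι → Matrix E E A) (W : κ → Matrix E E A) (i : ι) :
    NC (Matrix (n × E) (n × E) A) (ι × κ) :=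
  NC.aff (kR n (Y i)) fun p => if p.1 = i then kR n (W p.2) else 0

/-- Semicontinuity property: rank bound at all points over two-parameter power series. -/
def SCP {F n ι : Type} [Field F] [Fintype n] [DecidableEq n] [Fintype ι] [DecidableEq ι]
    (b : NC (Matrix n n F) ι) (E : Type) [Fintype E] [DecidableEq E] (r : ℕ) : Prop :=
  ∃ (κ : Type) (_ : Fintype κ) (W : κ → Matrix E E F), (∀ H, ∃ h : κ → F, H = ∑ l, h l • W l) ∧
    ∀ (y : ι → κ → PowerSeries (PowerSeries F))
      (χ : NC (Matrix n n F) ι →+* NC (Matrix (n × E) (n × E) (PowerSeries (PowerSeries F))) (ι × κ)),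
      Ev (fun m => NC.C (kL E (m.map (algebraMap F _))))
        (upt (fun i => ∑ l, (PowerSeries.C PowerSeries.X * y i l) • (W l).map (algebraMap F _))
          fun l => (PowerSeries.C PowerSeries.X : PowerSeries (PowerSeries F)) •
            (W l).map (algebraMap F _)) χ →
      RkM (famP (χ b)) r

end Vale.Agent.P199
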