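import Vale.Agent.P199.State

set_option linter.unusedSectionVars false

namespace Vale.Agent.P199
open Finset Module Submodule Filter

/-- Constant term as an algebra map. -/
def NC.c0A (F : Type*) {R α : Type*} [CommRing F] [Ring R] [Algebra F R] : NC R α →ₐ[F] R :=
  { NC.c0 with commutes' := fun _ => rfl }

@[simp] theorem NC.c0A_apply (F : Type*) {R α : Type*} [CommRing F] [Ring R] [Algebra F R]
    (g : NC R α) : NC.c0A F g = g [] := rfl

theorem NC.aeval_nil {F R α : Type*} [CommRing F] [Ring R] [Algebra F R] (g : NC R α)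
    (q : Polynomial F) : (Polynomial.aeval g q) [] = Polynomial.aeval (g []) q :=
  (Polynomial.aeval_algHom_apply (NC.c0A F) g q).symm

theorem NC.nilpotent_of_alg {F R α : Type*} [Field F] [Ring R] [Algebra F R] {g : NC R α}
    (h0 : g [] = 0) (hg : IsAlgebraic F g) : ∃ k, g ^ k = 0 := by
  obtain ⟨h, hh, he⟩ := hg
  obtain ⟨q, hq, hq'⟩ := Polynomial.exists_eq_pow_rootMultiplicity_mul_and_not_dvd h hh 0
  refine ⟨h.rootMultiplicity 0, ?_⟩
  rw [hq] at he
  simp only [map_zero, sub_zero, map_mul, map_pow, Polynomial.aeval_X] at he hq'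
  rw [Polynomial.X_dvd_iff] at hq'
  have hu : IsUnit ((q.coeff 0)⁻¹ • Polynomial.aeval g q) := by
    refine NC.isUnit_of_nil ?_
    rw [NC.smul_apply, NC.aeval_nil, h0, ← Polynomial.coeff_zero_eq_aeval_zero',
      Algebra.smul_def, ← map_mul, inv_mul_cancel₀ hq', map_one]
  rw [← hu.mul_left_eq_zero, mul_smul_comm, he, smul_zero]

theorem NC.pow_replicate {R α : Type*} [Ring R] {g : NC R α} (h0 : g [] = 0) (i : α) (k : ℕ) :
    (g ^ k) (List.replicate k i) = g [i] ^ k := by
  have hk : ∀ k, g ^ k ∈ (FC.len R α).F k := by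
    intro k
    induction k with
    | zero => exact FC.zero _ _
    | succ k ih => rw [pow_succ']; exact FC.mul_succ _ (FC.mem_len_one.mpr h0) ih
  induction k with
  | zero => simp
  | succ k ih =>
    rw [pow_succ', List.replicate_succ, NC.mul_cons_low _ _ _ _ (by
      simpa using FC.mem_len.mp (hk k)), h0, ih, pow_succ']
    simp

theorem St.not_finite (d : St) (S : Submodule d.F d.R) (hS : S.FG) (h1 : 1 ∈ S)
    (hx : ∀ j, ∀ s ∈ S, d.x j * s ∈ S) : False := by
  have hA : d.A.toSubmodule ≤ S := by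
    intro g hg
    have : ∀ s ∈ S, g * s ∈ S := by
      induction hg using Algebra.adjoin_induction with
      | mem a ha => obtain ⟨j, rfl⟩ := ha; exact hx j
      | algebraMap a => intro s hs; rw [← Algebra.smul_def]; exact S.smul_mem _ hs
      | add a b _ _ ha hb => intro s hs; rw [add_mul]; exact add_mem (ha s hs) (hb s hs)
      | mul a b _ _ ha hb => intro s hs; rw [mul_assoc]; exact ha _ (hb s hs)
    simpa using this 1 h1
  have : Module.Finite d.F S := Module.Finite.iff_fg.mpr hS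
  have hA' : d.A.toSubmodule.FG := Module.Finite.iff_fg.mp (Submodule.finiteDimensional_of_le hA)
  obtain ⟨⟨l, g, hg, hg0, hg1⟩, hl⟩ := Module.finrank_pos_iff_exists_ne_zero.mp
    (lt_of_lt_of_le two_pos d.W2)
  obtain ⟨i, hi⟩ := Function.ne_iff.mp fun h => hl (Subtype.ext h)
  obtain ⟨k, hk⟩ := NC.nilpotent_of_alg hg0 (IsIntegral.of_mem_of_fg _ hA' g hg).isAlgebraic
  have := NC.pow_replicate hg0 i k
  rw [hk, hg1, _root_.smul_pow, one_pow, NC.zero_apply, eq_comm, smul_eq_zero] at this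
  rcases this with h | h
  · exact hi (pow_eq_zero_iff' .. |>.mp h).1
  · exact one_ne_zero h

theorem St.scalar_of_comm (d : St) {g : d.R} (hg : g ∈ d.DR) (hx : ∀ j, g * d.x j = d.x j * g)
    (halg : IsAlgebraic d.F g) : ∃ a, g = algebraMap d.F d.R a := by
  have h1 : ∀ h ∈ d.A, g * h = h * g := by
    intro h hh
    induction hh using Algebra.adjoin_induction with
    | mem a ha => obtain ⟨j, rfl⟩ := ha; exact hx j
    | algebraMap a => exact (Algebra.commutes _ _).symm
    | add a b _ _ ha hb => rw [add_mul, mul_add, ha, hb]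
    | mul a b _ _ ha hb => rw [← mul_assoc, ha, mul_assoc, hb, mul_assoc]
  have h2 := eq_smul_of_comm (z := g []) (P := 1) (by simp) fun m => by
    obtain ⟨h, hh, rfl⟩ := d.S0 m
    simpa using congrArg (· []) (h1 h hh)
  set a := (g []).trace / (1 : Matrix d.n d.n d.F).trace
  refine ⟨a, sub_eq_zero.mp ?_⟩
  have h3 : algebraMap d.F d.R a = NC.C (g []) := by
    rw [h2, NC.algebraMap_eq, Algebra.algebraMap_eq_smul_one]
  have h4 : g - algebraMap d.F d.R a ∈ d.DR := sub_mem hg (h3 ▸ NC.C_mem_sub (hg []))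
  obtain ⟨k, hk⟩ := NC.nilpotent_of_alg (F := d.F) (g := g - algebraMap d.F d.R a)
    (by rw [h3]; simp) (by
      obtain ⟨h, hh, he⟩ := halg
      exact ⟨h.comp (Polynomial.X + Polynomial.C a), by
        rwa [Ne, Polynomial.comp_X_add_C_eq_zero_iff], by simp [Polynomial.aeval_comp, he]⟩)
  induction k with
  | zero => simpa using congrArg (· []) hk
  | succ k ih =>
    rw [pow_succ] at hk
    exact (NC.eq_zero_of_mul d.fm.dom (pow_mem h4 k) h4 hk).elim ih id

/-- The statement of the inductive step. -/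
def StepStmt : Prop := ∀ (d : St) (b : d.R), b ∈ d.DR → ∃ (d' : St) (a : Arr d d'),
  a.χ b = 0 ∨ ∃ (m : ℕ) (c : ℕ → d'.F), (∀ i, c i ∈ d'.fm.K) ∧
    ∑ i ∈ range m, algebraMap _ _ (c i) * a.χ b ^ (i + 1) = 1

/-- The free ring on two generators and countably many constants. -/
abbrev PP := FreeAlgebra ℤ (Fin 2 ⊕ ℕ × ℕ)

instance : Countable PP := by
  rw [← Cardinal.mk_le_aleph0_iff]
  simp

/-- A stage with values of the constants. -/
structure Stg where
  d : St
  c : ℕ × ℕ → d.F
  hc : ∀ t, c t ∈ d.fm.K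

/-- Evaluation of the free ring at a stage. -/
noncomputable def Stg.Φ (s : Stg) : PP →ₐ[ℤ] s.d.R :=
  FreeAlgebra.lift ℤ (Sum.elim s.d.x fun t => algebraMap _ _ (s.c t))

theorem Stg.Φ_mem (s : Stg) (p : PP) : s.Φ p ∈ s.d.DR := by
  induction p using FreeAlgebra.induction with
  | grade0 r => simp
  | grade1 t =>
    rcases t with j | t
    · simpa [Φ] using s.d.hx j
    · simp only [Φ, FreeAlgebra.lift_ι_apply, Sum.elim_inr]
      rw [NC.algebraMap_eq, Algebra.algebraMap_eq_smul_one]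
      exact NC.C_mem_sub (s.d.fm.smul_mem (s.hc t) (one_mem _))
  | mul a b ha hb => rw [map_mul]; exact mul_mem ha hb
  | add a b ha hb => rw [map_add]; exact add_mem ha hb

/-- The inverse relation stored in the constants of index `n`. -/
noncomputable def rel (n m : ℕ) (p : PP) : PP :=
  ∑ i ∈ range m, FreeAlgebra.ι ℤ (Sum.inr (n, i)) * p ^ (i + 1)

/-- Data of the next stage. -/
structure Nxt (n : ℕ) (p : PP) (s : Stg) where
  s' : Stg
  a : Arr s.d s'.d
  hc : ∀ t : ℕ × ℕ, t.1 ≠ n → s'.c t = a.σ (s.c t)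
  hp : a.χ (s.Φ p) = 0 ∨ ∃ m, ∑ i ∈ range m,
    algebraMap _ _ (s'.c (n, i)) * a.χ (s.Φ p) ^ (i + 1) = 1

theorem exists_nxt (H : StepStmt) (n p s) : Nonempty (Nxt n p s) := by
  obtain ⟨d', a, h⟩ := H s.d (s.Φ p) (s.Φ_mem p)
  rcases h with h | ⟨m, c, hc, h⟩
  · exact ⟨⟨⟨d', fun t => a.σ (s.c t), fun t => a.σK _ (s.hc t)⟩, a, fun _ _ => rfl, Or.inl h⟩⟩
  · refine ⟨⟨⟨d', fun t => if t.1 = n then c t.2 else a.σ (s.c t), fun t => ?_⟩, a,
      fun t ht => if_neg ht, Or.inr ⟨m, by simpa using h⟩⟩⟩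
    split_ifs
    · exact hc _
    · exact a.σK _ (s.hc t)

section
variable (H : StepStmt) (s₀ : Stg) (en : ℕ → PP)

/-- The sequence of stages. -/
noncomputable def sq : ℕ → Stg
  | 0 => s₀
  | n + 1 => (Classical.choice (exists_nxt H n (en n) (sq n))).s'

/-- The transitions of the sequence. -/
noncomputable def nx (n : ℕ) : Nxt n (en n) (sq H s₀ en n) :=
  Classical.choice (exists_nxt H n (en n) (sq H s₀ en n))

/-- Elements compatible with the transitions from stage `N` on. -/
noncomputable def Good (N : ℕ) : Subring PP where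
  carrier := {p | ∀ n, N ≤ n → (sq H s₀ en (n + 1)).Φ p = (nx H s₀ en n).a.χ ((sq H s₀ en n).Φ p)}
  mul_mem' := fun ha hb n hn => by rw [map_mul, map_mul, map_mul, ha n hn, hb n hn]; rfl
  add_mem' := fun ha hb n hn => by rw [map_add, map_add, map_add, ha n hn, hb n hn]; rfl
  one_mem' := fun n _ => by rw [map_one, map_one, map_one]; rfl
  zero_mem' := fun n _ => by rw [map_zero, map_zero, map_zero]; rfl
  neg_mem' := fun ha n hn => by rw [map_neg, map_neg, map_neg, ha n hn]; rfl

theorem good_mono {N N' : ℕ} (h : N ≤ N') : Good H s₀ en N ≤ Good H s₀ en N' :=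
  fun _ hp n hn => hp n (h.trans hn)

theorem good_c (t : ℕ × ℕ) : FreeAlgebra.ι ℤ (Sum.inr t) ∈ Good H s₀ en (t.1 + 1) := by
  intro n hn
  simp only [Stg.Φ, FreeAlgebra.lift_ι_apply, Sum.elim_inr, Arr.scal]
  exact congrArg _ ((nx H s₀ en n).hc t (by omega))

theorem exists_good (p : PP) : ∃ N, p ∈ Good H s₀ en N := by
  induction p using FreeAlgebra.induction with
  | grade0 r => exact ⟨0, by simp⟩
  | grade1 t =>
    rcases t with j | t
    · refine ⟨0, fun n _ => ?_⟩
      simp only [Stg.Φ, FreeAlgebra.lift_ι_apply, Sum.elim_inl, Arr.χx]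
      rfl
    · exact ⟨_, good_c H s₀ en t⟩
  | mul a b ha hb =>
    obtain ⟨N, ha⟩ := ha
    obtain ⟨N', hb⟩ := hb
    exact ⟨max N N', mul_mem (good_mono H s₀ en (le_max_left _ _) ha)
      (good_mono H s₀ en (le_max_right _ _) hb)⟩
  | add a b ha hb =>
    obtain ⟨N, ha⟩ := ha
    obtain ⟨N', hb⟩ := hb
    exact ⟨max N N', add_mem (good_mono H s₀ en (le_max_left _ _) ha)
      (good_mono H s₀ en (le_max_right _ _) hb)⟩

theorem stay {N : ℕ} {p : PP} (hp : p ∈ Good H s₀ en N) (h : (sq H s₀ en N).Φ p = 0) :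
    ∀ᶠ n in atTop, (sq H s₀ en n).Φ p = 0 := by
  refine eventually_atTop.mpr ⟨N, fun n hn => ?_⟩
  induction n, hn using Nat.le_induction with
  | base => exact h
  | succ n hn ih => rw [hp n hn, ih, map_zero]; rfl

/-- Eventual equality. -/
noncomputable def con : RingCon PP where
  r p q := ∀ᶠ n in atTop, (sq H s₀ en n).Φ p = (sq H s₀ en n).Φ q
  iseqv := ⟨fun _ => Eventually.of_forall fun _ => rfl, fun h => h.mono fun _ => Eq.symm,
    fun h h' => (h.and h').mono fun _ h => h.1.trans h.2⟩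
  mul' h h' := (h.and h').mono fun _ h => by rw [map_mul, map_mul, h.1, h.2]
  add' h h' := (h.and h').mono fun _ h => by rw [map_add, map_add, h.1, h.2]

theorem con_eq {p q : PP} : (con H s₀ en).mk' p = (con H s₀ en).mk' q ↔
    ∀ᶠ n in atTop, (sq H s₀ en n).Φ p = (sq H s₀ en n).Φ q := RingCon.eq _

variable {en} (hen : ∀ p N, ∃ n, N ≤ n ∧ en n = p)
include hen

theorem zero_or_rel (p : PP) : (∀ᶠ n in atTop, (sq H s₀ en n).Φ p = 0) ∨
    ∃ n m, ∀ᶠ n' in atTop, (sq H s₀ en n').Φ (rel n m p) = 1 := by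
  obtain ⟨N, hN⟩ := exists_good H s₀ en p
  obtain ⟨n, hn, rfl⟩ := hen p N
  have h1 := hN n hn
  have h2 := good_mono H s₀ en (hn.trans n.le_succ) hN
  rcases (nx H s₀ en n).hp with h | ⟨m, h⟩
  · exact Or.inl (stay H s₀ en h2 (h1.trans h))
  · refine Or.inr ⟨n, m, (stay H s₀ en (N := n + 1) (p := rel n m (en n) - 1) ?_ ?_).mono
      fun _ h => by rwa [map_sub, map_one, sub_eq_zero] at h⟩
    · exact sub_mem (sum_mem fun i _ => mul_mem (good_c H s₀ en (n, i)) (pow_mem h2 _)) (one_mem _)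
    · rw [map_sub, map_one, sub_eq_zero, rel, map_sum]
      simp only [map_mul, map_pow, h1]
      simp only [Stg.Φ, FreeAlgebra.lift_ι_apply, Sum.elim_inr]
      exact h

end

theorem limit (H : StepStmt) (d₀ : St) :
    ∃ (D : Type) (_ : DivisionRing D), Algebra.IsAlgebraic (Subring.center D) D ∧
      ∃ x y : D, Algebra.adjoin (Subring.center D) {x, y} = ⊤ ∧
        ¬ Module.Finite (Subring.center D) D := by
  classical
  let s₀ : Stg := ⟨d₀, 0, fun _ => zero_mem _⟩
  obtain ⟨e, he⟩ := exists_surjective_nat PP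
  let en : ℕ → PP := fun n => e n.unpair.1
  have hen : ∀ p N, ∃ n, N ≤ n ∧ en n = p := fun p N => by
    obtain ⟨a, rfl⟩ := he p
    exact ⟨Nat.pair a N, Nat.right_le_pair _ _, by simp [en]⟩
  obtain ⟨Q, _, mk, hsurj, hmk⟩ : ∃ (Q : Type) (_ : Ring Q) (mk : PP →+* Q),
      Function.Surjective mk ∧ ∀ p q, mk p = mk q ↔
        ∀ᶠ n in atTop, (sq H s₀ en n).Φ p = (sq H s₀ en n).Φ q :=
    ⟨_, _, (con H s₀ en).mk', fun q => Quot.inductionOn q fun p => ⟨p, rfl⟩,
      fun _ _ => con_eq H s₀ en⟩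
  have hnt : Nontrivial Q := ⟨⟨mk 1, mk 0, fun h => by
    obtain ⟨n, hn⟩ := ((hmk _ _).mp h).exists
    simpa using congrArg (· []) hn⟩⟩
  have hcen : ∀ t, mk (FreeAlgebra.ι ℤ (Sum.inr t)) ∈ Subring.center Q := by
    intro t
    rw [Subring.mem_center_iff]
    intro q
    obtain ⟨p, rfl⟩ := hsurj q
    rw [← map_mul, ← map_mul, hmk]
    refine Eventually.of_forall fun n => ?_
    simp only [map_mul, Stg.Φ, FreeAlgebra.lift_ι_apply, Sum.elim_inr]
    exact (Algebra.commutes _ _).symm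
  have hrel : ∀ q : Q, q = 0 ∨ ∃ (m : ℕ) (z : ℕ → Subring.center Q),
      ∑ i ∈ range m, z i • q ^ (i + 1) = 1 := by
    intro q
    obtain ⟨p, rfl⟩ := hsurj q
    rcases zero_or_rel H s₀ hen p with h | ⟨n, m, h⟩
    · left
      rw [← map_zero mk, hmk]
      simpa using h
    · refine Or.inr ⟨m, fun i => ⟨_, hcen (n, i)⟩, ?_⟩
      have : mk (rel n m p) = mk 1 := by rw [hmk]; simpa using h
      simp only [rel, map_sum, map_mul, map_pow, map_one] at this
      exact this
  have hunit : ∀ q : Q, IsUnit q ∨ q = 0 := by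
    intro q
    refine (hrel q).symm.imp_left ?_
    rintro ⟨m, z, h⟩
    refine ⟨⟨q, ∑ i ∈ range m, z i • q ^ i, ?_, ?_⟩, rfl⟩
    · simpa [mul_sum, ← pow_succ'] using h
    · simpa [sum_mul, ← pow_succ] using h
  refine ⟨Q, DivisionRing.ofIsUnitOrEqZero hunit, ⟨fun q => ?_⟩,
    mk (FreeAlgebra.ι ℤ (Sum.inl 0)), mk (FreeAlgebra.ι ℤ (Sum.inl 1)), ?_, fun hfin => ?_⟩
  · rcases hrel q with rfl | ⟨m, z, h⟩
    · exact isAlgebraic_zero
    · refine ⟨(∑ i ∈ range m, Polynomial.C (z i) * Polynomial.X ^ (i + 1)) - 1, fun h0 => ?_, ?_⟩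
      · simpa [Polynomial.finsetSum_coeff] using congrArg (Polynomial.coeff · 0) h0
      · simpa [← Algebra.smul_def, sub_eq_zero] using h
  · rw [eq_top_iff]
    rintro q -
    obtain ⟨p, rfl⟩ := hsurj q
    induction p using FreeAlgebra.induction with
    | grade0 r => simp
    | grade1 t =>
      rcases t with j | t
      · refine Algebra.subset_adjoin ?_
        fin_cases j <;> simp
      · exact Subalgebra.algebraMap_mem _ (⟨_, hcen t⟩ : Subring.center Q)
    | mul a b ha hb => rw [map_mul]; exact mul_mem ha hb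
    | add a b ha hb => rw [map_add]; exact add_mem ha hb
  · have hsc : ∀ p, mk p ∈ Subring.center Q → ∀ᶠ n in atTop,
        ∃ a, (sq H s₀ en n).Φ p = algebraMap (sq H s₀ en n).d.F _ a := by
      intro p hp
      have h1 : ∀ᶠ n in atTop, ∀ j, (sq H s₀ en n).Φ p * (sq H s₀ en n).d.x j =
          (sq H s₀ en n).d.x j * (sq H s₀ en n).Φ p := by
        rw [eventually_all]
        intro j
        have := Subring.mem_center_iff.mp hp (mk (FreeAlgebra.ι ℤ (Sum.inl j)))
        rw [← map_mul, ← map_mul, hmk] at this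
        exact this.mono fun n hn => by simpa [Stg.Φ] using hn.symm
      rcases zero_or_rel H s₀ hen p with h | ⟨n, m, h⟩
      · exact h.mono fun n hn => ⟨0, by simpa using hn⟩
      · refine (h.and h1).mono fun n' hn => St.scalar_of_comm _ (Stg.Φ_mem _ p) hn.2
          ⟨(∑ i ∈ range m, Polynomial.C ((sq H s₀ en n').c (n, i)) * Polynomial.X ^ (i + 1)) - 1,
            fun h0 => ?_, ?_⟩
        · simpa [Polynomial.finsetSum_coeff] using congrArg (Polynomial.coeff · 0) h0
        · simpa [rel, Stg.Φ, sub_eq_zero] using hn.1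
    obtain ⟨m, s, hs⟩ := Module.Finite.exists_fin (R := Subring.center Q) (M := Q)
    choose ps hps using fun j => hsurj (s j)
    have hsp : ∀ p, ∀ᶠ n in atTop, (sq H s₀ en n).Φ p ∈
        span (sq H s₀ en n).d.F (Set.range fun j => (sq H s₀ en n).Φ (ps j)) := by
      intro p
      obtain ⟨z, hz⟩ := (mem_span_range_iff_exists_fun _).mp
        (hs ▸ mem_top : mk p ∈ span (Subring.center Q) (Set.range s))
      choose ζ hζ using fun j => hsurj (z j)
      have h1 : mk p = mk (∑ j, ζ j * ps j) := by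
        rw [← hz]; simp [hζ, hps]; rfl
      rw [hmk] at h1
      refine (h1.and (eventually_all.mpr fun j => hsc (ζ j) (hζ j ▸ (z j).2))).mono ?_
      rintro n ⟨h2, h3⟩
      rw [h2, map_sum]
      refine sum_mem fun j _ => ?_
      obtain ⟨a, ha⟩ := h3 j
      rw [map_mul, ha, ← Algebra.smul_def]
      exact smul_mem _ _ (subset_span ⟨j, rfl⟩)
    obtain ⟨n, h1, h2⟩ := ((hsp 1).and (eventually_all.mpr fun t : Fin 2 × Fin m =>
      hsp (FreeAlgebra.ι ℤ (Sum.inl t.1) * ps t.2))).exists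
    refine St.not_finite _ _ (fg_span (Set.finite_range _)) (by simpa using h1) fun j g hg => ?_
    induction hg using span_induction with
    | mem a ha =>
      obtain ⟨i, rfl⟩ := ha
      simpa [Stg.Φ] using h2 (j, i)
    | zero => simp
    | add a b _ _ ha hb => rw [mul_add]; exact add_mem ha hb
    | smul t a _ ha => rw [mul_smul_comm]; exact smul_mem _ _ ha

end Vale.Agent.P199
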