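import Vale.Agent.P199.Basic

set_option linter.unusedSectionVars false

namespace Vale.Agent.P199
open Finset

/-- Noncommutative power series with coefficients in `R` in the letters `α`. -/
structure NC (R α : Type*) where
  co : List α → R

namespace NC
variable {R R' α : Type*}

instance : CoeFun (NC R α) fun _ => List α → R := ⟨co⟩

@[ext] theorem ext {g h : NC R α} (H : ∀ w, g w = h w) : g = h := by
  cases g; cases h; congr; exact funext H

/-- Left derivative. -/
def der (i : α) (g : NC R α) : NC R α := ⟨fun v => g (i :: v)⟩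

@[simp] theorem der_apply (i : α) (g : NC R α) (w) : der i g w = g (i :: w) := rfl

section Ring
variable [Ring R] [Ring R']

instance : Zero (NC R α) := ⟨⟨0⟩⟩
instance : Add (NC R α) := ⟨fun g h => ⟨g.co + h.co⟩⟩
instance : Neg (NC R α) := ⟨fun g => ⟨-g.co⟩⟩
instance : Sub (NC R α) := ⟨fun g h => ⟨g.co - h.co⟩⟩
instance {F : Type*} [SMul F R] : SMul F (NC R α) := ⟨fun a g => ⟨a • g.co⟩⟩

instance : AddCommGroup (NC R α) :=
  Function.Injective.addCommGroup co (fun _ _ h => ext (congrFun h)) rfl (fun _ _ => rfl)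
    (fun _ => rfl) (fun _ _ => rfl) (fun _ _ => rfl) (fun _ _ => rfl)

/-- The convolution product, by recursion on the word. -/
def mulAux : List α → (List α → R) → (List α → R) → R
  | [], g, h => g [] * h []
  | i :: w, g, h => mulAux w (fun v => g (i :: v)) h + g [] * h (i :: w)

/-- Coefficients of a constant plus linear series. -/
def affAux (Y : R) (a : α → R) : List α → R
  | [] => Y
  | [i] => a i
  | _ :: _ :: _ => 0

/-- Constant plus linear series. -/
def aff (Y : R) (a : α → R) : NC R α := ⟨affAux Y a⟩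

@[simp] theorem add_apply (g h : NC R α) (w) : (g + h) w = g w + h w := rfl
@[simp] theorem sub_apply (g h : NC R α) (w) : (g - h) w = g w - h w := rfl
@[simp] theorem neg_apply (g : NC R α) (w) : (-g) w = - g w := rfl
@[simp] theorem zero_apply (w) : (0 : NC R α) w = 0 := rfl
@[simp] theorem smul_apply {F : Type*} [SMul F R] (a : F) (g : NC R α) (w) :
    (a • g) w = a • g w := rfl
@[simp] theorem aff_nil (Y : R) (a : α → R) : aff Y a [] = Y := rfl
@[simp] theorem aff_one (Y : R) (a : α → R) (i) : aff Y a [i] = a i := rfl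
@[simp] theorem aff_two (Y : R) (a : α → R) (i j w) : aff Y a (i :: j :: w) = 0 := rfl

theorem sum_apply {β : Type*} (s : Finset β) (g : β → NC R α) (w) :
    (∑ b ∈ s, g b) w = ∑ b ∈ s, g b w := by
  classical
  induction s using Finset.induction_on with
  | empty => simp
  | insert a s ha ih => simp [sum_insert ha, ih]

theorem mulAux_add_left (w : List α) (g g' h : List α → R) :
    mulAux w (fun v => g v + g' v) h = mulAux w g h + mulAux w g' h := by
  induction w generalizing g g' with
  | nil => simp [mulAux, add_mul]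
  | cons i w ih => simp only [mulAux, ih, add_mul]; abel

theorem mulAux_add_right (w : List α) (g h h' : List α → R) :
    mulAux w g (fun v => h v + h' v) = mulAux w g h + mulAux w g h' := by
  induction w generalizing g with
  | nil => simp [mulAux, mul_add]
  | cons i w ih => simp only [mulAux, ih, mul_add]; abel

theorem mulAux_zero_left (w : List α) (h : List α → R) : mulAux w (fun _ => 0) h = 0 := by
  induction w with
  | nil => simp [mulAux]
  | cons i w ih => simp [mulAux, ih]

theorem mulAux_zero_right (w : List α) (g : List α → R) : mulAux w g (fun _ => 0) = 0 := by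
  induction w generalizing g with
  | nil => simp [mulAux]
  | cons i w ih => simp [mulAux, ih]

theorem mulAux_smul_left (w : List α) (r : R) (g h : List α → R) :
    mulAux w (fun v => r * g v) h = r * mulAux w g h := by
  induction w generalizing g with
  | nil => simp [mulAux, mul_assoc]
  | cons i w ih => simp only [mulAux, ih, mul_add, mul_assoc]

theorem mulAux_const (w : List α) (r : R) (h : List α → R) :
    mulAux w (affAux r (fun _ => 0)) h = r * h w := by
  cases w with
  | nil => rfl
  | cons i w =>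
    have : (fun v => affAux r (fun _ => (0 : R)) (i :: v)) = fun _ => 0 := by
      funext v; cases v <;> rfl
    simp only [mulAux, this, mulAux_zero_left, zero_add]; rfl

theorem mulAux_const_right (w : List α) (r : R) (g : List α → R) :
    mulAux w g (affAux r (fun _ => 0)) = g w * r := by
  induction w generalizing g with
  | nil => rfl
  | cons i w ih =>
    have : affAux r (fun _ => (0 : R)) (i :: w) = 0 := by cases w <;> rfl
    simp [mulAux, ih, this]

theorem mulAux_assoc (w : List α) (g h k : List α → R) :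
    mulAux w (fun v => mulAux v g h) k = mulAux w g (fun v => mulAux v h k) := by
  induction w generalizing g with
  | nil => simp [mulAux, mul_assoc]
  | cons i w ih =>
    simp only [mulAux]
    rw [mulAux_add_left, ih, mulAux_smul_left, mul_add, mul_assoc, add_assoc]

instance : Mul (NC R α) := ⟨fun g h => ⟨fun w => mulAux w g h⟩⟩
instance : One (NC R α) := ⟨aff 1 fun _ => 0⟩

instance : Ring (NC R α) :=
  { (inferInstance : AddCommGroup (NC R α)) with
    mul_assoc := fun g h k => ext fun w => mulAux_assoc w g h k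
    one_mul := fun g => ext fun w => (mulAux_const w 1 g).trans (one_mul _)
    mul_one := fun g => ext fun w => (mulAux_const_right w 1 g).trans (mul_one _)
    left_distrib := fun g h k => ext fun w => mulAux_add_right w g h k
    right_distrib := fun g h k => ext fun w => mulAux_add_left w g h k
    zero_mul := fun g => ext fun w => mulAux_zero_left w g
    mul_zero := fun g => ext fun w => mulAux_zero_right w g }

@[simp] theorem mul_nil (g h : NC R α) : (g * h) [] = g [] * h [] := rfl
theorem mul_cons (g h : NC R α) (i w) :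
    (g * h) (i :: w) = (der i g * h) w + g [] * h (i :: w) := rfl
@[simp] theorem one_nil : (1 : NC R α) [] = 1 := rfl
@[simp] theorem one_cons (i w) : (1 : NC R α) (i :: w) = 0 := by cases w <;> rfl

theorem mul_single (g h : NC R α) (i) : (g * h) [i] = g [i] * h [] + g [] * h [i] := rfl

theorem mul_pair (g h : NC R α) (i j) :
    (g * h) [i, j] = g [i, j] * h [] + g [i] * h [j] + g [] * h [i, j] := rfl

/-- Constants. -/
def C : R →+* NC R α where
  toFun r := aff r fun _ => 0
  map_one' := rfl
  map_zero' := by ext w; rcases w with _ | ⟨i, _ | ⟨j, w⟩⟩ <;> rfl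
  map_add' a b := by ext w; rcases w with _ | ⟨i, _ | ⟨j, w⟩⟩ <;> simp
  map_mul' a b := by
    ext w
    refine Eq.trans ?_ (mulAux_const w a _).symm
    rcases w with _ | ⟨i, _ | ⟨j, w⟩⟩ <;> simp

@[simp] theorem C_nil (r : R) : (C r : NC R α) [] = r := rfl
@[simp] theorem C_cons (r : R) (i w) : (C r : NC R α) (i :: w) = 0 := by cases w <;> rfl
@[simp] theorem C_mul_apply (r : R) (g : NC R α) (w) : (C r * g : NC R α) w = r * g w :=
  mulAux_const w r g
@[simp] theorem mul_C_apply (r : R) (g : NC R α) (w) : (g * C r : NC R α) w = g w * r :=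
  mulAux_const_right w r g

theorem der_aff (Y : R) (a : α → R) (i) : der i (aff Y a) = C (a i) := by
  ext w; cases w <;> simp

theorem aff_mul_cons (Y : R) (a : α → R) (g : NC R α) (i w) :
    (aff Y a * g : NC R α) (i :: w) = a i * g w + Y * g (i :: w) := by
  rw [mul_cons, der_aff]; simp

/-- Constant term. -/
def c0 : NC R α →+* R where
  toFun g := g []
  map_one' := rfl
  map_zero' := rfl
  map_add' _ _ := rfl
  map_mul' _ _ := rfl

@[simp] theorem c0_apply (g : NC R α) : c0 g = g [] := rfl

/-- Coefficientwise map. -/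
def map (χ : R →+* R') : NC R α →+* NC R' α where
  toFun g := ⟨fun w => χ (g w)⟩
  map_one' := by ext w; cases w <;> simp
  map_zero' := by ext w; simp
  map_add' _ _ := by ext w; simp
  map_mul' g h := by
    ext w
    induction w generalizing g with
    | nil => simp
    | cons i w ih =>
      have := ih (der i g)
      simp only [mul_cons, map_add, map_mul] at this ⊢
      rw [this]; rfl

@[simp] theorem map_apply (χ : R →+* R') (g : NC R α) (w) : map χ g w = χ (g w) := rfl

theorem map_aff (χ : R →+* R') (Y : R) (a : α → R) :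
    map χ (aff Y a) = aff (χ Y) fun i => χ (a i) := by
  ext w; rcases w with _ | ⟨i, _ | ⟨j, w⟩⟩ <;> simp

@[simp] theorem map_C (χ : R →+* R') (r : R) : map χ (C r : NC R α) = C (χ r) := by
  ext w; cases w <;> simp

theorem C_mul_comm (r : R) (g : NC R α) (h : ∀ w, r * g w = g w * r) : C r * g = g * C r := by
  ext w; simp [h]

theorem C_mul_aff_comm (r Y : R) (a : α → R) (hY : r * Y = Y * r) (ha : ∀ i, r * a i = a i * r) :
    C r * aff Y a = aff Y a * C r := by
  refine C_mul_comm _ _ fun w => ?_
  rcases w with _ | ⟨i, _ | ⟨j, w⟩⟩ <;> simp [hY, ha]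

theorem mul_mem_of {T : Subring R} {g h : NC R α} (hg : ∀ w, g w ∈ T) (hh : ∀ w, h w ∈ T) (w) :
    (g * h) w ∈ T := by
  induction w generalizing g with
  | nil => exact mul_mem (hg _) (hh _)
  | cons i w ih => rw [mul_cons]; exact add_mem (ih fun _ => hg _) (mul_mem (hg _) (hh _))

/-- Series with coefficients in a subring. -/
def sub (T : Subring R) (α : Type*) : Subring (NC R α) where
  carrier := {g | ∀ w, g w ∈ T}
  mul_mem' := fun ha hb => mul_mem_of ha hb
  one_mem' := fun w => by cases w <;> simp [one_mem, zero_mem]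
  add_mem' := fun ha hb w => add_mem (ha w) (hb w)
  zero_mem' := fun _ => zero_mem _
  neg_mem' := fun ha w => neg_mem (ha w)

theorem mem_sub {T : Subring R} {g : NC R α} : g ∈ sub T α ↔ ∀ w, g w ∈ T := Iff.rfl

theorem aff_mem_sub {T : Subring R} {Y : R} {a : α → R} (hY : Y ∈ T) (ha : ∀ i, a i ∈ T) :
    aff Y a ∈ sub T α := by
  intro w; rcases w with _ | ⟨i, _ | ⟨j, w⟩⟩ <;> simp [hY, ha, zero_mem]

theorem C_mem_sub {T : Subring R} {Y : R} (hY : Y ∈ T) : C Y ∈ sub T α :=
  aff_mem_sub hY fun _ => zero_mem _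

/-- Product at a concatenation of words of minimal length. -/
theorem mul_append (g h : NC R α) (u v : List α) (hg : ∀ w, w.length < u.length → g w = 0)
    (hh : ∀ w, w.length < v.length → h w = 0) : (g * h) (u ++ v) = g u * h v := by
  induction u generalizing g with
  | cons i u ih =>
    rw [List.cons_append, mul_cons, ih (der i g) fun w hw => hg _ (by simpa using hw),
      hg [] (by simp)]
    simp
  | nil =>
    rw [List.nil_append]
    have : ∀ (v : List α) (g : NC R α), (∀ w, w.length < v.length → h w = 0) →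
        (g * h) v = g [] * h v := by
      intro v
      induction v with
      | nil => simp
      | cons i v ih =>
        intro g hh
        rw [mul_cons, ih _ fun w hw => hh _ (by simp; omega), hh v (by simp)]
        simp
    exact this v g hh

theorem exists_min (g : NC R α) (hg : g ≠ 0) :
    ∃ u, g u ≠ 0 ∧ ∀ w, w.length < u.length → g w = 0 := by
  classical
  have : ∃ n, ∃ u : List α, u.length = n ∧ g u ≠ 0 := by
    by_contra h
    push Not at h
    exact hg (ext fun w => h _ w rfl)
  obtain ⟨u, hu, hu'⟩ := Nat.find_spec this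
  refine ⟨u, hu', fun w hw => ?_⟩
  by_contra h
  exact Nat.find_min this (hu ▸ hw) ⟨w, rfl, h⟩

theorem eq_zero_of_mul {T : Subring R} (hT : ∀ a ∈ T, ∀ b ∈ T, a * b = 0 → a = 0 ∨ b = 0)
    {g h : NC R α} (hg : g ∈ sub T α) (hh : h ∈ sub T α) (H : g * h = 0) : g = 0 ∨ h = 0 := by
  by_contra hne
  push Not at hne
  obtain ⟨u, hu, hu'⟩ := exists_min g hne.1
  obtain ⟨v, hv, hv'⟩ := exists_min h hne.2
  have := mul_append g h u v hu' hv'
  rw [H] at this
  rcases hT _ (hg u) _ (hh v) this.symm with h | h <;> contradiction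

/-- Product at a word one letter longer than the order of the left factor. -/
theorem mul_snoc (δ h : NC R α) (W : List α) (a : α) (hδ : ∀ w, w.length < W.length → δ w = 0) :
    (δ * h) (W ++ [a]) = δ (W ++ [a]) * h [] + δ W * h [a] := by
  induction W generalizing δ with
  | nil => simp [mul_single]
  | cons i W ih =>
    rw [List.cons_append, mul_cons, ih (der i δ) fun w hw => hδ _ (by simpa using hw),
      hδ [] (by simp)]
    simp

theorem mul_low_left (δ h : NC R α) (W : List α) (hδ : ∀ w, w.length < W.length → δ w = 0) :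
    (δ * h) W = δ W * h [] := by
  simpa using mul_append δ h W [] hδ (by simp)

theorem mul_low_right (δ h : NC R α) (W : List α) (hδ : ∀ w, w.length < W.length → δ w = 0) :
    (h * δ) W = h [] * δ W := by
  simpa using mul_append h δ [] W (by simp) hδ

theorem mul_cons_low (δ h : NC R α) (W : List α) (a : α)
    (hδ : ∀ w, w.length < W.length → δ w = 0) :
    (h * δ) (a :: W) = h [] * δ (a :: W) + h [a] * δ W := by
  rw [mul_cons, mul_low_right _ _ _ hδ, add_comm]; rfl

end Ring

section Alg
variable {F : Type*} [CommRing F] [Ring R] [Algebra F R]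

instance : Algebra F (NC R α) where
  algebraMap := C.comp (algebraMap F R)
  commutes' a g := C_mul_comm _ _ fun w => Algebra.commutes _ _
  smul_def' a g := by ext w; simp [Algebra.smul_def]

theorem algebraMap_eq (a : F) : algebraMap F (NC R α) a = C (algebraMap F R a) := rfl

end Alg
end NC

/-- Noncommutative series as a series ring. -/
def Der.nc (R α : Type*) [Ring R] : Der (NC R α) R α where
  c := NC.c0
  σ := NC.C
  d i := AddMonoidHom.mk' (NC.der i) fun _ _ => rfl
  c_σ _ := rfl
  d_σ i r := NC.ext fun w => NC.C_cons r i w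
  d_mul i g h := NC.ext fun w => (NC.mul_cons g h i w).trans
    (congrArg _ (NC.C_mul_apply (g []) (NC.der i h) w).symm)

/-- Evaluation of noncommutative series. -/
def Ev {R α B : Type*} [Ring R] [Ring B] [Fintype α] (φ : R → B) (Z : α → B)
    (E : NC R α → B) : Prop := IsEv (Der.nc R α) φ Z E

theorem Ev.eq {R α B : Type*} [Ring R] [Ring B] [Fintype α] {φ : R → B} {Z : α → B}
    {E : NC R α → B} (h : Ev φ Z E) (g) : E g = φ (g []) + ∑ i, Z i * E (NC.der i g) := h g

namespace FC
variable {B : Type*} [Ring B] (f : FC B)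

/-- Weighted filtration on noncommutative series. -/
def nc (α : Type*) (ω : ℕ) : FC (NC B α) where
  F k :=
    { carrier := {g | ∀ w, g w ∈ f.F (k - ω * w.length)}
      add_mem' := fun ha hb d => add_mem (ha d) (hb d)
      zero_mem' := fun _ => zero_mem _
      neg_mem' := fun ha d => neg_mem (ha d) }
  zero _ _ := by rw [Nat.zero_sub]; exact f.zero _
  anti h hb d := f.anti (Nat.sub_le_sub_right h _) (hb d)
  mul {m n a b} ha hb w := by
    induction w generalizing a m with
    | nil => simpa using f.mul (ha []) (hb [])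
    | cons i w ih =>
      rw [NC.mul_cons]
      refine add_mem (f.anti ?_ (ih (m := m - ω) fun v => ?_))
        (f.anti ?_ (f.mul (ha []) (hb (i :: w))))
      · rw [List.length_cons, mul_add]; omega
      · have := ha (i :: v)
        rw [List.length_cons, mul_add] at this
        refine f.anti ?_ this
        omega
      · simp; omega
  sep b h := by
    ext d
    exact f.sep_shift (ω * d.length) _ fun n => h n d
  compl s h := by
    choose b hb using fun d : List α => f.compl_shift (ω * d.length) (fun n => s n d)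
      fun n => h n d
    exact ⟨⟨b⟩, fun n d => hb d n⟩

theorem mem_nc0 {α : Type*} {k : ℕ} {g : NC B α} :
    g ∈ (f.nc α 0).F k ↔ ∀ w, g w ∈ f.F k := by
  change (∀ w, g w ∈ f.F (k - 0 * w.length)) ↔ _
  simp

/-- The filtration by word length. -/
def len (B α : Type*) [Ring B] : FC (NC B α) := (triv B).nc α 1

theorem mem_len {α : Type*} {k : ℕ} {g : NC B α} :
    g ∈ (len B α).F k ↔ ∀ w, w.length < k → g w = 0 := by
  change (∀ w, g w ∈ (triv B).F (k - 1 * w.length)) ↔ _
  simp only [mem_triv, one_mul]
  refine forall_congr' fun d => ⟨fun h hd => h.resolve_left (by omega), fun h => ?_⟩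
  by_cases hd : d.length < k
  · exact Or.inr (h hd)
  · exact Or.inl (by omega)

theorem mem_len_one {α : Type*} {g : NC B α} : g ∈ (len B α).F 1 ↔ g [] = 0 := by
  rw [mem_len]
  exact ⟨fun h => h [] (by simp), fun h w hw => by
    obtain rfl : w = [] := List.length_eq_zero_iff.mp (by omega)
    exact h⟩

theorem aff_mem_nc0 {α : Type*} {k : ℕ} {Y : B} {a : α → B} (hY : Y ∈ f.F k)
    (ha : ∀ i, a i ∈ f.F k) : NC.aff Y a ∈ (f.nc α 0).F k := by
  rw [mem_nc0]
  intro w; rcases w with _ | ⟨i, _ | ⟨j, w⟩⟩ <;> simp [hY, ha, zero_mem]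

end FC

theorem NC.isUnit_of_nil {R α : Type*} [Ring R] {u : NC R α} (hu : u [] = 1) : IsUnit u := by
  have := (FC.len R α).isUnit_one_sub (a := 1 - u) (by rw [FC.mem_len_one]; simp [hu])
  simpa using this

section
variable {R α B B' : Type*} [Ring R] [Ring B] [Ring B'] [Fintype α]

theorem exists_Ev (f : FC B) (φ : R →+* B) (Z : α → B)
    (hZ : ∀ i, Z i ∈ f.F 1) (hc : ∀ r i, φ r * Z i = Z i * φ r) :
    ∃ E : NC R α →+* B, Ev φ Z E := exists_ev f _ φ Z hZ hc

theorem Ev.unique (f : FC B) {φ : R → B} {Z : α → B} (hZ : ∀ i, Z i ∈ f.F 1)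
    {E E' : NC R α → B} (h : Ev φ Z E) (h' : Ev φ Z E') (g) : E g = E' g :=
  IsEv.unique f hZ h h' g

theorem Ev.comp {φ : R → B} {Z : α → B} {E : NC R α → B} (h : Ev φ Z E)
    (χ : B →+* B') : Ev (fun r => χ (φ r)) (fun i => χ (Z i)) (fun g => χ (E g)) :=
  IsEv.comp h χ

theorem Ev.congr {φ φ' : R → B} {Z Z' : α → B} {E : NC R α → B} (h : Ev φ Z E)
    (hφ : ∀ r, φ r = φ' r) (hZ : ∀ i, Z i = Z' i) : Ev φ' Z' E := IsEv.congr h hφ hZ

theorem Ev.C {φ : R → B} {Z : α → B} {E : NC R α →+* B} (h : Ev φ Z E) (r : R) :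
    E (NC.C r) = φ r := IsEv.sigma h r

theorem Ev.aff {φ : R →+* B} {Z : α → B} {E : NC R α →+* B} (h : Ev φ Z E) (Y : R) (a : α → R) :
    E (NC.aff Y a) = φ Y + ∑ i, Z i * φ (a i) := by
  rw [h.eq]; simp [NC.der_aff, h.C]

theorem FC.duN (f : FC B) {Z : α → B} (hZ : ∀ i, Z i ∈ f.F 1)
    {E E' G : NC R α → B} (h : ∀ g, E g = G g + ∑ i, Z i * E (NC.der i g))
    (h' : ∀ g, E' g = G g + ∑ i, Z i * E' (NC.der i g)) (g) : E g = E' g :=
  f.du (Der.nc R α) hZ h h' g

theorem FC.duN_mem (f : FC B) {Z : α → B} (hZ : ∀ i, Z i ∈ f.F 1) {k : ℕ}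
    {Δ G : NC R α → B} (hG : ∀ g, G g ∈ f.F k)
    (h : ∀ g, Δ g = G g + ∑ i, Z i * Δ (NC.der i g)) (g) : Δ g ∈ f.F k :=
  f.du_mem (Der.nc R α) hZ hG h g

theorem Ev.mem_closed (f : FC B) {φ : R → B} {Z : α → B}
    (hZ : ∀ i, Z i ∈ f.F 1) {E : NC R α → B} (h : Ev φ Z E) (T : Subring B)
    (hT : ∀ b, (∀ n, ∃ t ∈ T, b - t ∈ f.F n) → b ∈ T) (hZT : ∀ i, Z i ∈ T)
    (T₀ : Subring R) (hφ : ∀ r ∈ T₀, φ r ∈ T) {g : NC R α} (hg : g ∈ NC.sub T₀ α) : E g ∈ T :=
  IsEv.mem_closed f hZ h T hT hZT (fun g => g ∈ NC.sub T₀ α) (fun _ _ h _ => h _)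
    (fun _ h => hφ _ (h _)) g hg

end

end Vale.Agent.P199
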