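import Vale.Agent.P199.Quiver

set_option linter.unusedSectionVars false

namespace Vale.Agent.P199
open Finset Module Submodule Matrix PowerSeries
open scoped Kronecker

variable {F n ι E : Type} [Field F] [Fintype n] [DecidableEq n] [Fintype ι] [DecidableEq ι]
  [Fintype E] [DecidableEq E]

theorem alg2 (a : F) : algebraMap F (PowerSeries (PowerSeries F)) a = C (C a) := by
  simp [PowerSeries.algebraMap_apply]

theorem exists_coord {A κ : Type*} [CommRing A] [Fintype κ] (j : F →+* A) (W : κ → Matrix E E F)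
    (hW : ∀ H, ∃ h : κ → F, H = ∑ l, h l • W l) (M : Matrix E E A) :
    ∃ y : κ → A, M = ∑ l, y l • (W l).map j := by
  choose h hh using fun p q : E => hW (single p q 1)
  refine ⟨fun l => ∑ p, ∑ q, M p q * j (h p q l), ?_⟩
  ext a c
  have : ∀ p q, ∑ l, j (h p q l) * j (W l a c) = if p = a ∧ q = c then 1 else 0 := fun p q => by
    have := congrArg j (congrFun₂ (hh p q) a c)
    simp only [Matrix.sum_apply, Matrix.smul_apply, smul_eq_mul, map_sum, map_mul, single_apply,
      apply_ite j, map_one, map_zero] at this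
    exact this.symm
  simp only [Matrix.sum_apply, Matrix.smul_apply, map_apply, smul_eq_mul, sum_mul, mul_assoc]
  rw [sum_comm]
  simp only [fun p => sum_comm (s := (univ : Finset κ)) (t := (univ : Finset E))
    (f := fun l q => M p q * (j (h p q l) * j (W l a c))), ← mul_sum, this]
  simp [ite_and]

theorem kR_mem {A : Type*} [CommRing A] (f : FC A) {k} {M : Matrix E E A}
    (h : M ∈ (f.mat E).F k) : kR n M ∈ (f.mat (n × E)).F k := fun i j =>
  f.mul_left _ (h i.2 j.2)

theorem smul_mem_mat {A m : Type*} [CommRing A] [Fintype m] [DecidableEq m] (f : FC A) {k} {t : A}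
    (h : t ∈ f.F k) (M : Matrix m m A) : t • M ∈ (f.mat m).F k := fun i j =>
  f.mul_right _ h

theorem upt_mem {A κ : Type*} [CommRing A] (f : FC A) {k} {Y : ι → Matrix E E A}
    {W : κ → Matrix E E A} (hY : ∀ i, Y i ∈ (f.mat E).F k) (hW : ∀ l, W l ∈ (f.mat E).F k) (i) :
    upt (n := n) Y W i ∈ ((f.mat (n × E)).nc (ι × κ) 0).F k :=
  FC.aff_mem_nc0 _ (kR_mem f (hY i)) fun p => by
    split_ifs
    · exact kR_mem f (hW _)
    · exact zero_mem _

theorem exists_upt {A κ : Type*} [CommRing A] (f : FC A) (j : F →+* A) {Y : ι → Matrix E E A}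
    {W : κ → Matrix E E A} (hY : ∀ i, Y i ∈ (f.mat E).F 1) (hW : ∀ l, W l ∈ (f.mat E).F 1) :
    ∃ χ : NC (Matrix n n F) ι →+* NC (Matrix (n × E) (n × E) A) (ι × κ),
      Ev (fun m => NC.C (kL E (m.map j))) (upt Y W) χ :=
  exists_Ev ((f.mat (n × E)).nc (ι × κ) 0) (NC.C.comp ((kL E).comp j.mapMatrix)) _
    (upt_mem f hY hW) fun r i => NC.C_mul_aff_comm _ _ _ (kL_comm_kR _ _) fun p => by
      split_ifs
      · exact kL_comm_kR _ _
      · simp

theorem exists_pt {A β : Type*} [CommRing A] [Fintype β] (f : FC A) (j : F →+* A)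
    {Y : β → Matrix E E A} (hY : ∀ i, Y i ∈ (f.mat E).F 1) :
    ∃ χ : NC (Matrix n n F) β →+* Matrix (n × E) (n × E) A,
      Ev (fun m => kL E (m.map j)) (fun i => kR n (Y i)) χ :=
  exists_Ev (f.mat (n × E)) ((kL E).comp j.mapMatrix) _ (fun i => kR_mem f (hY i))
    fun _ _ => kL_comm_kR _ _

theorem eq_of_coeff {M N : Matrix (n × E) (n × E) (PowerSeries F)}
    (h : ∀ l r r', (blk M r r').map (coeff l) = (blk N r r').map (coeff l)) : M = N := by
  ext ⟨a, r⟩ ⟨c, r'⟩ l
  exact congrFun₂ (h l r r') a c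

theorem cf0_kL (m : Matrix n n F) :
    cf0 (kL E (m.map (algebraMap F (PowerSeries (PowerSeries F))))) = kL E (m.map C) := by
  rw [cf0_apply, map_kL]; congr 1

theorem cf1_kL (m : Matrix n n F) :
    cf1 (kL E (m.map (algebraMap F (PowerSeries (PowerSeries F))))) = 0 := by
  rw [← cf1_C (kL E (m.map C)), map_kL]; congr 2; ext1; simp [alg2]

theorem cf0_kR {A : Type*} [CommRing A] (M : Matrix E E (PowerSeries A)) :
    cf0 (kR n M) = kR n (cf0 M) := map_kR _ _

theorem cf1_kR {A : Type*} [CommRing A] (M : Matrix E E (PowerSeries A)) :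
    cf1 (kR n M) = kR n (cf1 M) := by
  ext1 i j
  by_cases h : i.1 = j.1 <;> simp [cf1_apply, kR_apply, one_apply, h]

theorem exists_test {b : NC (Matrix n n F) ι} {κ : Type} [Fintype κ] (W : κ → Matrix E E F)
    (hW : ∀ H, ∃ h : κ → F, H = ∑ l, h l • W l) {r : ℕ}
    (hS : ∀ (y : ι → κ → PowerSeries (PowerSeries F))
      (χ : NC (Matrix n n F) ι →+* NC (Matrix (n × E) (n × E) (PowerSeries (PowerSeries F))) (ι × κ)),
      Ev (fun m => NC.C (kL E (m.map (algebraMap F _))))
        (upt (fun i => ∑ l, (PowerSeries.C PowerSeries.X * y i l) • (W l).map (algebraMap F _))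
          fun l => (PowerSeries.C PowerSeries.X : PowerSeries (PowerSeries F)) •
            (W l).map (algebraMap F _)) χ → RkM (famP (χ b)) r)
    (ρ : ι → Matrix (n × E) (n × E) (PowerSeries F)) (U : Matrix (n × E) (n × E) (PowerSeries F))
    (χ₀ : NC (Matrix n n F) ι →+* NC (Matrix (n × E) (n × E) (PowerSeries F)) (ι × κ))
    (h₀ : Ev (fun m => NC.C (kL E (m.map C))) (fun i => NC.aff (ρ i) fun p =>
      if p.1 = i then kR n ((X : PowerSeries F) • (W p.2).map C) else 0) χ₀)
    {β : Type} [Fintype β] (s : Sol F n ι β) (Z H : β → Matrix E E F)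
    (hρ : ∀ l i r r', (blk (ρ i) r r').map (coeff l) =
      Sb Z l (NC.map (algebraMap F _) (s.ξ i)) r r')
    (hU : ∀ l r r', (blk U r r').map (coeff l) = Sb Z l s.u r r') :
    ∃ (Bs : NC (Matrix (n × E) (n × E) (PowerSeries (PowerSeries F))) (ι × κ))
      (E1 U1 : Matrix (n × E) (n × E) (PowerSeries F)),
      RkM (famP Bs) r ∧ (∀ w, cf0 (Bs w) = χ₀ b w) ∧
      (∃ h : ι × κ → PowerSeries F, cf1 (Bs []) = ∑ q, h q • χ₀ b [q]) ∧
      (∀ l r r', (blk E1 r r').map (coeff l) = Sh Z H l (s.Er b) r r') ∧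
      E1 = cf1 (Bs []) * U + (χ₀ b [] * U1 - U1 * kL E ((b []).map C)) := by
  let fA := FC.adic F
  let fs := fA.ps 0
  have hX : (C X : PowerSeries (PowerSeries F)) ∈ fs.F 1 := fA.C_mem_ps FC.X_mem_adic
  let al := algebraMap F (PowerSeries (PowerSeries F))
  let Zs : β → Matrix E E (PowerSeries (PowerSeries F)) := fun j =>
    (C X : PowerSeries (PowerSeries F)) • ((Z j).map al + (X : PowerSeries (PowerSeries F)) •
      (H j).map al)
  have hZs : ∀ j, Zs j ∈ (fs.mat E).F 1 := fun j => smul_mem_mat fs hX _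
  obtain ⟨ψ, hψ⟩ := exists_Ev (fs.mat E) (algebraMap F _) Zs hZs fun _ _ => Algebra.commutes _ _
  obtain ⟨Es, hEs⟩ := exists_pt (n := n) fs al hZs
  have h1 : ∀ g, Es (NC.map (algebraMap F _) g) = kR n (ψ g) := fun g =>
    Ev.unique (fs.mat (n × E)) (fun j => kR_mem fs (hZs j)) (hEs.comp_map (algebraMap F _))
      ((hψ.comp (kR n)).congr (fun a => by
        rw [Algebra.algebraMap_eq_smul_one, Algebra.algebraMap_eq_smul_one, map_smul'', kL_smul,
          Matrix.map_one _ (map_zero _) (map_one _), map_one,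
          ← algebraMap_smul (PowerSeries (PowerSeries F)) a, kR_smul, map_one]) fun _ => rfl) g
  choose y hy using fun i => exists_coord al W hW (∑ j, ((Z j).map al +
    (X : PowerSeries (PowerSeries F)) • (H j).map al) * ψ (NC.der j (s.ξ i)))
  have h2 : ∀ i, ψ (s.ξ i) = ∑ l, (C X * y i l) • (W l).map al := fun i => by
    rw [hψ.eq, s.hξ, map_zero, zero_add]
    simp only [Zs, smul_mul_assoc, ← smul_sum, hy, ← smul_smul]
  have hY : ∀ i, ∑ l, (C X * y i l) • (W l).map al ∈ (fs.mat E).F 1 := fun i =>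
    sum_mem fun l _ => smul_mem_mat fs (fs.mul_right _ hX) _
  obtain ⟨χs, hχs⟩ := exists_upt (n := n) fs al hY
    (W := fun l => (C X : PowerSeries (PowerSeries F)) • (W l).map al) fun l => smul_mem_mat fs hX _
  have h3 : χs b [] = Es (s.χ b) :=
    Ev.unique (fs.mat (n × E)) (fun i => kR_mem fs (hY i)) (hχs.comp NC.c0)
      ((s.hχ.comp Es).congr (fun m => hEs.C m) fun i => by rw [h1, h2]) b
  have hZ0 : ∀ j, cf0 (Zs j) = (X : PowerSeries F) • (Z j).map C := fun j => by
    ext1; simp [Zs, cf0_apply, al, alg2]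
  have hZ1 : ∀ j, cf1 (Zs j) = (X : PowerSeries F) • (H j).map C := fun j => by
    ext1; simp [Zs, cf1_apply, al, alg2, coeff_C, coeff_succ_X_mul]
  have hE0 := (hEs.comp cf0).congr cf0_kL fun j => (cf0_kR _).trans (congrArg _ (hZ0 j))
  have h4 : ∀ i, cf0 (kR n (∑ l, (C X * y i l) • (W l).map al)) = ρ i := fun i => by
    rw [← h2, ← h1]
    exact eq_of_coeff fun l r r' => (coeff_E0 hE0 l _ r r').trans (hρ l i r r').symm
  have h5 : cf0 (Es s.u) = U :=
    eq_of_coeff fun l r r' => (coeff_E0 hE0 l _ r r').trans (hU l r r').symm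
  have hW0 : ∀ l, cf0 ((C X : PowerSeries (PowerSeries F)) • (W l).map al) =
      (X : PowerSeries F) • (W l).map C := fun l => by
    ext1; simp [cf0_apply, al, alg2]
  have hρ1 : ∀ i, ρ i ∈ (fA.mat (n × E)).F 1 := fun i p q => by
    rw [← h4]
    have := kR_mem (n := n) fs (hY i) p q 0
    rwa [coeff_zero_eq_constantCoeff] at this
  have h6 : ∀ w, cf0 (χs b w) = χ₀ b w := fun w => congrArg (· w)
    (Ev.unique ((fA.mat (n × E)).nc (ι × κ) 0) (fun i => FC.aff_mem_nc0 _ (hρ1 i) fun p => by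
      split_ifs
      · exact kR_mem fA (smul_mem_mat fA FC.X_mem_adic _)
      · exact zero_mem _) ((hχs.comp (NC.map cf0)).congr (fun m => by rw [NC.map_C, cf0_kL])
        fun i => by
          rw [upt, NC.map_aff, h4]
          simp only [apply_ite cf0, map_zero, cf0_kR, hW0]) h₀ b)
  refine ⟨χs b, cf1 (Es (s.Er b)), cf1 (Es s.u), hS y χs hχs, h6,
    ⟨fun q => coeff 1 (y q.1 q.2), ?_⟩, ?_, ?_⟩
  · simp only [← h6]
    refine Ev.DL1 hχs (fA.mat _) cf0 cf1 cf_leib cf1_kL (fun i => h4 i ▸ hρ1 i) _ (fun i => ?_) b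
    simp only [Fintype.sum_prod_type, apply_ite cf0, map_zero, smul_ite, smul_zero, cf0_kR, hW0]
    rw [sum_comm]
    simp only [sum_ite_eq', mem_univ, if_true, cf1_kR, map_sum, ← kR_smul]
    refine sum_congr rfl fun l _ => congrArg _ ?_
    ext1; simp [cf1_apply, al, alg2, mul_assoc]; ring
  · refine fun l => coeff_E1 hE0 (E1 := fun g => cf1 (Es g)) (fun g => ?_) l _
    rw [hEs.eq]
    simp only [map_add, map_sum, cf1_kL, zero_add, cf_leib, cf0_kR, cf1_kR, hZ0, hZ1, al]
  · rw [Sol.Er, map_sub, map_mul, map_mul, hEs.C, map_sub, cf_leib, cf_leib, ← h3, h5, h6, cf1_kL,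
      cf0_kL]
    simp only [mul_zero, zero_add]
    abel

theorem tri {K : Type*} [Field K] (gr : E → ℕ) {C M : Matrix (n × E) (n × E) K}
    {N : Matrix n n K} {d : E → K} (hd : Function.Injective d) (hM : Up gr M)
    (hMd : ∀ r, blk M r r = d r • N) (hN : ∀ r r', N * blk C r r' = blk C r r' * N)
    (hN' : ∀ X : Matrix n n K, N * X = 0 → X = 0) (h : C * M = M * C) :
    Up gr C ∧ ((∀ r, blk C r r = 0) → C = 0) := by
  let G := univ.sup gr
  have hG : ∀ r, gr r ≤ G := fun r => le_sup (mem_univ r)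
  have core : ∀ r r', r ≠ r' → (∀ a b, gr b + G - gr a < gr r' + G - gr r → blk C a b = 0) →
      blk C r r' = 0 := by
    intro r r' hne ih
    have h1 := congrArg (fun X => blk X r r') h
    simp only [blk_mul] at h1
    rw [sum_eq_single r' _ (by simp), sum_eq_single r _ (by simp), hMd, hMd, mul_smul_comm,
      smul_mul_assoc, ← hN, ← sub_eq_zero, ← sub_smul, smul_eq_zero] at h1
    · exact hN' _ (h1.resolve_left (sub_ne_zero.mpr (hd.ne hne.symm)))
    · intro s _ hs
      by_cases h2 : gr r < gr s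
      · rw [ih s r' (by have := hG s; omega), mul_zero]
      · rw [hM r s hs.symm h2, zero_mul]
    · intro s _ hs
      by_cases h2 : gr s < gr r'
      · rw [ih r s (by have := hG r; omega), zero_mul]
      · rw [hM s r' hs h2, mul_zero]
  constructor
  · have : ∀ t r r', gr r' + G - gr r = t → r ≠ r' → ¬ gr r < gr r' → blk C r r' = 0 := by
      intro t
      induction t using Nat.strong_induction_on with
      | _ t ih =>
        intro r r' ht hne hlt
        refine core r r' hne fun a b hab => ih _ (ht ▸ hab) a b rfl ?_ ?_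
        · rintro rfl; omega
        · have := hG a; omega
    exact fun r r' => this _ r r' rfl
  · intro h0
    have : ∀ t r r', gr r' + G - gr r = t → blk C r r' = 0 := by
      intro t
      induction t using Nat.strong_induction_on with
      | _ t ih =>
        intro r r' ht
        by_cases hne : r = r'
        · rw [← hne, h0]
        · exact core r r' hne fun a b hab => ih _ (ht ▸ hab) a b rfl
    exact blk_ext fun r r' => this _ r r' rfl

theorem OI.comm_of_trace {K m Λ : Type*} [Field K] [Fintype m] [DecidableEq m] [Fintype Λ]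
    [DecidableEq Λ] {P : Λ → Matrix m m K} (h : OI P) {C M : Matrix m m K} (hC : C ∈ Diag P)
    (H : ∀ G ∈ Diag P, (C * (M * G - G * M)).trace = 0) :
    C * ∑ a, P a * M * P a = (∑ a, P a * M * P a) * C := by
  rw [← sub_eq_zero]
  refine eq_zero_of_trace fun G => ?_
  rw [sub_mul, mul_sum, sum_mul, sum_mul, sum_mul, trace_sub, trace_sum, trace_sum,
    ← sum_sub_distrib]
  refine sum_eq_zero fun a _ => ?_
  rw [← H _ (h.sandwich_mem G a), mul_sub, trace_sub]
  congr 1
  · calc _ = ((C * P a) * (M * (P a * G))).trace := by simp only [mul_assoc]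
      _ = (C * (M * (P a * G)) * P a).trace := by
        rw [← h.comm hC, mul_assoc, trace_mul_comm]
      _ = _ := by simp only [mul_assoc]
  · calc _ = (P a * M * ((P a * C) * G)).trace := by simp only [mul_assoc]
      _ = ((C * P a) * G * (P a * M)).trace := by rw [h.comm hC, trace_mul_comm]
      _ = _ := by simp only [mul_assoc]

end Vale.Agent.P199
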