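import Vale.Agent.P199.Jet

set_option linter.unusedSectionVars false

namespace Vale.Agent.P199
open Finset Module Submodule Matrix

/-- A division algebra form of a matrix algebra. -/
structure Form (F n : Type) [Field F] [Fintype n] [DecidableEq n] where
  K : Subfield F
  B : Type
  [fB : Fintype B]
  e : Basis B F (Matrix n n F)
  D : Subring (Matrix n n F)
  mem_D : ∀ m, m ∈ D ↔ ∀ β, e.repr m β ∈ K
  dom : ∀ a ∈ D, ∀ b ∈ D, a * b = 0 → a = 0 ∨ b = 0
  roots : ∀ p : ℕ, p.Prime → ∃ ζ ∈ K, IsPrimitiveRoot ζ p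

attribute [instance] Form.fB

theorem exists_fin_dual {K F I : Type} [Field K] [Field F] [Algebra K F] [Fintype I] (a : I → F) :
    ∃ (T : Type) (_ : Fintype T) (c : T → F) (π : T → Dual K F),
      ∀ i, a i = ∑ t, c t * algebraMap K F (π t (a i)) := by
  classical
  let b := Basis.ofVectorSpace K F
  let T := univ.biUnion fun i => (b.repr (a i)).support
  refine ⟨T, inferInstance, fun t => b t, fun t => b.coord t, fun i => ?_⟩
  rw [sum_coe_sort T fun t => b t * algebraMap K F (b.coord t (a i))]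
  conv_lhs => rw [← b.linearCombination_repr (a i), Finsupp.linearCombination_apply,
    Finsupp.sum_of_support_subset _ (s := T) (subset_biUnion_of_mem (fun i => (b.repr (a i)).support)
      (mem_univ i)) _ (by simp)]
  refine sum_congr rfl fun t _ => ?_
  rw [Algebra.smul_def, mul_comm]; rfl

namespace Form
variable {F n : Type} [Field F] [Fintype n] [DecidableEq n] (fm : Form F n)

theorem smul_mem {a : F} (ha : a ∈ fm.K) {d} (hd : d ∈ fm.D) : a • d ∈ fm.D := by
  rw [fm.mem_D] at hd ⊢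
  intro β
  rw [map_smul]
  exact mul_mem ha (hd β)

theorem e_mem (β) : fm.e β ∈ fm.D := by
  classical
  rw [fm.mem_D]
  intro γ
  rw [Basis.repr_self, Finsupp.single_apply]
  split_ifs
  · exact one_mem _
  · exact zero_mem _

/-- Coordinatewise application of a functional. -/
noncomputable def pm (π : Dual fm.K F) : Matrix n n F →+ Matrix n n F :=
  AddMonoidHom.mk' (fun m => ∑ β, (π (fm.e.repr m β) : F) • fm.e β)
    fun a b => by simp [add_smul, sum_add_distrib]

theorem pm_apply (π : Dual fm.K F) (m) :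
    fm.pm π m = ∑ β, (π (fm.e.repr m β) : F) • fm.e β := rfl

theorem repr_pm (π : Dual fm.K F) (m β) : fm.e.repr (fm.pm π m) β = π (fm.e.repr m β) := by
  rw [pm_apply, fm.e.repr_sum_self]

theorem pm_mem (π : Dual fm.K F) (m) : fm.pm π m ∈ fm.D := by
  rw [fm.mem_D]; intro β; rw [repr_pm]; exact (π _).2

theorem pm_smul (π : Dual fm.K F) (a : F) {d} (hd : d ∈ fm.D) :
    fm.pm π (a • d) = (π a : F) • d := by
  refine fm.e.ext_elem fun β => ?_
  rw [repr_pm, map_smul, map_smul, Finsupp.smul_apply, Finsupp.smul_apply, smul_eq_mul,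
    smul_eq_mul, mul_comm a]
  have := π.map_smul ⟨_, (fm.mem_D d).mp hd β⟩ a
  erw [this]
  simp [mul_comm]

theorem pm_mul_left (π : Dual fm.K F) {d} (hd : d ∈ fm.D) (m) :
    fm.pm π (d * m) = d * fm.pm π m := by
  conv_lhs => rw [← fm.e.sum_repr m]
  rw [mul_sum, map_sum, pm_apply, mul_sum]
  refine sum_congr rfl fun β _ => ?_
  rw [mul_smul_comm, mul_smul_comm, fm.pm_smul π _ (mul_mem hd (fm.e_mem β))]

theorem pm_mul_right (π : Dual fm.K F) {d} (hd : d ∈ fm.D) (m) :
    fm.pm π (m * d) = fm.pm π m * d := by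
  conv_lhs => rw [← fm.e.sum_repr m]
  rw [sum_mul, map_sum, pm_apply, sum_mul]
  refine sum_congr rfl fun β _ => ?_
  rw [smul_mul_assoc, smul_mul_assoc, fm.pm_smul π _ (mul_mem (fm.e_mem β) hd)]

theorem eq_zero_of_pm {m} (h : ∀ π, fm.pm π m = 0) : m = 0 := by
  refine fm.e.ext_elem fun β => ?_
  rw [map_zero, Finsupp.zero_apply, ← Module.forall_dual_apply_eq_zero_iff fm.K]
  intro π
  have := fm.repr_pm π m β
  rw [h] at this
  simpa using this.symm

theorem isUnit {d} (hd : d ∈ fm.D) (h0 : d ≠ 0) : IsUnit d := by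
  have h1 : Function.Injective (LinearMap.mulLeft F d) := by
    rw [← LinearMap.ker_eq_bot, eq_bot_iff]
    intro m hm
    refine fm.eq_zero_of_pm fun π => ?_
    have : d * fm.pm π m = 0 := by
      rw [← fm.pm_mul_left π hd, show d * m = 0 from hm, map_zero]
    exact (fm.dom _ hd _ (fm.pm_mem π m) this).resolve_left h0
  obtain ⟨m, hm⟩ := LinearMap.injective_iff_surjective.mp h1 1
  exact IsUnit.of_mul_eq_one m hm

theorem exists_retr : ∃ π : Dual fm.K F, ∀ a ∈ fm.K, (π a : F) = a := by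
  obtain ⟨π, hπ⟩ := (Algebra.linearMap fm.K F).exists_leftInverse_of_injective
    (LinearMap.ker_eq_bot.mpr (algebraMap fm.K F).injective)
  exact ⟨π, fun a ha => congrArg Subtype.val (LinearMap.congr_fun hπ ⟨a, ha⟩)⟩

theorem pm_self {π : Dual fm.K F} (hπ : ∀ a ∈ fm.K, (π a : F) = a) {d} (hd : d ∈ fm.D) :
    fm.pm π d = d := by
  have := fm.pm_smul π 1 hd
  rwa [one_smul, hπ 1 (one_mem _), one_smul] at this

theorem trace_mem [CharZero F] [Nonempty n] {d} (hd : d ∈ fm.D) : d.trace ∈ fm.K := by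
  classical
  have h1 := trace_sandwich d 1
  rw [LinearMap.trace_eq_matrix_trace F fm.e, trace_one] at h1
  have h2 : d.trace * (Fintype.card n : F) ∈ fm.K := by
    rw [← h1]
    refine sum_mem fun β _ => ?_
    rw [Matrix.diag, LinearMap.toMatrix_apply]
    exact (fm.mem_D _).mp (mul_mem (mul_mem hd (fm.e_mem β)) (one_mem _)) β
  have h3 : (Fintype.card n : F) ≠ 0 := Nat.cast_ne_zero.mpr Fintype.card_ne_zero
  have := mul_mem h2 (inv_mem (natCast_mem fm.K (Fintype.card n)))
  rwa [mul_inv_cancel_right₀ h3] at this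

variable {ι : Type} [Fintype ι] [DecidableEq ι]

/-- Coordinatewise application of a functional to pairs. -/
noncomputable def pp (π : Dual fm.K F) :
    ((ι → F) × Matrix n n F) →+ ((ι → F) × Matrix n n F) :=
  AddMonoidHom.mk' (fun v => (fun i => (π (v.1 i) : F), fm.pm π v.2))
    fun a b => by ext <;> simp

@[simp] theorem pp_fst (π : Dual fm.K F) (v : (ι → F) × Matrix n n F) (i) :
    (fm.pp π v).1 i = π (v.1 i) := rfl
@[simp] theorem pp_snd (π : Dual fm.K F) (v : (ι → F) × Matrix n n F) :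
    (fm.pp π v).2 = fm.pm π v.2 := rfl

variable (ι) in
/-- Rational pairs. -/
def Rat : AddSubgroup ((ι → F) × Matrix n n F) where
  carrier := {v | (∀ i, v.1 i ∈ fm.K) ∧ v.2 ∈ fm.D}
  add_mem' := fun ha hb => ⟨fun i => add_mem (ha.1 i) (hb.1 i), add_mem ha.2 hb.2⟩
  zero_mem' := ⟨fun _ => zero_mem _, zero_mem _⟩
  neg_mem' := fun ha => ⟨fun i => neg_mem (ha.1 i), neg_mem ha.2⟩

theorem pp_mem (π : Dual fm.K F) (v) : fm.pp π v ∈ fm.Rat ι :=
  ⟨fun _ => (π _).2, fm.pm_mem π _⟩

theorem le_span_rat (S : Submodule F ((ι → F) × Matrix n n F))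
    (h : ∀ π, ∀ v ∈ S, fm.pp π v ∈ S) : S ≤ span F {v | v ∈ S ∧ v ∈ fm.Rat ι} := by
  intro v hv
  obtain ⟨T, _, c, π, hc⟩ := exists_fin_dual (K := fm.K)
    (Sum.elim v.1 (fm.e.repr v.2) : ι ⊕ fm.B → F)
  have : v = ∑ t, c t • fm.pp (π t) v := by
    refine Prod.ext (funext fun i => ?_) (fm.e.ext_elem fun β => ?_)
    · have := hc (Sum.inl i)
      simp only [Sum.elim_inl] at this
      rw [this]
      simp [Prod.fst_sum]
      rfl
    · have := hc (Sum.inr β)
      simp only [Sum.elim_inr] at this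
      rw [this]
      simp [Prod.snd_sum, repr_pm]
      rfl
  rw [this]
  exact sum_mem fun t _ => Submodule.smul_mem _ _ (subset_span ⟨h _ _ hv, fm.pp_mem _ _⟩)

variable {b : NC (Matrix n n F) ι} (hb : b ∈ NC.sub fm.D ι)
include hb

theorem pm_lin1 (π : Dual fm.K F) (x : ι → F) :
    fm.pm π (lin1 b x) = lin1 b fun i => π (x i) := by
  simp [lin1_apply, fm.pm_smul π _ (hb _)]

theorem lin1_mem {x : ι → F} (hx : ∀ i, x i ∈ fm.K) : lin1 b x ∈ fm.D := by
  rw [lin1_apply]
  exact sum_mem fun i _ => fm.smul_mem (hx i) (hb _)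

theorem pm_Phi (π : Dual fm.K F) (v) : fm.pm π (Phi b v) = Phi b (fm.pp π v) := by
  rw [Phi_apply, Phi_apply, map_add, map_sub, fm.pm_lin1 hb, fm.pm_mul_left π (hb _),
    fm.pm_mul_right π (hb _)]
  rfl

theorem pm_sec_right (π : Dual fm.K F) {v} (hv : v ∈ fm.Rat ι) (v') :
    fm.pm π (sec b v v') = sec b v (fm.pp π v') := by
  rw [sec_apply, sec_apply, map_add, fm.pm_mul_left π (fm.lin1_mem hb hv.1)]
  congr 1
  simp only [lin2_apply, map_sum, pp_fst]
  refine sum_congr rfl fun i _ => sum_congr rfl fun j _ => ?_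
  rw [mul_comm, mul_smul, fm.pm_smul π _ (fm.smul_mem (hv.1 i) (hb _)), mul_comm, mul_smul]

theorem pm_sec_left (π : Dual fm.K F) (v) {v'} (hv : v' ∈ fm.Rat ι) :
    fm.pm π (sec b v v') = sec b (fm.pp π v) v' := by
  rw [sec_apply, sec_apply, map_add, fm.pm_mul_right π hv.2, fm.pm_lin1 hb]
  congr 1
  simp only [lin2_apply, map_sum, pp_fst]
  refine sum_congr rfl fun i _ => sum_congr rfl fun j _ => ?_
  rw [mul_smul, fm.pm_smul π _ (fm.smul_mem (hv.1 j) (hb _)), mul_smul]

theorem sec_mem {v v'} (hv : v ∈ fm.Rat ι) (hv' : v' ∈ fm.Rat ι) : sec b v v' ∈ fm.D := by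
  rw [sec_apply, lin2_apply]
  exact add_mem (sum_mem fun i _ => sum_mem fun j _ =>
    fm.smul_mem (mul_mem (hv.1 i) (hv'.1 j)) (hb _)) (mul_mem (fm.lin1_mem hb hv.1) hv'.2)

end Form

/-- Scalar linear terms of elements of a subalgebra. -/
def Wz {F n ι : Type} [Field F] [Fintype n] [DecidableEq n]
    (A : Subalgebra F (NC (Matrix n n F) ι)) : Submodule F (ι → F) where
  carrier := {l | ∃ g ∈ A, g [] = 0 ∧ ∀ i, g [i] = l i • 1}
  add_mem' := by
    rintro _ _ ⟨g, hg, h0, h1⟩ ⟨g', hg', h0', h1'⟩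
    exact ⟨g + g', add_mem hg hg', by simp [h0, h0'], fun i => by simp [h1, h1', add_smul]⟩
  zero_mem' := ⟨0, zero_mem _, rfl, by simp⟩
  smul_mem' := by
    rintro t _ ⟨g, hg, h0, h1⟩
    exact ⟨t • g, A.smul_mem hg t, by simp [h0], fun i => by simp [h1, smul_smul]⟩

theorem trace_mem_Wz {F n ι : Type} [Field F] [CharZero F] [Fintype n] [DecidableEq n]
    [Nonempty n] {A : Subalgebra F (NC (Matrix n n F) ι)} (h0 : ∀ m, ∃ g ∈ A, g [] = m)
    {g} (hg : g ∈ A) : (fun i => (g [i]).trace) ∈ Wz A := by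
  choose E hE hE0 using fun p : n × n => h0 (single p.1 p.2 1)
  let t : NC (Matrix n n F) ι →ₗ[F] (ι → F) ⧸ Wz A := (Wz A).mkQ ∘ₗ
    { toFun := fun g i => (g [i]).trace
      map_add' := fun _ _ => by ext; simp
      map_smul' := fun _ _ => by ext; simp }
  have ht : ∀ g, t g = 0 ↔ (fun i => (g [i]).trace) ∈ Wz A := fun g =>
    Submodule.Quotient.mk_eq_zero _
  have h1 : ∀ g ∈ A, g [] = 0 → t g = 0 := by
    intro g hg hg0
    rw [ht]
    refine ⟨∑ p : n × n, E p * g * E p.swap,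
      sum_mem fun p _ => mul_mem (mul_mem (hE _) hg) (hE _), by simp [NC.sum_apply, hg0], ?_⟩
    intro i
    simp only [NC.sum_apply, NC.mul_single, NC.mul_nil, hg0, mul_zero, zero_mul, zero_add, add_zero,
      hE0, Prod.fst_swap, Prod.snd_swap, single_mul_mul_single, one_mul, mul_one]
    ext a c
    simp [Matrix.sum_apply, Fintype.sum_prod_type, single_apply, one_apply, Matrix.trace, ite_and]
  have h2 : ∀ g ∈ A, ∀ g' ∈ A, g [] = g' [] → t g = t g' := fun g hg g' hg' h => by
    rw [← sub_eq_zero, ← map_sub]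
    exact h1 _ (sub_mem hg hg') (by simp [h])
  have h3 : ∀ g g', t (g * g') = t (g' * g) := fun g g' => by
    refine congrArg (Wz A).mkQ (funext fun i => ?_)
    change ((g * g') [i]).trace = ((g' * g) [i]).trace
    rw [NC.mul_single, NC.mul_single, trace_add, trace_add, add_comm, trace_mul_comm,
      trace_mul_comm (g [i])]
  have h4 : ∀ p q, p ≠ q → t (E (p, q)) = 0 := fun p q hpq => by
    rw [h2 _ (hE _) (E (p, p) * E (p, q)) (mul_mem (hE _) (hE _)) (by simp [hE0]), h3]
    exact h1 _ (mul_mem (hE _) (hE _)) (by simp [hE0, single_mul_single_of_ne, hpq.symm])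
  have h5 : ∀ p q, t (E (p, p)) = t (E (q, q)) := fun p q => by
    rw [h2 _ (hE _) (E (p, q) * E (q, p)) (mul_mem (hE _) (hE _)) (by simp [hE0]), h3]
    exact h2 _ (mul_mem (hE _) (hE _)) _ (hE _) (by simp [hE0])
  have h6 : ∀ p, t (E (p, p)) = 0 := fun p => by
    have h7 : t (∑ q, E (q, q)) = t 1 := h2 _ (sum_mem fun _ _ => hE _) _ (one_mem _) (by
      simp only [NC.sum_apply, hE0, NC.one_nil]
      ext a c
      simp [Matrix.sum_apply, single_apply, one_apply, ite_and])
    have h8 : t 1 = 0 := by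
      rw [ht]; simp only [NC.one_cons, trace_zero]; exact (Wz A).zero_mem
    rw [h8, map_sum] at h7
    simp only [fun q => h5 q p, sum_const, card_univ, ← Nat.cast_smul_eq_nsmul F] at h7
    exact (smul_eq_zero.mp h7).resolve_left (Nat.cast_ne_zero.mpr Fintype.card_ne_zero)
  rw [← ht, h2 g hg (∑ p : n × n, g [] p.1 p.2 • E p)
    (sum_mem fun p _ => A.smul_mem (hE _) _), map_sum]
  · refine sum_eq_zero fun p _ => ?_
    rw [map_smul]
    by_cases hp : p.1 = p.2
    · rw [show p = (p.1, p.1) from Prod.ext rfl hp.symm, h6, smul_zero]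
    · rw [h4 p.1 p.2 hp, smul_zero]
  · simp only [NC.sum_apply, NC.smul_apply, hE0, smul_single, smul_eq_mul, mul_one,
      Fintype.sum_prod_type]
    exact matrix_eq_sum_single _

/-- A stage of the construction. -/
structure St where
  F : Type
  [fF : Field F]
  [ac : IsAlgClosed F]
  [cz : CharZero F]
  n : Type
  [fn : Fintype n]
  [dn : DecidableEq n]
  [nn : Nonempty n]
  ι : Type
  [fι : Fintype ι]
  [dι : DecidableEq ι]
  fm : Form F n
  x : Fin 2 → NC (Matrix n n F) ι
  hx : ∀ j, x j ∈ NC.sub fm.D ι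
  S0 : ∀ m, ∃ g ∈ Algebra.adjoin F (Set.range x), g [] = m
  W2 : 2 ≤ finrank F (Wz (Algebra.adjoin F (Set.range x)))

attribute [instance] St.fF St.ac St.cz St.fn St.dn St.nn St.fι St.dι

/-- The ambient ring of a stage. -/
abbrev St.R (d : St) := NC (Matrix d.n d.n d.F) d.ι
/-- The algebra generated by the two generators. -/
abbrev St.A (d : St) : Subalgebra d.F d.R := Algebra.adjoin d.F (Set.range d.x)
/-- Series with coefficients in the division algebra. -/
abbrev St.DR (d : St) : Subring d.R := NC.sub d.fm.D d.ι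

/-- A transition between stages. -/
structure Arr (d d' : St) where
  σ : d.F →+* d'.F
  χ : d.R →+* d'.R
  scal : ∀ a, χ (algebraMap _ _ a) = algebraMap _ _ (σ a)
  σK : ∀ a ∈ d.fm.K, σ a ∈ d'.fm.K
  χD : ∀ g ∈ d.DR, χ g ∈ d'.DR
  χx : ∀ j, χ (d.x j) = d'.x j

/-- Identity transition. -/
def Arr.refl (d : St) : Arr d d :=
  ⟨RingHom.id _, RingHom.id _, fun _ => rfl, fun _ h => h, fun _ h => h, fun _ => rfl⟩

/-- Composition of transitions. -/
def Arr.trans {d d' d'' : St} (a : Arr d d') (a' : Arr d' d'') : Arr d d'' :=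
  ⟨a'.σ.comp a.σ, a'.χ.comp a.χ, fun t => by simp [a.scal, a'.scal],
    fun t h => a'.σK _ (a.σK t h), fun g h => a'.χD _ (a.χD g h), fun j => by simp [a.χx, a'.χx]⟩

theorem adjoin_map_mem {F F' R R' : Type*} [CommRing F] [CommRing F'] [Ring R] [Ring R']
    [Algebra F R] [Algebra F' R'] (σ : F →+* F') (χ : R →+* R')
    (scal : ∀ a, χ (algebraMap _ _ a) = algebraMap _ _ (σ a)) {s : Set R} (T : Subalgebra F' R')
    (hs : ∀ a ∈ s, χ a ∈ T) {g} (hg : g ∈ Algebra.adjoin F s) : χ g ∈ T := by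
  induction hg using Algebra.adjoin_induction with
  | mem a ha => exact hs a ha
  | algebraMap a => rw [scal]; exact T.algebraMap_mem _
  | add a b _ _ ha hb => rw [map_add]; exact add_mem ha hb
  | mul a b _ _ ha hb => rw [map_mul]; exact mul_mem ha hb

end Vale.Agent.P199
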