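import Vale.Agent.P199.QL1
import Vale.Agent.P199.State

set_option linter.unusedSectionVars false

namespace Vale.Agent.P199
open Finset Module Submodule Matrix PowerSeries
open scoped Kronecker

variable {F n ι E : Type} [Field F] [Fintype n] [DecidableEq n] [Fintype ι] [DecidableEq ι]
  [Fintype E] [DecidableEq E]

/-- Families of matrices passing all tests at a quiver point. -/
def TT (b : NC (Matrix n n F) ι) {β : Type} [Fintype β] (s : Sol F n ι β) (Z : β → Matrix E E F)
    (gr : E → ℕ) : Submodule F (E → Matrix n n F) where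
  carrier := {c | (∀ r, b [] * c r = c r * b []) ∧ ∀ (β' : Type) [Fintype β'] (s' : Sol F n ι β')
    (Z' H : β' → Matrix E E F) (m : ℕ), Gr gr Z' 0 → Gr gr H m →
    (∀ l i, Sb Z' l (NC.map (algebraMap F (Matrix n n F)) (s'.ξ i)) =
      Sb Z l (NC.map (algebraMap F _) (s.ξ i))) → (∀ l, Sb Z' l s'.u = Sb Z l s.u) →
    (∀ l < m, ∀ r r', Sh Z' H l (s'.Er b) r r' = 0) →
    ∑ r, (c r * Sh Z' H m (s'.Er b) r r).trace = 0}
  add_mem' := by
    rintro c c' ⟨h1, h2⟩ ⟨h1', h2'⟩
    refine ⟨fun r => by simp [mul_add, add_mul, h1, h1'], fun β' _ s' Z' H m a1 a2 a3 a4 a5 => ?_⟩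
    simp [add_mul, sum_add_distrib, h2 β' s' Z' H m a1 a2 a3 a4 a5, h2' β' s' Z' H m a1 a2 a3 a4 a5]
  zero_mem' := ⟨by simp, by simp⟩
  smul_mem' := by
    rintro t c ⟨h1, h2⟩
    refine ⟨fun r => by simp [h1], fun β' _ s' Z' H m a1 a2 a3 a4 a5 => ?_⟩
    simp [← mul_sum, h2 β' s' Z' H m a1 a2 a3 a4 a5]

theorem finrank_descend {K : Type} [Field K] [Algebra F K] (S : Submodule K (E → Matrix n n K))
    (T : Submodule F (E → Matrix n n F))
    (h : ∀ c ∈ S, ∀ π : Dual F K, (fun r => (c r).map π) ∈ T) : finrank K S ≤ finrank F T := by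
  let bs := Module.finBasis F T
  have : S ≤ span K (Set.range fun i r => ((bs i : E → Matrix n n F) r).map (algebraMap F K)) := by
    intro c hc
    obtain ⟨I, _, a, π, ha⟩ := exists_fin_dual (K := F) fun p : E × n × n => c p.1 p.2.1 p.2.2
    have h1 : c = ∑ t, a t • fun r => ((c r).map (π t)).map (algebraMap F K) := by
      ext r i j
      simpa [Matrix.sum_apply] using ha (r, i, j)
    rw [h1]
    refine sum_mem fun t _ => smul_mem _ _ ?_
    have h2 := congrArg Subtype.val (bs.sum_repr ⟨_, h c hc (π t)⟩)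
    refine (mem_span_range_iff_exists_fun K).mpr
      ⟨fun i => algebraMap F K (bs.repr ⟨_, h c hc (π t)⟩ i), ?_⟩
    ext r i j
    have := congrArg (algebraMap F K) (congrFun₂ (congrFun h2 r) i j)
    simp only [AddSubmonoidClass.coe_finsetSum, Finset.sum_apply, Matrix.sum_apply, SetLike.val_smul,
      Pi.smul_apply, Matrix.smul_apply, smul_eq_mul, map_sum, map_mul] at this
    simpa only [Finset.sum_apply, Matrix.sum_apply, Pi.smul_apply, Matrix.smul_apply, smul_eq_mul,
      map_apply] using this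
  simpa using (Submodule.finrank_mono this).trans (finrank_range_le_card _)

theorem map_pi_mul {K : Type} [Field K] [Algebra F K] (π : Dual F K) (c : Matrix n n K)
    (m : Matrix n n F) : (c * m.map (algebraMap F K)).map π = c.map π * m := by
  ext i j
  simp [Matrix.mul_apply, mul_comm (c _ _), ← Algebra.smul_def, mul_comm (m _ _)]

theorem map_mul_pi {K : Type} [Field K] [Algebra F K] (π : Dual F K) (c : Matrix n n K)
    (m : Matrix n n F) : (m.map (algebraMap F K) * c).map π = m * c.map π := by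
  ext i j
  simp [Matrix.mul_apply, ← Algebra.smul_def]

theorem blk_eq_zero {M : Matrix (n × E) (n × E) (PowerSeries F)} {r r'}
    (h : ∀ l, (blk M r r').map (coeff l) = 0) : blk M r r' = 0 := by
  ext a c l
  exact congrFun₂ (h l) a c

theorem blk_eq_single {M : Matrix (n × E) (n × E) (PowerSeries F)} {r r'} (m : ℕ)
    (h : ∀ l, l ≠ m → (blk M r r').map (coeff l) = 0) :
    blk M r r' = (X : PowerSeries F) ^ m • ((blk M r r').map (coeff m)).map C := by
  ext a c l
  simp only [Matrix.smul_apply, map_apply, smul_eq_mul, mul_comm (X ^ m), coeff_C_mul, coeff_X_pow]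
  split_ifs with hl
  · rw [hl, mul_one]
  · rw [mul_zero]; exact congrFun₂ (h l hl) a c

theorem up_E0 {β : Type} [Fintype β] {Z : β → Matrix E E F} {gr : E → ℕ} (hZ : Gr gr Z 0)
    {E0 : NC (Matrix n n F) β → Matrix (n × E) (n × E) (PowerSeries F)}
    (h : Ev (fun m => kL E (m.map C)) (fun j => kR n ((X : PowerSeries F) • (Z j).map C)) E0) (g) :
    Up gr (E0 g) ∧ ∀ r, blk (E0 g) r r = (g []).map C := by
  refine ⟨fun r r' h1 h2 => blk_eq_zero fun l => ?_, fun r => ?_⟩
  · rw [coeff_E0 h]
    rcases l with _ | l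
    · exact if_neg h1
    · exact Sb_gr hZ _ _ _ _ (by omega)
  · rw [blk_eq_single 0 fun l hl => by rw [coeff_E0 h]; exact Sb_gr hZ _ _ _ _ (by omega),
      coeff_E0 h]
    simp [Sb]

theorem QL_aux [CharZero F] {K : Type} [Field K] [Algebra F K] (j : PowerSeries F →+* K)
    (hj : Function.Injective j) (hjC : ∀ a, j (C a) = algebraMap F K a)
    {b : NC (Matrix n n F) ι} (R : Res b) {r : ℕ} (hS : SCP b E r)
    {β : Type} [Fintype β] (s : Sol F n ι β) (Z : β → Matrix E E F) (gr : E → ℕ)
    (hZ : Gr gr Z 0) (hE : ∀ l r r', Sb Z l (s.Er b) r r' = 0) :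
    Fintype.card (n × E) ^ 2 ≤ finrank F (TT b s Z gr) + r := by
  obtain ⟨κ, _, W, hW, hS⟩ := hS
  let fA := FC.adic F
  have hZ1 : ∀ {β : Type} (Z : β → Matrix E E F) j,
      (X : PowerSeries F) • (Z j).map C ∈ (fA.mat E).F 1 := fun Z j =>
    smul_mem_mat fA FC.X_mem_adic _
  obtain ⟨E0, hE0⟩ := exists_pt (n := n) fA C (hZ1 Z)
  obtain ⟨ψ, hψ⟩ := exists_Ev (fA.mat E) (algebraMap F _) _ (hZ1 Z) fun _ _ => Algebra.commutes _ _
  have h1 : ∀ g, E0 (NC.map (algebraMap F _) g) = kR n (ψ g) := fun g =>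
    Ev.unique (fA.mat (n × E)) (fun j => kR_mem fA (hZ1 Z j)) (hE0.comp_map (algebraMap F _))
      ((hψ.comp (kR n)).congr (fun a => by
        rw [Algebra.algebraMap_eq_smul_one, Algebra.algebraMap_eq_smul_one, map_smul'', kL_smul,
          Matrix.map_one _ (map_zero _) (map_one _), map_one,
          ← algebraMap_smul (PowerSeries F) a, kR_smul, map_one]; rfl) fun _ => rfl) g
  have hψ1 : ∀ i, ψ (s.ξ i) ∈ (fA.mat E).F 1 := fun i => by
    rw [hψ.eq, s.hξ, map_zero, zero_add]
    exact sum_mem fun j _ => FC.mul_right _ _ (hZ1 Z j)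
  obtain ⟨χ₀, h₀⟩ := exists_upt (n := n) fA C hψ1 (hZ1 W)
  have hB : χ₀ b [] = E0 (s.χ b) :=
    Ev.unique (fA.mat (n × E)) (fun i => kR_mem fA (hψ1 i)) (h₀.comp NC.c0)
      ((s.hχ.comp E0).congr (fun m => hE0.C m) fun i => by rw [h1]) b
  have test := fun {β' : Type} [Fintype β'] (s' : Sol F n ι β') (Z' H : β' → Matrix E E F)
      (a3 : ∀ l i, Sb Z' l (NC.map (algebraMap F (Matrix n n F)) (s'.ξ i)) =
        Sb Z l (NC.map (algebraMap F _) (s.ξ i))) (a4 : ∀ l, Sb Z' l s'.u = Sb Z l s.u) =>
    exists_test W hW hS (fun i => kR n (ψ (s.ξ i))) (E0 s.u) χ₀ h₀ s' Z' H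
      (fun l i r r' => by rw [← h1, coeff_E0 hE0, a3]) fun l r r' => by rw [coeff_E0 hE0, a4]
  obtain ⟨u', hu1, hu2⟩ := isUnit_iff_exists.mp (NC.isUnit_of_nil s.hu)
  have hu' : u' [] = 1 := by simpa [s.hu] using congrArg (· []) hu1
  let J : Matrix (n × E) (n × E) (PowerSeries F) →+* Matrix (n × E) (n × E) K := j.mapMatrix
  let al := algebraMap F K
  let U := J (E0 s.u)
  let U' := J (E0 u')
  let B := J (χ₀ b [])
  let b₀ := kL E ((b []).map al)
  have hUU : U * U' = 1 := by rw [← map_mul, ← map_mul, hu1, map_one, map_one]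
  have hUU' : U' * U = 1 := by rw [← map_mul, ← map_mul, hu2, map_one, map_one]
  have hJk : ∀ m : Matrix n n F, J (kL E (m.map C)) = kL E (m.map al) := fun m => by
    change (kL E _).map j = _
    rw [map_kL]; congr 1; ext1; simp [hjC, al]
  have hBU : B * U = U * b₀ := by
    have : E0 (s.Er b) = 0 := eq_of_coeff fun l r r' => by
      rw [coeff_E0 hE0, hE]; ext; simp
    rw [Sol.Er, map_sub, map_mul, map_mul, hE0.C, sub_eq_zero, ← hB] at this
    rw [← map_mul, this, map_mul, hJk]
  have hUB : U' * B = b₀ * U' := by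
    rw [← mul_one (U' * B), ← hUU, mul_assoc, ← mul_assoc B, hBU, ← mul_assoc, ← mul_assoc, hUU',
      one_mul]
  obtain ⟨η, hη⟩ := R.exists_eta
  let d : E → F := fun r => (Fintype.equivFin E r : ℕ)
  obtain ⟨Bs, E1, U1, hrk, hc0, -, hE1, hE1'⟩ := test (s.ext (η, 0)) (fun o => o.elim 0 Z)
    (fun o => o.elim (diagonal d) fun _ => 0)
    (fun l i => by rw [← Sb_ext1 Z l _ (algebraMap F _ (η i)), ← NC.map_ext1]; rfl)
    fun l => Sb_ext1 Z l _ _
  let jS : PowerSeries (PowerSeries F) →+* PowerSeries K := PowerSeries.map j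
  let v := fun i => (famP Bs i).map jS
  let T : Submodule K (Matrix (n × E) (n × E) K) :=
    { carrier := {t | ∃ w : Matrix _ _ (PowerSeries K), w.map constantCoeff = t ∧
        (X : PowerSeries K) • w ∈ span (PowerSeries K) (Set.range v)}
      add_mem' := by
        rintro _ _ ⟨w, rfl, hw⟩ ⟨w', rfl, hw'⟩
        exact ⟨w + w', Matrix.map_add _ (map_add _) _ _, by rw [smul_add]; exact add_mem hw hw'⟩
      zero_mem' := ⟨0, Matrix.map_zero _ (map_zero _), by simp⟩
      smul_mem' := by
        rintro t _ ⟨w, rfl, hw⟩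
        exact ⟨(C t : PowerSeries K) • w, by ext; simp, by
          rw [smul_comm]; exact smul_mem _ _ hw⟩ }
  have hT : finrank K T ≤ r := (hrk.map jS).fo T fun t ht => ht
  have hj0 : ∀ M : Matrix (n × E) (n × E) _, cf0 (M.map jS) = J (cf0 M) := fun M => by
    ext1 i i'
    exact (coeff_zero_eq_constantCoeff_apply _).symm.trans ((coeff_map j 0 _).trans
      (congrArg j (coeff_zero_eq_constantCoeff_apply _)))
  have hj1 : ∀ M : Matrix (n × E) (n × E) _, cf1 (M.map jS) = J (cf1 M) := fun M => by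
    ext1; simp [cf1_apply, J, jS]
  have had : ∀ G : Matrix _ _ K, (Bs []).map jS * G.map C - G.map C * (Bs []).map jS ∈
      span (PowerSeries K) (Set.range v) := fun G =>
    comm_mem_span _ _ _ fun p => subset_span ⟨Sum.inr p, by
      simp only [v, famP, famA, Matrix.map_sub _ (map_sub jS), Matrix.map_mul, map_single,
        map_one]⟩
  have t1 : ∀ q, J (χ₀ b [q]) ∈ T := fun q =>
    ⟨v (Sum.inl q), by rw [← hc0, ← hj0]; rfl, smul_mem _ _ (subset_span ⟨_, rfl⟩)⟩
  have hc0' : ∀ G : Matrix _ _ K, cf0 ((Bs []).map jS * G.map C - G.map C * (Bs []).map jS) =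
      B * G - G * B := fun G => by rw [map_sub, map_mul, map_mul, hj0, hc0, cf0_C]
  have t2 : ∀ G, B * G - G * B ∈ T := fun G => ⟨_, hc0' G, smul_mem _ _ (had G)⟩
  have t3 : ∀ G, B * G = G * B → J (cf1 (Bs [])) * G - G * J (cf1 (Bs [])) ∈ T := fun G hG => by
    obtain ⟨w, hw, hw'⟩ := exists_X_smul ((hc0' G).trans (sub_eq_zero.mpr hG))
    refine ⟨w, hw'.trans ?_, hw ▸ had G⟩
    simp [cf_leib, cf0_C, cf1_C, hj1]
  have hCb : ∀ c ∈ perp T, b₀ * (U' * c * U) = U' * c * U * b₀ := fun c hc => by
    have : B * c = c * B := comm_of_trace fun g => mem_perp.mp hc _ (t2 g)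
    rw [← mul_assoc, ← mul_assoc, ← hUB, mul_assoc U', this, mul_assoc, mul_assoc, hBU]
    simp only [mul_assoc]
  have hGI : ∀ {D E1 U1 : Matrix _ _ (PowerSeries F)},
      E1 = D * E0 s.u + (χ₀ b [] * U1 - U1 * kL E ((b []).map C)) →
      U' * J E1 = U' * J D * U + (b₀ * (U' * J U1) - U' * J U1 * b₀) := by
    rintro D _ U1 rfl
    rw [map_add, map_sub, map_mul, map_mul, map_mul, hJk, mul_add, mul_sub, ← mul_assoc,
      ← mul_assoc, hUB]
    simp only [mul_assoc, U, b₀]
  have hU' := up_E0 hZ hE0 u'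
  have hU'1 : Up gr U' := hU'.1.map j
  have hU'2 : ∀ r, blk U' r r = 1 := fun r => by
    change (blk (E0 u') r r).map j = 1
    rw [hU'.2, hu', Matrix.map_one _ (map_zero _) (map_one _),
      Matrix.map_one _ (map_zero _) (map_one _)]
  let P' : R.Λ → Matrix n n K := fun a => (R.P a).map al
  have oiP : OI P' := ⟨fun a a' h => by
      rw [← Matrix.map_mul, R.oi.orth _ _ h, Matrix.map_zero _ (map_zero _)],
    fun a => by rw [← Matrix.map_mul, R.oi.idem],
    by rw [← Matrix.map_one al (map_zero _) (map_one _), ← R.oi.sum]; ext; simp [P', Matrix.sum_apply]⟩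
  have hD : ∀ c, c ∈ Diag P' ↔ (b []).map al * c = c * (b []).map al := fun c =>
    oiP.mem_Diag_iff (al.injective.comp R.lam_inj)
      (fun a => by rw [← Matrix.map_mul, R.eigL, map_smul'']; rfl)
      fun a => by rw [← Matrix.map_mul, R.eigR, map_smul'']; rfl
  have oiP2 : OI fun a => kL E (P' a) := ⟨fun a a' h => by rw [← map_mul, oiP.orth _ _ h, map_zero],
    fun a => by rw [← map_mul, oiP.idem], by rw [← map_sum, oiP.sum, map_one]⟩
  have hD2 : ∀ c, c ∈ Diag (fun a => kL E (P' a)) ↔ b₀ * c = c * b₀ := fun c =>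
    oiP2.mem_Diag_iff (al.injective.comp R.lam_inj)
      (fun a => by rw [← map_mul, ← Matrix.map_mul, R.eigL, map_smul'', kL_smul]; rfl)
      fun a => by rw [← map_mul, ← Matrix.map_mul, R.eigR, map_smul'', kL_smul]; rfl
  have hblk : ∀ C, b₀ * C = C * b₀ → ∀ r r',
      (b []).map al * blk C r r' = blk C r r' * (b []).map al := fun C hC r r' => by
    simpa [blk_mul, blk_kL, b₀] using congrArg (fun M => blk M r r') hC
  have hZ' : Gr gr (fun o : Option β => o.elim 0 Z) 0 := by
    rintro (_ | o) r r' h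
    · simp at h
    · exact hZ o r r' h
  have hH' : Gr gr (fun o : Option β => o.elim (diagonal d) fun _ => 0) 1 := by
    rintro (_ | o) r r' h
    · by_cases hr : r = r'
      · rw [hr]
      · simp [hr] at h
    · simp at h
  have hE1a : Up gr E1 := fun r r' h h' => blk_eq_zero fun l => by
    rw [hE1]
    rcases l with _ | _ | l
    · rfl
    · simp [Sh_one, h]
    · exact Sh_gr hZ' hH' _ _ _ _ (by omega)
  have hE1b : ∀ r, blk E1 r r = (X : PowerSeries F) • (d r • lin1 b η).map C := fun r => by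
    rw [blk_eq_single 1 fun l hl => by rw [hE1]; exact Sh_gr hZ' hH' _ _ _ _ (by omega), hE1]
    simp [Sh_one, Sol.Er_one, Phi_apply]
  have hX : j X ≠ 0 := (map_ne_zero_iff j hj).mpr X_ne_zero
  have htri : ∀ c ∈ perp T, Up gr (U' * c * U) ∧ ((∀ r, blk (U' * c * U) r r = 0) →
      U' * c * U = 0) := by
    intro c hc
    have hC := hCb c hc
    have h2 := oiP2.comm_of_trace (M := U' * J E1) ((hD2 _).mpr hC) fun G hG => by
      rw [hD2] at hG
      have h3 := mem_perp.mp hc _ (t3 (U * G * U') (by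
        rw [← mul_assoc, ← mul_assoc, hBU, mul_assoc _ U', hUB, mul_assoc U, hG]
        simp only [mul_assoc]))
      have h4 : b₀ * (G * (U' * c * U)) = G * (U' * c * U) * b₀ := by
        rw [← mul_assoc, hG, mul_assoc, hC]; simp only [mul_assoc]
      have h5 : b₀ * ((U' * c * U) * G) = (U' * c * U) * G * b₀ := by
        rw [← mul_assoc, hC, mul_assoc, hG]; simp only [mul_assoc]
      have h6 := trace_comm_eq (g := U' * J U1) h4
      have h7 := trace_comm_eq (g := U' * J U1) h5
      rw [hGI hE1']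
      generalize b₀ * (U' * J U1) - U' * J U1 * b₀ = Y at h6 h7 ⊢
      rw [mul_assoc G, trace_mul_comm] at h6
      have h8 : (U' * c * U * (U' * J (cf1 (Bs [])) * U * G - G * (U' * J (cf1 (Bs [])) * U))).trace
          = 0 := by
        rw [← h3, mul_assoc, mul_assoc, trace_mul_comm]
        congr 1
        simp only [mul_sub, sub_mul, mul_assoc, hUU, mul_one]
        rw [← mul_assoc U U', hUU, one_mul]
      rw [add_mul, mul_add G, add_sub_add_comm, mul_add, trace_add, h8, mul_sub, trace_sub,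
        ← mul_assoc, h6, ← mul_assoc, h7]
      simp
    have h3 : ∀ r r', blk (∑ a, kL E (P' a) * (U' * J E1) * kL E (P' a)) r r' =
        ∑ a, P' a * blk (U' * J E1) r r' * P' a := fun r r' => by
      simp only [blk_sum, blk_mul (_ * _) (kL E _), blk_mul (kL E _), blk_kL, mul_ite, ite_mul,
        mul_zero, zero_mul, sum_ite_eq, sum_ite_eq', mem_univ, if_true]
    refine tri gr (N := ∑ a, (j X * al (R.ρ a * ∑ i, R.th (R.cls a) i * η i)) • P' a)
      (d := fun r => al (d r)) (al.injective.comp fun r r' h => by simpa [d, Fin.val_inj] using h)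
      (fun r r' h h' => by
        rw [h3, hU'1.mul (N := J E1) (hE1a.map j) r r' h h']; simp) (fun r => ?_)
      (fun r r' => ?_) (fun Y hY => ?_) h2
    · rw [h3, smul_sum]
      refine sum_congr rfl fun a _ => ?_
      have h4 : R.P a * lin1 b η * R.P a = (R.ρ a * ∑ i, R.th (R.cls a) i * η i) • R.P a := by
        simp only [lin1_apply, mul_sum, sum_mul, mul_smul_comm, smul_mul_assoc, R.g1, smul_smul,
          sum_smul]
        exact sum_congr rfl fun i _ => by congr 1; ring
      have h5 : blk (J E1) r r = (j X * al (d r)) • (lin1 b η).map al := by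
        change (blk E1 r r).map j = _
        rw [hE1b]; ext; simp [hjC, al, mul_assoc]
      rw [hU'1.diag (N := J E1) (hE1a.map j), hU'2, one_mul, h5, mul_smul_comm, smul_mul_assoc,
        ← Matrix.map_mul, ← Matrix.map_mul, h4, map_smul'', smul_smul, smul_smul]
      congr 1; ring
    · simp only [sum_mul, mul_sum, smul_mul_assoc, mul_smul_comm,
        oiP.comm ((hD _).mpr (hblk _ hC r r'))]
    · rw [← oiP.left Y]
      refine sum_eq_zero fun a _ => ?_
      have := congrArg (P' a * ·) hY
      rw [← mul_assoc, mul_sum] at this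
      simp only [mul_smul_comm, oiP.mul, smul_ite, smul_zero, sum_ite_eq,
        mem_univ, if_true, smul_mul_assoc, mul_zero] at this
      exact (smul_eq_zero.mp this).resolve_left
        (mul_ne_zero hX ((map_ne_zero al).mpr (mul_ne_zero (R.ρ_ne a) (hη _))))
  let Θ : Matrix (n × E) (n × E) K →ₗ[K] (E → Matrix n n K) :=
    { toFun := fun c r => blk (U' * c * U) r r
      map_add' := fun _ _ => by ext1; simp [mul_add, add_mul]
      map_smul' := fun _ _ => by ext1; simp }
  have h7 : finrank K ((perp T).map Θ) = finrank K (perp T) := by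
    rw [← LinearMap.range_domRestrict]
    refine LinearMap.finrank_range_of_inj ((injective_iff_map_eq_zero _).mpr ?_)
    rintro ⟨c, hc'⟩ hc
    have := (htri c hc').2 (congrFun hc)
    apply Subtype.ext
    calc c = (U * U') * c * (U * U') := by rw [hUU, one_mul, mul_one]
      _ = U * (U' * c * U) * U' := by simp only [mul_assoc]
      _ = 0 := by rw [this, mul_zero, zero_mul]
  have h8 := finrank_descend ((perp T).map Θ) (TT b s Z gr) (by
    rintro _ ⟨c, hc, rfl⟩ π
    refine ⟨fun r => ?_, fun β' _ s' Z' H m a1 a2 a3 a4 a5 => ?_⟩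
    · rw [← map_mul_pi, ← map_pi_mul]
      exact congrArg (·.map π) (hblk _ (hCb c hc) r r)
    · obtain ⟨Bt, F1, V1, -, -, ⟨h, hh⟩, hF1, hF1'⟩ := test s' Z' H a3 a4
      have h9 : (U' * c * U * (U' * J F1)).trace = 0 := by
        rw [hGI hF1', mul_add, trace_add, trace_comm_eq (hCb c hc), add_zero, mul_assoc, mul_assoc,
          trace_mul_comm]
        simp only [mul_assoc, hUU, mul_one]
        rw [← mul_assoc U U', hUU, one_mul, hh, map_sum]
        refine mem_perp.mp hc _ (sum_mem fun q _ => ?_)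
        rw [show J (h q • χ₀ b [q]) = j (h q) • J (χ₀ b [q]) from map_smul'' j _ _]
        exact smul_mem _ _ (t1 q)
      have h10 := ((htri c hc).1.mul hU'1)
      rw [← mul_assoc, trace_blk] at h9
      have h11 : ∀ r, blk (U' * c * U * U' * J F1) r r =
          j X ^ m • (Θ c r * (Sh Z' H m (s'.Er b) r r).map al) := fun r => by
        rw [blk_mul, sum_eq_single r _ (by simp), (htri c hc).1.diag hU'1, hU'2, mul_one,
          ← mul_smul_comm]
        · congr 1
          change (blk F1 r r).map j = _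
          rw [blk_eq_single m fun l hl => by rw [hF1]; exact Sh_gr a1 a2 _ _ _ _ (by omega), hF1]
          ext; simp [hjC, al]
        · intro r' _ hr
          by_cases hlt : gr r < gr r'
          · have : blk (J F1) r' r = 0 := by
              change (blk F1 r' r).map j = _
              rw [blk_eq_zero fun l => ?_, Matrix.map_zero _ (map_zero _)]
              rw [hF1]
              by_cases hl : l < m
              · exact a5 l hl _ _
              · exact Sh_gr a1 a2 _ _ _ _ (by omega)
            rw [this, mul_zero]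
          · rw [h10 r r' hr.symm hlt, zero_mul]
      simp only [h11, trace_smul, ← smul_sum] at h9
      have h12 := congrArg π ((smul_eq_zero.mp h9).resolve_left (pow_ne_zero _ hX))
      simp only [← map_pi_mul]
      simpa [Matrix.trace] using h12)
  have := finrank_perp T
  omega

theorem QL [CharZero F] {b : NC (Matrix n n F) ι} (R : Res b) {r : ℕ} (hS : SCP b E r)
    {β : Type} [Fintype β] (s : Sol F n ι β) (Z : β → Matrix E E F) (gr : E → ℕ)
    (hZ : Gr gr Z 0) (hE : ∀ l r r', Sb Z l (s.Er b) r r' = 0) :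
    Fintype.card (n × E) ^ 2 ≤ finrank F (TT b s Z gr) + r :=
  QL_aux (K := FractionRing (PowerSeries F)) (algebraMap _ _) (IsFractionRing.injective _ _)
    (fun a => (IsScalarTower.algebraMap_apply F (PowerSeries F) _ a).symm) R hS s Z gr hZ hE

end Vale.Agent.P199
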