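import Vale.Agent.P199.Jet

set_option linter.unusedSectionVars false

namespace Vale.Agent.P199
open Finset Module Submodule Matrix
open scoped Kronecker

section DL
variable {R ι ι' B Bs A : Type*} [Ring R] [Ring B] [Ring Bs] [CommRing A] [Algebra A B]
  [Fintype ι] [Fintype ι'] {φ : R → Bs} {Y : ι → Bs} {a : ι → ι' → Bs}
  {χ : NC R ι → NC Bs ι'} (hχ : Ev (fun r => NC.C (φ r)) (fun i => NC.aff (Y i) (a i)) χ)
include hχ

theorem Ev.aff_nil (g) : χ g [] = φ (g []) + ∑ i, Y i * χ (NC.der i g) [] := by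
  rw [hχ.eq]; simp [NC.sum_apply]

theorem Ev.aff_cons (g q w) : χ g (q :: w) =
    ∑ i, (a i q * χ (NC.der i g) w + Y i * χ (NC.der i g) (q :: w)) := by
  rw [hχ.eq]; simp [NC.sum_apply, NC.aff_mul_cons]

variable (f : FC B) (c0 : Bs →+* B) (c1 : Bs →+ B)
  (leib : ∀ x y, c1 (x * y) = c0 x * c1 y + c1 x * c0 y) (hφ : ∀ r, c1 (φ r) = 0)
  (hY : ∀ i, c0 (Y i) ∈ f.F 1) (h : ι' → A) (hh : ∀ i, c1 (Y i) = ∑ q, h q • c0 (a i q))
include leib hφ hY hh

theorem Ev.DL1 (g) : c1 (χ g []) = ∑ q, h q • c0 (χ g [q]) := by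
  refine f.duN hY (E := fun g => c1 (χ g [])) (E' := fun g => ∑ q, h q • c0 (χ g [q]))
    (G := fun g => ∑ i, c1 (Y i) * c0 (χ (NC.der i g) [])) (fun g => ?_) (fun g => ?_) g
  · rw [hχ.aff_nil]
    simp only [map_add, hφ, map_sum, leib, sum_add_distrib, zero_add]
    rw [add_comm]
  · simp only [hχ.aff_cons g, map_sum, map_add, map_mul, hh, smul_sum, smul_add, sum_add_distrib,
      sum_mul, mul_sum, smul_mul_assoc, mul_smul_comm]
    rw [sum_comm, sum_comm (f := fun q i => h q • (c0 (Y i) * _))]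

theorem Ev.DL2 (ha : ∀ i q, c1 (a i q) = 0) (g q') :
    c1 (χ g [q']) = ∑ q, h q • (c0 (χ g [q, q']) + c0 (χ g [q', q])) := by
  refine f.duN hY (E := fun g => c1 (χ g [q']))
    (E' := fun g => ∑ q, h q • (c0 (χ g [q, q']) + c0 (χ g [q', q])))
    (G := fun g => ∑ i, (c0 (a i q') * c1 (χ (NC.der i g) []) +
      c1 (Y i) * c0 (χ (NC.der i g) [q']))) (fun g => ?_) (fun g => ?_) g
  · rw [hχ.aff_cons]
    simp only [map_add, ha, map_sum, leib, sum_add_distrib, zero_mul, add_zero]
    abel
  · simp only [hχ.DL1 f c0 c1 leib hφ hY h hh]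
    simp only [hχ.aff_cons g, map_sum, map_add, map_mul, hh, smul_sum, smul_add, sum_add_distrib,
      sum_mul, mul_sum, smul_mul_assoc, mul_smul_comm, mul_add]
    simp only [sum_comm (s := (univ : Finset ι')) (t := (univ : Finset ι))]
    abel

end DL

theorem Ev.comp_map {R R' α B : Type*} [Ring R] [Ring R'] [Ring B] [Fintype α] {φ : R' → B}
    {Z : α → B} {E : NC R' α → B} (h : Ev φ Z E) (χ : R →+* R') :
    Ev (fun r => φ (χ r)) Z fun g => E (NC.map χ g) := fun g => h.eq (NC.map χ g)

section PS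
variable {A m : Type*} [CommRing A] [Fintype m] [DecidableEq m]

/-- Constant coefficient of a matrix of power series. -/
noncomputable def cf0 : Matrix m m (PowerSeries A) →+* Matrix m m A :=
  (PowerSeries.constantCoeff (R := A)).mapMatrix

/-- Linear coefficient of a matrix of power series. -/
noncomputable def cf1 : Matrix m m (PowerSeries A) →+ Matrix m m A :=
  (PowerSeries.coeff (R := A) 1).toAddMonoidHom.mapMatrix

theorem cf0_apply (M : Matrix m m (PowerSeries A)) :
    cf0 M = M.map PowerSeries.constantCoeff := rfl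
theorem cf1_apply (M : Matrix m m (PowerSeries A)) : cf1 M = M.map (PowerSeries.coeff 1) := rfl

theorem cf_leib (M N : Matrix m m (PowerSeries A)) :
    cf1 (M * N) = cf0 M * cf1 N + cf1 M * cf0 N := by
  ext i j
  simp [cf0_apply, cf1_apply, Matrix.mul_apply, PowerSeries.coeff_mul, ← sum_add_distrib,
    Finset.Nat.antidiagonal_succ]

theorem cf0_C (M : Matrix m m A) : cf0 (M.map PowerSeries.C) = M := by
  ext i j; simp [cf0_apply]

theorem cf1_C (M : Matrix m m A) : cf1 (M.map PowerSeries.C) = 0 := by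
  ext i j; simp [cf1_apply, PowerSeries.coeff_C]

theorem exists_X_smul {M : Matrix m m (PowerSeries A)} (h : cf0 M = 0) :
    ∃ w : Matrix m m (PowerSeries A), (PowerSeries.X : PowerSeries A) • w = M ∧ cf0 w = cf1 M := by
  refine ⟨of fun i j => PowerSeries.mk fun d => PowerSeries.coeff (d + 1) (M i j), ?_, ?_⟩
  · ext i j d
    rcases d with _ | d
    · simpa [cf0_apply] using (congrFun₂ h i j).symm
    · simp [PowerSeries.coeff_succ_X_mul]
  · ext i j
    simp [cf0_apply, cf1_apply]

end PS

section Blk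
variable {A n E : Type*} [CommRing A] [Fintype n] [DecidableEq n] [Fintype E] [DecidableEq E]

/-- Blocks of a matrix. -/
def blk (M : Matrix (n × E) (n × E) A) (r r' : E) : Matrix n n A := of fun a b => M (a, r) (b, r')

theorem blk_ext {M N : Matrix (n × E) (n × E) A} (h : ∀ r r', blk M r r' = blk N r r') : M = N := by
  ext ⟨a, r⟩ ⟨b, r'⟩
  exact congrFun₂ (h r r') a b

theorem blk_mul (M N : Matrix (n × E) (n × E) A) (r r') :
    blk (M * N) r r' = ∑ s, blk M r s * blk N s r' := by
  ext a b
  simp only [blk, Matrix.mul_apply, of_apply, Matrix.sum_apply, Fintype.sum_prod_type]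
  rw [sum_comm]

@[simp] theorem blk_add (M N : Matrix (n × E) (n × E) A) (r r') :
    blk (M + N) r r' = blk M r r' + blk N r r' := rfl
@[simp] theorem blk_zero (r r') : blk (0 : Matrix (n × E) (n × E) A) r r' = 0 := rfl
@[simp] theorem blk_smul (t : A) (M : Matrix (n × E) (n × E) A) (r r') :
    blk (t • M) r r' = t • blk M r r' := rfl

theorem blk_sum {β : Type*} (s : Finset β) (M : β → Matrix (n × E) (n × E) A) (r r') :
    blk (∑ b ∈ s, M b) r r' = ∑ b ∈ s, blk (M b) r r' := by
  ext a b; simp [blk, Matrix.sum_apply]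

theorem blk_kL (m : Matrix n n A) (r r' : E) : blk (kL E m) r r' = if r = r' then m else 0 := by
  ext a b
  by_cases h : r = r' <;> simp [blk, kL_apply, one_apply, h]

theorem blk_kR (Z : Matrix E E A) (r r' : E) : blk (kR n Z) r r' = Z r r' • 1 := by
  ext a b
  simp [blk, kR_apply, mul_comm]

theorem blk_map {A' : Type*} [CommRing A'] (j : A → A') (M : Matrix (n × E) (n × E) A) (r r') :
    blk (M.map j) r r' = (blk M r r').map j := rfl

theorem trace_blk (M : Matrix (n × E) (n × E) A) : M.trace = ∑ r, (blk M r r).trace := by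
  simp only [Matrix.trace, Matrix.diag, blk, of_apply, Fintype.sum_prod_type]
  rw [sum_comm]

/-- Block upper triangular with respect to a grading. -/
def Up (gr : E → ℕ) (M : Matrix (n × E) (n × E) A) : Prop :=
  ∀ r r', r ≠ r' → ¬ gr r < gr r' → blk M r r' = 0

theorem Up.mul {gr : E → ℕ} {M N : Matrix (n × E) (n × E) A} (hM : Up gr M) (hN : Up gr N) :
    Up gr (M * N) := by
  intro r r' h h'
  rw [blk_mul]
  refine sum_eq_zero fun s _ => ?_
  by_cases h1 : r = s
  · subst h1; rw [hN r r' h h', mul_zero]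
  by_cases h2 : gr r < gr s
  · rw [hN s r' (by rintro rfl; exact h' h2) (by omega), mul_zero]
  · rw [hM r s h1 h2, zero_mul]

theorem Up.diag {gr : E → ℕ} {M N : Matrix (n × E) (n × E) A} (hM : Up gr M) (hN : Up gr N) (r) :
    blk (M * N) r r = blk M r r * blk N r r := by
  rw [blk_mul]
  refine sum_eq_single r (fun s _ hs => ?_) (by simp)
  by_cases h2 : gr r < gr s
  · rw [hN s r hs (by omega), mul_zero]
  · rw [hM r s hs.symm h2, zero_mul]

theorem Up.map {A' : Type*} [CommRing A'] (j : A →+* A') {gr : E → ℕ}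
    {M : Matrix (n × E) (n × E) A} (hM : Up gr M) : Up gr (M.map j) := fun r r' h h' => by
  rw [blk_map, hM r r' h h', Matrix.map_zero _ (map_zero j)]

end Blk

section S
variable {F n E β : Type*} [Field F] [Fintype n] [DecidableEq n] [Fintype E] [DecidableEq E]
  [Fintype β]

/-- Homogeneous components of the evaluation at a quiver point. -/
def Sb (Z : β → Matrix E E F) : ℕ → NC (Matrix n n F) β → E → E → Matrix n n F
  | 0, g, r, r' => if r = r' then g [] else 0
  | l + 1, g, r, r' => ∑ j, ∑ s, Z j r s • Sb Z l (NC.der j g) s r'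

/-- Homogeneous components of the derivative of the evaluation at a quiver point. -/
def Sh (Z H : β → Matrix E E F) : ℕ → NC (Matrix n n F) β → E → E → Matrix n n F
  | 0, _, _, _ => 0
  | l + 1, g, r, r' => ∑ j, ∑ s,
      (Z j r s • Sh Z H l (NC.der j g) s r' + H j r s • Sb Z l (NC.der j g) s r')

/-- Matrices homogeneous of degree `1 - m`. -/
def Gr (gr : E → ℕ) (H : β → Matrix E E F) (m : ℕ) : Prop :=
  ∀ j r r', H j r r' ≠ 0 → gr r' + m = gr r + 1

theorem Sb_gr {gr : E → ℕ} {Z : β → Matrix E E F} (hZ : Gr gr Z 0) (l)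
    (g : NC (Matrix n n F) β) (r r') (h : gr r' ≠ gr r + l) : Sb Z l g r r' = 0 := by
  induction l generalizing g r with
  | zero => exact if_neg (by rintro rfl; exact h rfl)
  | succ l ih =>
    refine sum_eq_zero fun j _ => sum_eq_zero fun s _ => ?_
    by_cases h1 : Z j r s = 0
    · rw [h1, zero_smul]
    · rw [ih _ _ (by have := hZ j r s h1; omega), smul_zero]

theorem Sh_gr {gr : E → ℕ} {Z H : β → Matrix E E F} {m} (hZ : Gr gr Z 0) (hH : Gr gr H m) (l)
    (g : NC (Matrix n n F) β) (r r') (h : gr r' + m ≠ gr r + l) : Sh Z H l g r r' = 0 := by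
  induction l generalizing g r with
  | zero => rfl
  | succ l ih =>
    refine sum_eq_zero fun j _ => sum_eq_zero fun s _ => ?_
    have h2 : H j r s • Sb Z l (NC.der j g) s r' = 0 := by
      by_cases h1 : H j r s = 0
      · rw [h1, zero_smul]
      · rw [Sb_gr hZ _ _ _ _ (by have := hH j r s h1; omega), smul_zero]
    rw [h2, add_zero]
    by_cases h1 : Z j r s = 0
    · rw [h1, zero_smul]
    · rw [ih _ _ (by have := hZ j r s h1; omega), smul_zero]

theorem Sb_low (Z : β → Matrix E E F) (l) (g : NC (Matrix n n F) β)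
    (h : ∀ w, w.length = l → g w = 0) (r r') : Sb Z l g r r' = 0 := by
  induction l generalizing g r with
  | zero => simp [Sb, h]
  | succ l ih =>
    refine sum_eq_zero fun j _ => sum_eq_zero fun s _ => ?_
    rw [ih (NC.der j g) fun w hw => h (j :: w) (by simp [hw]), smul_zero]

theorem Sh_low (Z H : β → Matrix E E F) (l) (g : NC (Matrix n n F) β)
    (h : ∀ w, w.length = l → g w = 0) (r r') : Sh Z H l g r r' = 0 := by
  induction l generalizing g r with
  | zero => rfl
  | succ l ih =>
    refine sum_eq_zero fun j _ => sum_eq_zero fun s _ => ?_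
    rw [ih (NC.der j g) fun w hw => h (j :: w) (by simp [hw]),
      Sb_low _ _ (NC.der j g) fun w hw => h (j :: w) (by simp [hw])]
    simp

theorem Sb_add (Z : β → Matrix E E F) (l) (g g' : NC (Matrix n n F) β) (r r') :
    Sb Z l (g + g') r r' = Sb Z l g r r' + Sb Z l g' r r' := by
  induction l generalizing g g' r with
  | zero => by_cases h : r = r' <;> simp [Sb, h]
  | succ l ih =>
    simp only [Sb, ← sum_add_distrib, ← smul_add, ← ih]
    rfl

theorem Sb_one (Z : β → Matrix E E F) (g : NC (Matrix n n F) β) (r r') :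
    Sb Z 1 g r r' = ∑ j, Z j r r' • g [j] := by
  simp [Sb]

theorem Sh_one (Z H : β → Matrix E E F) (g : NC (Matrix n n F) β) (r r') :
    Sh Z H 1 g r r' = ∑ j, H j r r' • g [j] := by
  simp [Sh, Sb]

theorem Sh_two (Z H : β → Matrix E E F) (g : NC (Matrix n n F) β) (r r') :
    Sh Z H 2 g r r' = ∑ j, ∑ j', ((Z j * H j') r r' + (H j * Z j') r r') • g [j, j'] := by
  simp only [Sh, smul_zero, zero_add, Sb, smul_ite, sum_ite_eq', mem_univ, if_true, smul_sum,
    smul_smul, Matrix.mul_apply, add_smul, sum_smul, sum_add_distrib, NC.der_apply]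
  congr 1 <;> exact sum_congr rfl fun j _ => sum_comm

open PowerSeries in
theorem coeff_E0 {Z : β → Matrix E E F}
    {E0 : NC (Matrix n n F) β → Matrix (n × E) (n × E) (PowerSeries F)}
    (h : Ev (fun m => kL E (m.map C)) (fun j => kR n ((X : PowerSeries F) • (Z j).map C)) E0)
    (l g r r') : (blk (E0 g) r r').map (coeff l) = Sb Z l g r r' := by
  induction l generalizing g r with
  | zero =>
    rw [h.eq]
    ext a b
    by_cases hr : r = r' <;>
      simp [blk_kL, blk_sum, blk_mul, blk_kR, Sb, hr, Matrix.sum_apply, mul_assoc]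
  | succ l ih =>
    rw [h.eq]
    ext a b
    by_cases hr : r = r' <;>
      simp [blk_kL, blk_sum, blk_mul, blk_kR, Sb, hr, Matrix.sum_apply, mul_assoc, coeff_C,
        coeff_succ_X_mul, ← ih]

open PowerSeries in
theorem coeff_E1 {Z H : β → Matrix E E F}
    {E0 E1 : NC (Matrix n n F) β → Matrix (n × E) (n × E) (PowerSeries F)}
    (h : Ev (fun m => kL E (m.map C)) (fun j => kR n ((X : PowerSeries F) • (Z j).map C)) E0)
    (h1 : ∀ g, E1 g = ∑ j, (kR n ((X : PowerSeries F) • (Z j).map C) * E1 (NC.der j g) +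
      kR n ((X : PowerSeries F) • (H j).map C) * E0 (NC.der j g)))
    (l g r r') : (blk (E1 g) r r').map (coeff l) = Sh Z H l g r r' := by
  induction l generalizing g r with
  | zero =>
    rw [h1]
    ext a b
    simp [blk_sum, blk_mul, blk_kR, Sh, Matrix.sum_apply, mul_assoc]
  | succ l ih =>
    rw [h1]
    ext a b
    simp [blk_sum, blk_mul, blk_kR, Sh, Matrix.sum_apply, mul_assoc,
      coeff_succ_X_mul, ← ih, ← coeff_E0 h, sum_add_distrib]

end S

/-- Coefficients of the extension of a series to one more letter. -/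
def liftAux {R β : Type*} [Zero R] : List (Option β) → (List β → R) → R
  | [], g => g []
  | some j :: w, g => liftAux w fun v => g (j :: v)
  | none :: _, _ => 0

/-- Extension of a series to one more letter, with a linear term in the new letter. -/
def NC.ext1 {R β : Type*} [Ring R] (g : NC R β) (a : R) : NC R (Option β) :=
  ⟨fun w => liftAux w g⟩ + NC.aff 0 fun o => o.elim a fun _ => 0

section
variable {R β : Type*} [Ring R] (g : NC R β) (a : R)
@[simp] theorem NC.ext1_nil : g.ext1 a [] = g [] := by simp [NC.ext1, liftAux]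
@[simp] theorem NC.ext1_none : g.ext1 a [none] = a := by simp [NC.ext1, liftAux]
@[simp] theorem NC.ext1_some (j) : g.ext1 a [some j] = g [j] := by simp [NC.ext1, liftAux]
@[simp] theorem NC.ext1_sn (j) : g.ext1 a [some j, none] = 0 := by simp [NC.ext1, liftAux]
@[simp] theorem NC.ext1_ns (j) : g.ext1 a [none, j] = 0 := by simp [NC.ext1, liftAux]

theorem NC.der_ext1 (j) : NC.der (some j) (g.ext1 a) = (NC.der j g).ext1 0 := by
  ext w
  rcases w with _ | ⟨_ | i, _ | ⟨k, w⟩⟩ <;> simp [NC.ext1, liftAux]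

theorem NC.map_ext1 {R' : Type*} [Ring R'] (χ : R →+* R') :
    NC.map χ (g.ext1 a) = (NC.map χ g).ext1 (χ a) := by
  have : ∀ w (g : List β → R), χ (liftAux w g) = liftAux w fun v => χ (g v) := by
    intro w
    induction w with
    | nil => intro g; rfl
    | cons i w ih => intro g; cases i <;> simp [liftAux, ih]
  ext w
  rw [NC.ext1, map_add, NC.map_aff]
  simp only [NC.add_apply, NC.map_apply, NC.ext1, this, map_zero]
  congr 3
  funext o
  cases o <;> simp

end

theorem Sb_ext1 {F n E β : Type*} [Field F] [Fintype n] [DecidableEq n] [Fintype E] [DecidableEq E]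
    [Fintype β] (Z : β → Matrix E E F) (l) (g : NC (Matrix n n F) β) (a) :
    Sb (fun o : Option β => o.elim 0 Z) l (g.ext1 a) = Sb Z l g := by
  induction l generalizing g a with
  | zero => funext r r'; simp [Sb]
  | succ l ih => funext r r'; simp [Sb, NC.der_ext1, ih]

section Sol
variable {F n ι : Type} [Field F] [Fintype n] [DecidableEq n] [Fintype ι] [DecidableEq ι]

variable (F n ι) in
/-- A substitution of the variables together with a conjugating series. -/
structure Sol (β : Type) where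
  ξ : ι → NC F β
  hξ : ∀ i, ξ i [] = 0
  u : NC (Matrix n n F) β
  hu : u [] = 1
  χ : NC (Matrix n n F) ι →+* NC (Matrix n n F) β
  hχ : Ev NC.C (fun i => NC.map (algebraMap F _) (ξ i)) χ

theorem exists_sub {β : Type} (ξ : ι → NC F β) (hξ : ∀ i, ξ i [] = 0) :
    ∃ χ : NC (Matrix n n F) ι →+* NC (Matrix n n F) β,
      Ev NC.C (fun i => NC.map (algebraMap F _) (ξ i)) χ :=
  exists_Ev (FC.len _ β) NC.C _ (fun i => FC.mem_len_one.mpr (by simp [hξ])) fun r i =>
    NC.C_mul_comm _ _ fun w => (Algebra.commutes _ _).symm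

/-- Constructor for substitutions. -/
noncomputable def Sol.mk' {β : Type} (ξ : ι → NC F β) (hξ : ∀ i, ξ i [] = 0)
    (u : NC (Matrix n n F) β) (hu : u [] = 1) : Sol F n ι β :=
  ⟨ξ, hξ, u, hu, (exists_sub ξ hξ).choose, (exists_sub ξ hξ).choose_spec⟩

namespace Sol
variable {β : Type} (s : Sol F n ι β) (b : NC (Matrix n n F) ι)

/-- The error term of the conjugation equation. -/
def Er : NC (Matrix n n F) β := s.χ b * s.u - s.u * NC.C (b [])

/-- Coefficients of a substitution. -/
def v (w : List β) : (ι → F) × Matrix n n F := (fun i => s.ξ i w, s.u w)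

/-- Extension by one letter. -/
noncomputable def ext (x : (ι → F) × Matrix n n F) : Sol F n ι (Option β) :=
  mk' (fun i => (s.ξ i).ext1 (x.1 i)) (fun i => by simp [s.hξ]) (s.u.ext1 x.2) (by simp [s.hu])

theorem ξ_mem (i) : NC.map (algebraMap F (Matrix n n F)) (s.ξ i) ∈ (FC.len _ β).F 1 :=
  FC.mem_len_one.mpr (by simp [s.hξ])

theorem χ_nil : s.χ b [] = b [] := by
  rw [s.hχ.eq]; simp [NC.sum_apply, s.hξ]

theorem χ_one (j) : s.χ b [j] = lin1 b fun i => s.ξ i [j] := by
  rw [s.hχ.eq]; simp [NC.sum_apply, s.hξ, NC.mul_single, χ_nil, lin1_apply, Algebra.smul_def]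

theorem χ_two (j l) : s.χ b [j, l] = lin1 b (fun i => s.ξ i [j, l]) +
    lin2 b (fun i => s.ξ i [j]) fun i => s.ξ i [l] := by
  rw [s.hχ.eq]
  simp [NC.sum_apply, s.hξ, NC.mul_pair, χ_nil, χ_one, lin1_apply, lin2_apply, Algebra.smul_def,
    sum_add_distrib, mul_sum, mul_assoc]

theorem Er_nil : s.Er b [] = 0 := by simp [Er, s.χ_nil, s.hu]

theorem Er_one (j) : s.Er b [j] = Phi b (s.v [j]) := by
  simp [Er, NC.mul_single, s.χ_nil, s.χ_one, s.hu, Phi_apply, v, add_sub_assoc]

theorem Er_two (j l) : s.Er b [j, l] = Phi b (s.v [j, l]) + sec b (s.v [j]) (s.v [l]) := by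
  simp only [Er, NC.sub_apply, NC.mul_pair, s.χ_nil, s.χ_one, s.χ_two, s.hu, Phi_apply, v,
    sec_apply, NC.C_nil, NC.C_cons, mul_zero, add_zero, mul_one]
  abel

@[simp] theorem ext_none (x) : (s.ext x).v [none] = x := by simp [ext, mk', v]
@[simp] theorem ext_some (x j) : (s.ext x).v [some j] = s.v [j] := by simp [ext, mk', v]
@[simp] theorem ext_sn (x j) : (s.ext x).v [some j, none] = 0 := by simp [ext, mk', v]; rfl
@[simp] theorem ext_ns (x j) : (s.ext x).v [none, j] = 0 := by simp [ext, mk', v]; rfl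

end Sol
end Sol

end Vale.Agent.P199
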