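import Mathlib

set_option linter.unusedSectionVars false

namespace Vale.Agent.P199
open Finset Module Submodule

/-- All minors of size `r + 1` vanish. -/
def RkLE {R I J : Type*} [CommRing R] (v : I → J → R) (r : ℕ) : Prop :=
  ∀ (f : Fin (r + 1) → I) (g : Fin (r + 1) → J), (Matrix.of fun a b => v (f a) (g b)).det = 0

section
variable {R R' I J : Type*} [CommRing R] [CommRing R'] {v : I → J → R} {r : ℕ}

theorem RkLE.map (h : RkLE v r) (χ : R →+* R') : RkLE (fun i j => χ (v i j)) r := by
  intro f g
  have := congrArg χ (h f g)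
  rwa [RingHom.map_det, map_zero] at this

theorem RkLE.of_map (χ : R →+* R') (hχ : Function.Injective χ)
    (h : RkLE (fun i j => χ (v i j)) r) : RkLE v r := by
  intro f g
  apply hχ
  rw [RingHom.map_det, map_zero]
  exact h f g

theorem RkLE.det_span [Fintype I] (h : RkLE v r) (w : Fin (r + 1) → J → R)
    (hw : ∀ a, w a ∈ span R (Set.range v)) (g : Fin (r + 1) → J) :
    (Matrix.of fun a b => w a (g b)).det = 0 := by
  classical
  choose c hc using fun a => (mem_span_range_iff_exists_fun R).mp (hw a)
  have : (Matrix.of fun a b => w a (g b)) = fun a => ∑ i, c a i • fun b => v i (g b) := by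
    ext a b
    simp [← hc a]
  rw [this]
  change (Matrix.detRowAlternating (n := Fin (r + 1)) (R := R)).toMultilinearMap _ = 0
  rw [MultilinearMap.map_sum]
  refine sum_eq_zero fun f _ => ?_
  rw [MultilinearMap.map_smul_univ]
  have := h f g
  change Matrix.detRowAlternating (n := Fin (r + 1)) (R := R) _ = 0 at this
  change _ • Matrix.detRowAlternating (n := Fin (r + 1)) (R := R) _ = 0
  erw [this]; simp

end

section
variable {k I J : Type*} [Field k]

theorem RkLE.of_finrank {v : I → J → k} {r : ℕ} [Fintype J]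
    (h : finrank k (span k (Set.range v)) ≤ r) : RkLE v r := by
  classical
  intro f g
  by_contra hne
  have h1 : LinearIndependent k (Matrix.of fun a b => v (f a) (g b)).row :=
    Matrix.linearIndependent_rows_of_det_ne_zero hne
  have h2 : LinearIndependent k fun a => v (f a) :=
    LinearIndependent.of_comp (LinearMap.funLeft k k g) h1
  have h3 : LinearIndependent k fun a => (⟨v (f a), subset_span ⟨_, rfl⟩⟩ :
      span k (Set.range v)) := LinearIndependent.of_comp (span k (Set.range v)).subtype h2
  have := h3.fintype_card_le_finrank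
  simp at this; omega

theorem exists_minor [Fintype J] {m : ℕ} (w : Fin m → J → k) (hw : LinearIndependent k w) :
    ∃ g : Fin m → J, (Matrix.of fun a b => w a (g b)).det ≠ 0 := by
  classical
  have h1 : (Matrix.of w).rank = m := by
    have := LinearIndependent.rank_matrix (M := Matrix.of w) hw
    simpa using this
  rw [Matrix.rank_eq_finrank_span_cols] at h1
  obtain ⟨κ, a, ha, hsp, hli⟩ := exists_linearIndependent' k (Matrix.of w).col
  have : Finite κ := Finite.of_injective a ha
  have := Fintype.ofFinite κ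
  have h2 := finrank_span_eq_card hli
  rw [hsp, h1] at h2
  let e : Fin m ≃ κ := (Fintype.equivFinOfCardEq h2.symm).symm
  refine ⟨fun b => a (e b), ?_⟩
  have h3 : LinearIndependent k (Matrix.of fun x b => w x (a (e b))).col :=
    hli.comp e e.injective
  exact (Matrix.linearIndependent_cols_iff_isUnit.mp h3 |> (Matrix.isUnit_iff_isUnit_det _).mp).ne_zero

theorem RkLE.fo [Fintype I] [Fintype J] {v : I → J → PowerSeries k} {r : ℕ} (h : RkLE v r)
    (T : Submodule k (J → k))
    (hT : ∀ t ∈ T, ∃ w : J → PowerSeries k, (∀ j, PowerSeries.constantCoeff (w j) = t j) ∧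
      (PowerSeries.X : PowerSeries k) • w ∈ span (PowerSeries k) (Set.range v)) :
    finrank k T ≤ r := by
  classical
  by_contra hlt
  obtain ⟨t, ht⟩ := exists_linearIndependent_of_le_finrank (R := k) (M := T) (n := r + 1)
    (by omega)
  choose w hw hw' using fun a => hT (t a) (t a).2
  obtain ⟨g, hg⟩ := exists_minor (fun a => (t a : J → k)) (ht.map' T.subtype T.ker_subtype)
  have h1 := h.det_span _ hw' g
  have h2 : (Matrix.of fun a b => ((PowerSeries.X : PowerSeries k) • w a) (g b)) =
      (PowerSeries.X : PowerSeries k) • Matrix.of fun a b => w a (g b) := by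
    ext a b; simp
  rw [h2, Matrix.det_smul, mul_eq_zero] at h1
  rcases h1 with h1 | h1
  · exact PowerSeries.X_ne_zero (pow_eq_zero_iff' .. |>.mp h1).1
  · apply hg
    have := congrArg PowerSeries.constantCoeff h1
    rw [RingHom.map_det, map_zero] at this
    rw [← this]
    congr 1
    ext a b
    simp [hw]

end

/-- Matrices as vectors. -/
def unc (R m : Type*) [CommRing R] : Matrix m m R ≃ₗ[R] (m × m → R) where
  toFun M p := M p.1 p.2
  invFun v a b := v (a, b)
  map_add' _ _ := rfl
  map_smul' _ _ := rfl
  left_inv _ := rfl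
  right_inv _ := rfl

/-- Rank bound for a family of matrices. -/
def RkM {R I m : Type*} [CommRing R] (v : I → Matrix m m R) (r : ℕ) : Prop :=
  RkLE (fun i (p : m × m) => v i p.1 p.2) r

theorem RkM.map {R R' I m : Type*} [CommRing R] [CommRing R'] {v : I → Matrix m m R} {r : ℕ}
    (h : RkM v r) (χ : R →+* R') : RkM (fun i => (v i).map χ) r := RkLE.map h χ

theorem RkM.of_map {R R' I m : Type*} [CommRing R] [CommRing R'] {v : I → Matrix m m R} {r : ℕ}
    (χ : R →+* R') (hχ : Function.Injective χ) (h : RkM (fun i => (v i).map χ) r) : RkM v r :=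
  RkLE.of_map χ hχ h

theorem RkM.of_finrank {k I m : Type*} [Field k] [Fintype m] {v : I → Matrix m m k} {r : ℕ}
    (T : Submodule k (Matrix m m k)) (hv : ∀ i, v i ∈ T) (h : finrank k T ≤ r) : RkM v r := by
  refine RkLE.of_finrank (le_trans ?_ h)
  rw [← (unc k m).finrank_map_eq T]
  refine Submodule.finrank_mono (span_le.mpr ?_)
  rintro _ ⟨i, rfl⟩
  exact ⟨v i, hv i, rfl⟩

theorem RkM.fo {k I m : Type*} [Field k] [Fintype I] [Fintype m]
    {v : I → Matrix m m (PowerSeries k)} {r : ℕ} (h : RkM v r)
    (T : Submodule k (Matrix m m k))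
    (hT : ∀ t ∈ T, ∃ w : Matrix m m (PowerSeries k), w.map PowerSeries.constantCoeff = t ∧
      (PowerSeries.X : PowerSeries k) • w ∈ span (PowerSeries k) (Set.range v)) :
    finrank k T ≤ r := by
  rw [← (unc k m).finrank_map_eq T]
  refine RkLE.fo h _ ?_
  rintro _ ⟨t, ht, rfl⟩
  obtain ⟨w, rfl, hw⟩ := hT t ht
  refine ⟨unc _ m w, fun _ => rfl, ?_⟩
  have := Submodule.mem_map_of_mem (f := (unc (PowerSeries k) m).toLinearMap) hw
  rw [Submodule.map_span, ← Set.range_comp] at this
  exact this

section MR
variable {k O W : Type*} [Field k] [CharZero k] [AddCommGroup O] [Module k O]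
  [AddCommGroup W] [Module k W]

theorem li_perturb {m : ℕ} (a b : Fin m → W) (ha : LinearIndependent k a) :
    ∃ t : ℕ, t ≠ 0 ∧ LinearIndependent k fun i => a i + (t : k) • b i := by
  classical
  obtain ⟨p, hp⟩ := (Fintype.linearCombination k a).exists_leftInverse_of_injective
    (LinearMap.ker_eq_bot.mpr (linearIndependent_iff_injective_fintypeLinearCombination.1 ha))
  have hpa : ∀ i, p (a i) = Pi.single i 1 := fun i => by
    have := LinearMap.congr_fun hp (Pi.single i 1)
    simpa using this
  let M : Matrix (Fin m) (Fin m) (Polynomial k) :=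
    Matrix.of fun i j => Polynomial.C (p (a i) j) + Polynomial.X * Polynomial.C (p (b i) j)
  have hev : ∀ t : k, (M.det).eval t = (Matrix.of fun i j => p (a i + t • b i) j).det := by
    intro t
    rw [← Polynomial.coe_evalRingHom, RingHom.map_det]
    congr 1
    ext i j
    simp only [M, Matrix.of_apply, RingHom.mapMatrix_apply, Matrix.map_apply, map_add,
      Polynomial.eval_add, Polynomial.eval_mul,
      Polynomial.coe_evalRingHom, Polynomial.eval_C, Polynomial.eval_X, map_smul, Pi.add_apply,
      Pi.smul_apply, smul_eq_mul]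
  have h0 : M.det ≠ 0 := by
    intro h
    have := hev 0
    rw [h] at this
    have h1 : (Matrix.of fun i j => p (a i + (0 : k) • b i) j) = 1 := by
      ext i j; simp [hpa, Matrix.one_apply, Pi.single_apply, eq_comm]
    rw [h1] at this
    simp at this
  have hfin : Set.Finite {t : ℕ | t = 0 ∨ (M.det).IsRoot (t : k)} :=
    (Set.finite_singleton 0).union
      ((Polynomial.finite_setOfPred_isRoot h0).preimage (Nat.cast_injective.injOn))
  obtain ⟨t, ht⟩ := hfin.exists_notMem
  simp only [Set.mem_ofPred_eq, not_or] at ht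
  refine ⟨t, ht.1, LinearIndependent.of_comp p ?_⟩
  have h2 : (Matrix.of fun i j => p (a i + (t : k) • b i) j).det ≠ 0 := by
    rw [← hev]; exact ht.2
  exact Matrix.linearIndependent_rows_of_det_ne_zero h2

theorem pert [FiniteDimensional k O] (L₀ L₁ : O →ₗ[k] W)
    (h : ∀ t : ℕ, finrank k (LinearMap.range (L₀ + (t : k) • L₁)) ≤ finrank k (LinearMap.range L₀))
    {o : O} (ho : L₀ o = 0) : L₁ o ∈ LinearMap.range L₀ := by
  classical
  by_contra hno
  let bs := Module.finBasis k (LinearMap.range L₀)
  choose oo hoo using fun i => (bs i).2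
  have hli : LinearIndependent k fun i => (bs i : W) :=
    bs.linearIndependent.map' _ (Submodule.ker_subtype _)
  have hli2 : LinearIndependent k (Fin.cons (L₁ o) fun i => (bs i : W) :
      Fin (finrank k (LinearMap.range L₀) + 1) → W) := by
    refine linearIndependent_finCons.mpr ⟨hli, fun hm => hno ?_⟩
    refine (span_le.mpr ?_ : _ ≤ LinearMap.range L₀) hm
    rintro _ ⟨i, rfl⟩
    exact (bs i).2
  obtain ⟨t, ht, hli3⟩ := li_perturb _ (Fin.cons 0 fun i => L₁ (oo i)) hli2
  have hmem : ∀ i, (Fin.cons (L₁ o) (fun i => (bs i : W)) :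
      Fin (finrank k (LinearMap.range L₀) + 1) → W) i + (t : k) •
      (Fin.cons 0 (fun i => L₁ (oo i)) : Fin (finrank k (LinearMap.range L₀) + 1) → W) i ∈
      LinearMap.range (L₀ + (t : k) • L₁) := by
    intro i
    refine Fin.cases ?_ (fun i => ?_) i
    · refine ⟨(t : k)⁻¹ • o, ?_⟩
      have : (t : k) ≠ 0 := Nat.cast_ne_zero.mpr ht
      simp [ho, smul_smul, this]
    · exact ⟨oo i, by simp [hoo]⟩
  have h4 : LinearIndependent k fun i => (⟨_, hmem i⟩ : LinearMap.range (L₀ + (t : k) • L₁)) :=
    LinearIndependent.of_comp (Submodule.subtype _) hli3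
  have := h4.fintype_card_le_finrank
  have := h t
  simp at *; omega

/-- A point of maximal rank in a spanning additive submonoid. -/
theorem max_rank {V : Type*} [AddCommGroup V] [Module k V] [FiniteDimensional k O]
    [FiniteDimensional k W] (β : V →ₗ[k] O →ₗ[k] W) (G : AddSubmonoid V) (S : Submodule k W)
    (h : ∀ o : O, o ≠ 0 → finrank k S + finrank k O ≤
      finrank k ((span k (G : Set V)).map (β.flip o))) :
    ∃ v ∈ G, ∀ o, β v o ∈ S → o = 0 := by
  classical
  let β' : V →ₗ[k] O →ₗ[k] (W ⧸ S) := β.compr₂ S.mkQ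
  have hex : ∃ n, ∃ v ∈ G, finrank k O - finrank k (LinearMap.range (β' v)) = n :=
    ⟨_, 0, zero_mem _, rfl⟩
  obtain ⟨v, hv, hn⟩ := Nat.find_spec hex
  have hmax : ∀ v' ∈ G, finrank k (LinearMap.range (β' v')) ≤
      finrank k (LinearMap.range (β' v)) := by
    intro v' hv'
    have h1 := Nat.find_min' hex ⟨v', hv', rfl⟩
    have h2 := LinearMap.finrank_range_le (β' v')
    have h3 := LinearMap.finrank_range_le (β' v)
    omega
  refine ⟨v, hv, fun o ho => ?_⟩
  by_contra hne
  have ho' : β' v o = 0 := by simpa [β'] using ho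
  have h1 : ∀ v' ∈ G, β' v' o ∈ LinearMap.range (β' v) := by
    intro v' hv'
    refine pert (β' v) (β' v') (fun t => ?_) ho'
    have := hmax (v + t • v') (add_mem hv (nsmul_mem hv' t))
    rwa [map_add, map_nsmul, ← Nat.cast_smul_eq_nsmul k] at this
  have h2 : (span k (G : Set V)).map (β.flip o) ≤ (LinearMap.range (β' v)).comap S.mkQ := by
    rw [Submodule.map_span, span_le]
    rintro _ ⟨v', hv', rfl⟩
    exact h1 v' hv'
  have h3 : (LinearMap.range (β' v)).comap S.mkQ = S ⊔ LinearMap.range (β v) := by
    have : LinearMap.range (β' v) = (LinearMap.range (β v)).map S.mkQ := by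
      rw [← LinearMap.range_comp]; rfl
    rw [this, Submodule.comap_map_mkQ]
  have h4 := Submodule.finrank_mono h2
  have h5 : finrank k ((LinearMap.range (β' v)).comap S.mkQ) =
      finrank k S + finrank k (LinearMap.range (β' v)) := by
    have h6 := (S.mkQ.domRestrict ((LinearMap.range (β' v)).comap S.mkQ)).finrank_range_add_finrank_ker
    rw [LinearMap.range_domRestrict, LinearMap.ker_domRestrict, Submodule.ker_mkQ,
      Submodule.map_comap_eq_of_surjective S.mkQ_surjective,
      (Submodule.comapSubtypeEquivOfLe (by rw [h3]; exact le_sup_left)).finrank_eq] at h6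
    omega
  have h7 := (β' v).finrank_range_add_finrank_ker
  have h8 : 0 < finrank k (LinearMap.ker (β' v)) :=
    Module.finrank_pos_iff_exists_ne_zero.mpr ⟨⟨o, ho'⟩, fun h => hne (congrArg Subtype.val h)⟩
  have := h o hne
  omega

end MR

end Vale.Agent.P199
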