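import Vale.Agent.P199.State

set_option linter.unusedSectionVars false

namespace Vale.Agent.P199
open Finset Module Submodule Matrix Polynomial

theorem trace_nat {k n : Type*} [Field k] [Fintype n] [DecidableEq n] {P : Matrix n n k}
    (h : P * P = P) : ∃ m : ℕ, P.trace = m := by
  have h1 : IsIdempotentElem (Matrix.toLin' P) := by
    change Matrix.toLin' P ∘ₗ Matrix.toLin' P = _
    rw [← Matrix.toLin'_mul, h]
  exact ⟨_, by rw [← Matrix.trace_toLin'_eq, (LinearMap.IsIdempotentElem.isProj_range _ h1).trace]⟩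

theorem par_smul {k ι : Type*} [Field k] {u v : ι → k} (hu : u ≠ 0)
    (h : ∀ i i', v i * u i' = v i' * u i) : ∃ r : k, ∀ i, v i = r * u i := by
  obtain ⟨i, hi⟩ := Function.ne_iff.mp hu
  refine ⟨v i / u i, fun i' => ?_⟩
  have : u i ≠ 0 := hi
  field_simp
  rw [← h]

namespace Form
variable {F n : Type} [Field F] [Fintype n] [DecidableEq n] [Nonempty n] (fm : Form F n)

theorem exists_irr {d} (hd : d ∈ fm.D) :
    ∃ f : fm.K[X], f.Monic ∧ Irreducible f ∧ aeval d f = 0 := by
  let DA : Subalgebra fm.K (Matrix n n F) :=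
    { fm.D with
      algebraMap_mem' := fun a => by
        rw [Algebra.algebraMap_eq_smul_one]
        exact fm.smul_mem a.2 (one_mem fm.D) }
  have : NoZeroDivisors DA := ⟨fun {a b} h => (fm.dom _ a.2 _ b.2 (congrArg Subtype.val h)).imp
    Subtype.ext Subtype.ext⟩
  have : IsDomain DA := NoZeroDivisors.to_isDomain _
  have hfg : DA.toSubmodule.FG := by
    have : DA.toSubmodule = span fm.K (Set.range fm.e) := by
      refine le_antisymm (fun m hm => ?_) (span_le.mpr ?_)
      · rw [← fm.e.sum_repr m]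
        exact sum_mem fun β _ => Submodule.smul_mem _ (⟨_, (fm.mem_D m).mp hm β⟩ : fm.K)
          (subset_span ⟨β, rfl⟩)
      · rintro _ ⟨β, rfl⟩
        exact fm.e_mem β
    rw [this]
    exact fg_span (Set.finite_range _)
  have : Module.Finite fm.K DA := Module.Finite.iff_fg.mpr hfg
  have hi : IsIntegral fm.K (⟨d, hd⟩ : DA) := Algebra.IsIntegral.isIntegral _
  refine ⟨minpoly fm.K (⟨d, hd⟩ : DA), minpoly.monic hi, minpoly.irreducible hi, ?_⟩
  have := aeval_algHom_apply DA.val ⟨d, hd⟩ (minpoly fm.K (⟨d, hd⟩ : DA))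
  rw [minpoly.aeval, map_zero] at this
  exact this

variable [IsAlgClosed F] [CharZero F]

/-- Spectral decomposition with a transitive symmetry. -/
theorem exists_spec {b} (hb : b ∈ fm.D) :
    ∃ (Λ : Type) (_ : Fintype Λ) (_ : DecidableEq Λ) (lam : Λ → F) (P : Λ → Matrix n n F)
      (L : Type) (_ : Field L) (j : L →+* F) (τ : Λ → fm.D → L),
      Function.Injective lam ∧ OI P ∧ (∀ a, b * P a = lam a • P a) ∧
      (∀ a, P a * b = lam a • P a) ∧ (∀ a d, j (τ a d) = (P a * d).trace) ∧
      ∀ a a', ∃ (σ : L ≃+* L) (s : Λ ≃ Λ), s a = a' ∧ ∀ c d, τ (s c) d = σ (τ c d) := by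
  classical
  obtain ⟨f, hm, hirr, hf⟩ := fm.exists_irr hb
  let L := algebraicClosure fm.K F
  have : IsAlgClosed L := IsAlgClosure.isAlgClosed fm.K
  let fL := f.map (algebraMap fm.K L)
  let s := fL.roots.toFinset
  have hs : Lagrange.nodal s id = fL := by
    conv_rhs => rw [(IsAlgClosed.splits fL).eq_prod_roots_of_monic (hm.map _)]
    rw [Lagrange.nodal, Finset.prod, Multiset.toFinset_val,
      Multiset.dedup_eq_self.mpr (nodup_roots hirr.separable.map)]
    rfl
  have hmem : ∀ a, a ∈ s ↔ aeval a f = 0 := fun a => by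
    simp [s, fL, (hm.map _).ne_zero, eval_map_algebraMap]
  let p : L → L[X] := fun a => C (eval a (derivative fL))⁻¹ * (fL / (X - C a))
  have hp : ∀ a ∈ s, Lagrange.basis s id a = p a := fun a ha => by
    rw [Lagrange.basis_eq_prod_sub_inv_mul_nodal_div ha,
      Lagrange.nodalWeight_eq_eval_derivative_nodal ha, hs]; rfl
  have hfσ : ∀ σ : L ≃ₐ[fm.K] L, fL.map (σ : L →+* L) = fL := fun σ => by
    simp only [fL, Polynomial.map_map]
    congr 1
    ext x; simp
  have hpσ : ∀ (σ : L ≃ₐ[fm.K] L) a, (p a).map (σ : L →+* L) = p (σ a) := fun σ a => by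
    have : eval (σ a) (derivative fL) = σ (eval a (derivative fL)) := by
      conv_lhs => rw [← hfσ σ, derivative_map]
      exact eval_map_apply (σ : L →+* L) a
    simp [p, Polynomial.map_div, hfσ, this]
  have hτ : ∀ (q : L[X]) (d : fm.D), ∃ t : L, (t : F) = (aeval b q * d).trace ∧
      ∀ σ : L ≃ₐ[fm.K] L, (σ t : F) = (aeval b (q.map (σ : L →+* L)) * d).trace := by
    intro q d
    induction q using Polynomial.induction_on' with
    | add q q' hq hq' =>
      obtain ⟨t, ht, ht'⟩ := hq
      obtain ⟨u, hu, hu'⟩ := hq'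
      exact ⟨t + u, by simp [ht, hu, add_mul], fun σ => by simp [ht', hu', add_mul]⟩
    | monomial m c =>
      let u : fm.K := ⟨(b ^ m * d).trace, fm.trace_mem (mul_mem (pow_mem hb m) d.2)⟩
      have : ∀ c : L, ((c * algebraMap fm.K L u : L) : F) =
          (aeval b (monomial m c) * d).trace := fun c => by
        rw [aeval_monomial, ← Algebra.smul_def, smul_mul_assoc, trace_smul]; rfl
      exact ⟨c * algebraMap _ _ u, this c, fun σ => by
        rw [map_mul, AlgEquiv.commutes, this, Polynomial.map_monomial]; rfl⟩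
  choose τ hτ hτ' using hτ
  have he : ∀ a : s, (b - algebraMap L _ a) * aeval b (p a) = 0 := fun a => by
    have h1 : (X - C (a : L)) * p a = C (eval (a : L) (derivative fL))⁻¹ * fL := by
      rw [mul_left_comm, EuclideanDomain.mul_div_cancel' (X_sub_C_ne_zero _)
        (hs ▸ Lagrange.X_sub_C_dvd_nodal id a.2)]
    have := congrArg (aeval b) h1
    simpa [fL, hf] using this
  have eigL : ∀ a : s, b * aeval b (p a) = ((a : L) : F) • aeval b (p a) := fun a => by
    have := he a
    rwa [sub_mul, sub_eq_zero, ← Algebra.smul_def] at this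
  have hc : ∀ q : L[X], aeval b q * b = b * aeval b q := fun q => by
    simpa using congrArg (aeval b) (mul_comm q X)
  have inj : Function.Injective fun a : s => ((a : L) : F) :=
    Subtype.val_injective.comp Subtype.val_injective
  have orth : ∀ a a' : s, a ≠ a' → aeval b (p a) * aeval b (p a') = 0 := fun a a' h => by
    have : (((a : L) : F) - (a' : L)) • (aeval b (p a) * aeval b (p a')) = 0 := by
      rw [sub_smul, ← smul_mul_assoc, ← mul_smul_comm, ← eigL, ← eigL, ← hc, mul_assoc, sub_self]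
    exact (smul_eq_zero.mp this).resolve_left (sub_ne_zero.mpr (inj.ne h))
  have hne : s.Nonempty := by
    obtain ⟨a, ha⟩ := IsAlgClosed.exists_aeval_eq_zero L f (degree_pos_of_irreducible hirr).ne'
    exact ⟨a, (hmem a).mpr ha⟩
  have hsum : ∑ a : s, aeval b (p a) = 1 := by
    rw [← map_sum, sum_coe_sort s p, ← sum_congr rfl hp, Lagrange.sum_basis (Set.injOn_id _) hne,
      map_one]
  refine ⟨s, inferInstance, inferInstance, fun a => ((a : L) : F), fun a => aeval b (p a), L,
    inferInstance, algebraMap L F, fun a d => τ (p a) d, inj, ⟨orth, fun a => ?_, hsum⟩, eigL,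
    fun a => by rw [hc, eigL], fun a d => hτ _ _, fun a a' => ?_⟩
  · conv_rhs => rw [← mul_one (aeval b (p a)), ← hsum, mul_sum]
    exact (sum_eq_single a (fun q _ hq => orth a q hq.symm) (by simp)).symm
  · obtain ⟨σ, hσ⟩ := IsConjRoot.exists_algEquiv (K := fm.K) (x := (a' : L)) (y := (a : L)) (by
      rw [IsConjRoot, ← minpoly.eq_of_irreducible_of_monic hirr ((hmem _).mp a.2) hm,
        ← minpoly.eq_of_irreducible_of_monic hirr ((hmem _).mp a'.2) hm])
    refine ⟨σ, σ.toEquiv.subtypeEquiv fun c => ?_, Subtype.ext hσ, fun c d => ?_⟩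
    · rw [hmem, hmem]
      change _ ↔ aeval (σ c) f = 0
      rw [aeval_algHom_apply, map_eq_zero_iff _ σ.injective]
    · apply Subtype.val_injective
      change ((τ (p (σ c)) d : L) : F) = σ (τ (p c) d)
      rw [hτ, hτ', hpσ]

variable {ι : Type} [Fintype ι] [DecidableEq ι]

theorem exists_res {b : NC (Matrix n n F) ι} (hb : b ∈ NC.sub fm.D ι) (h1 : G1 b) (h2 : ThNe b) :
    Nonempty (Res b) := by
  classical
  obtain ⟨Λ, _, _, lam, P, L, _, j, τ, inj, oi, eigL, eigR, hτ, hσ⟩ := fm.exists_spec (hb [])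
  have : Nonempty Λ := by
    by_contra h
    rw [not_nonempty_iff] at h
    simpa using oi.sum
  obtain ⟨a₀⟩ := this
  obtain ⟨μ, hμ₀⟩ := trace_nat (oi.idem a₀)
  have hμ : ∀ a, (P a).trace = μ := fun a => by
    obtain ⟨σ, s, rfl, hs⟩ := hσ a₀ a
    have h3 : τ a₀ 1 = μ := j.injective (by simp [hτ, hμ₀])
    have := hτ (s a₀) 1
    rw [hs, h3] at this
    simpa using this.symm
  have μ_pos : 0 < μ := Nat.pos_of_ne_zero fun h => by
    have := oi.card_mul hμ
    rw [h, mul_zero] at this
    exact Fintype.card_ne_zero this.symm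
  have hμ' : (μ : F) ≠ 0 := Nat.cast_ne_zero.mpr μ_pos.ne'
  let t : Λ → ι → L := fun a i => τ a ⟨b [i], hb _⟩
  let θ : Λ → ι → F := fun a i => j (t a i) / μ
  have hD := fun c => oi.mem_Diag_iff inj eigL eigR (c := c)
  have g1 : ∀ a i, P a * b [i] * P a = θ a i • P a := fun a i => by
    have := eq_smul_of_comm (z := P a * b [i] * P a) (P := P a) (by rwa [hμ]) fun m => by
      obtain ⟨g, hg⟩ := h1 i _ ((hD _).mp (oi.sandwich_mem m a))
      have h3 : P a * (b [] * g - g * b []) * P a = 0 := by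
        rw [mul_sub, sub_mul, ← mul_assoc, eigR, mul_assoc _ (g * _), mul_assoc g, eigL]
        simp [mul_assoc]
      rw [← hg, mul_sub, sub_mul, sub_eq_zero] at h3
      calc _ = P a * b [i] * P a * m * (P a * P a) := by rw [oi.idem]
        _ = P a * (b [i] * (P a * m * P a)) * P a := by simp only [mul_assoc]
        _ = (P a * P a) * m * (P a * b [i] * P a) := by rw [h3]; simp only [mul_assoc]
        _ = _ := by rw [oi.idem]
    rw [this, trace_mul_cycle, oi.idem, hμ]
    simp [θ, t, hτ]
  have θ_ne : ∀ a, θ a ≠ 0 := fun a ha => by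
    have h3 : ∀ a' i, (P a' * b [i]).trace = 0 := fun a' i => by
      obtain ⟨σ, s, rfl, hs⟩ := hσ a a'
      have h4 : t a i = 0 := by simpa [θ, hμ'] using congrFun ha i
      have := hτ (s a) ⟨b [i], hb _⟩
      rw [hs, show τ a _ = 0 from h4] at this
      simpa using this.symm
    obtain ⟨c, hc, i, hi⟩ := h2
    apply hi
    have h4 : ∀ a', ∃ r : F, c * P a' = r • P a' := fun a' => by
      clear hi
      induction hc using Algebra.adjoin_induction with
      | mem x hx => exact ⟨_, by rw [Set.mem_singleton_iff.mp hx, eigL]⟩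
      | algebraMap r => exact ⟨r, (Algebra.smul_def _ _).symm⟩
      | add x y _ _ hx hy =>
        obtain ⟨r, hr⟩ := hx
        obtain ⟨r', hr'⟩ := hy
        exact ⟨r + r', by rw [add_mul, hr, hr', add_smul]⟩
      | mul x y _ _ hx hy =>
        obtain ⟨r, hr⟩ := hx
        obtain ⟨r', hr'⟩ := hy
        exact ⟨r' * r, by rw [mul_assoc, hr', mul_smul_comm, hr, smul_smul]⟩
    rw [← oi.right c, sum_mul, trace_sum]
    refine sum_eq_zero fun a' _ => ?_
    obtain ⟨r, hr⟩ := h4 a'
    rw [hr, smul_mul_assoc, trace_smul, h3, smul_zero]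
  let S : Setoid Λ := ⟨fun a a' => ∀ i i', θ a i * θ a' i' = θ a i' * θ a' i,
    fun a i i' => mul_comm _ _, fun h i i' => by rw [mul_comm, ← h, mul_comm], fun {a a' a''} h h' => by
      obtain ⟨r, hr⟩ := par_smul (θ_ne a') h
      intro i i'
      rw [hr, hr, mul_assoc, mul_assoc, h']⟩
  have hS : ∀ a a', S a a' ↔ ∀ i i', t a i * t a' i' = t a i' * t a' i := fun a a' => by
    refine forall_congr' fun i => forall_congr' fun i' => ?_
    simp only [θ, div_mul_div_comm, ← map_mul]
    rw [div_left_inj' (mul_ne_zero hμ' hμ'), j.injective.eq_iff]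
  choose ρ hρ using fun a => par_smul (θ_ne (Quotient.mk S a).out) (S.symm (Quotient.mk_out a))
  refine ⟨⟨Λ, lam, inj, P, oi, eigL, eigR, μ, μ_pos, hμ, Quotient S, Quotient.mk S,
    fun q => θ q.out, ρ, fun a h => θ_ne a (funext fun i => by simp [hρ a i, h]),
    fun a i => by rw [g1, hρ], fun q => θ_ne _, fun q q' h => ?_,
    (univ.filter fun a => S a a₀).card, card_pos.mpr ⟨a₀, by simp⟩, fun q => ?_⟩⟩
  · rw [← q.out_eq, ← q'.out_eq]; exact Quotient.sound h
  · obtain ⟨σ, s, h3, hs⟩ := hσ a₀ q.out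
    refine (card_equiv s fun a => ?_).symm
    simp only [mem_filter, mem_univ, true_and]
    rw [← q.out_eq, Quotient.eq, ← h3, hS, hS]
    simp only [t, hs, ← map_mul, σ.injective.eq_iff]

end Form
end Vale.Agent.P199
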