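import Vale.Agent.P199.Child5

set_option linter.unusedSectionVars false

namespace Vale.Agent.P199
open Finset Module Submodule Matrix

theorem St.child (d : St) {e : ℕ} (he : e.Prime) (h3 : 3 ≤ e) : ∃ (d' : St) (a : Arr d d'),
    (e - 1) ^ 2 ≤ finrank d'.F (Wz d'.A) ∧ ∀ b ∈ d.DR, G1 (a.χ b) ∧ AS (a.χ b) ∧
      (ThNe b → ThNe (a.χ b)) ∧
      (¬ ThNe (a.χ b) → ∀ f : Polynomial d.fm.K, Polynomial.aeval (b []) f = 0 →
        ∀ w, w.length < e → Polynomial.aeval b (f.map (algebraMap _ d.F)) w = 0) ∧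
      (∃ (E : Type) (_ : Fintype E) (_ : DecidableEq E) (r : ℕ), Fintype.card E = e ∧ SCP b E r ∧
        r + finrank d'.F (Ob (a.χ b)) = Fintype.card (d.n × E) ^ 2) ∧
      ∀ (R : Res b) (R' : Res (a.χ b)), R'.μ ≤ R.μ ∧ (R'.μ = R.μ → R'.ν = e * R.ν ∧
        R'.κ ≤ R.κ ∧ (R'.κ = R.κ → R'.pi = e * R.pi ∧ (R.pi < e → R'.E2) ∧
          (R.E2 → 1 + R.pi + Fintype.card d.ι * (5 * R.ν + 2) < e → R'.HR))) := by
  have : NeZero e := ⟨he.ne_zero⟩
  obtain ⟨ζ, hζ, hζ'⟩ := d.fm.roots e he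
  obtain ⟨X, Y, h⟩ := exists_CS hζ'
  let L := AlgebraicClosure (FractionRing (RR d.F d.ι (ZMod e × ZMod e)))
  let i : RR d.F d.ι (ZMod e × ZMod e) →+* L :=
    (algebraMap (FractionRing (RR d.F d.ι (ZMod e × ZMod e))) L).comp (algebraMap _ _)
  have hi : Function.Injective i := 
    (algebraMap (FractionRing (RR d.F d.ι (ZMod e × ZMod e))) L).injective.comp
      (IsFractionRing.injective _ _)
  have : CharZero L := charZero_of_injective_ringHom (i.comp (algebraMap d.F _)).injective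
  obtain ⟨fm', hK, hD⟩ := child_form h d.fm hζ i hi
  have hA : ∀ g ∈ d.A, chiL (Wm X Y) i g ∈
      Algebra.adjoin L (Set.range fun j => chiL (Wm X Y) i (d.x j)) := fun g hg =>
    adjoin_map_mem _ _ (chiL_scal _ i) _ (by
      rintro _ ⟨j, rfl⟩; exact Algebra.subset_adjoin ⟨j, rfl⟩) hg
  have hW := child_W h i hi hA he d.S0 d.W2
  let d' : St :=
    { F := L, n := d.n × ZMod e, ι := d.ι × ZMod e × ZMod e, fm := fm'
      x := fun j => chiL (Wm X Y) i (d.x j)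
      hx := fun j => hD _ (d.hx j)
      S0 := child_S0 h i hi hA d.S0 d.W2
      W2 := le_trans (by
        have := Nat.pow_le_pow_left (show 2 ≤ e - 1 by omega) 2
        omega) hW }
  refine ⟨d', ⟨_, chiL (Wm X Y) i, chiL_scal _ i, hK, hD, fun _ => rfl⟩, hW, fun b hb =>
    ⟨g1_chi _ i hi b, as_chi _ i hi b, thne_chi _ i hi (Wm_zero X Y), fun hn f hf w hw => ?_,
      ⟨ZMod e, inferInstance, inferInstance, _, ZMod.card e, scp _ i hi h.span_Wm b,
        (add_comm _ _).trans (finrank_Ob _)⟩, fun R R' => ?_⟩⟩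
  · set g := Polynomial.aeval b (f.map (algebraMap _ d.F))
    have hg : g ∈ Algebra.adjoin d.F {b} := Polynomial.aeval_mem_adjoin_singleton _ _
    have hg0 : g [] = 0 := by rw [NC.aeval_nil, Polynomial.aeval_map_algebraMap, hf]
    have hgD : g ∈ d.DR := by
      simp only [g, Polynomial.aeval_eq_sum_range, Polynomial.coeff_map]
      exact sum_mem fun m _ w => d.fm.smul_mem (f.coeff m).2 (pow_mem hb m w)
    have h1 : ∀ m, (chiL (Wm X Y) i g [] ^ (m + 1)).trace = 0 := fun m => by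
      have := euler (Wm X Y) (g := g ^ (m + 1)) (fun q => hi (by
        rw [← trace_map, map_zero]
        exact trace_of_not_thne hn (adjoin_map_mem _ _ (chiL_scal _ i) _ (by
          rintro _ rfl; exact Algebra.subset_adjoin rfl) (pow_mem hg _)) q))
        (by rw [pow_succ, NC.mul_nil, hg0, mul_zero])
      rw [← NC.c0_apply, ← map_pow, ← map_pow, NC.c0_apply, chiL_apply, trace_map, this, map_zero]
    obtain ⟨p, hm, hp, hp'⟩ := fm'.exists_irr (hD g hgD [])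
    rcases root_rel hm hp ((Polynomial.aeval_map_algebraMap L _ p).trans hp') with h2 | ⟨m, c, -, h2⟩
    · refine path _ h.span_Wm (ZMod.val_injective e) (Matrix.map_injective hi
        (h2.trans (Matrix.map_zero _ (map_zero i)).symm)) w fun m hm => ⟨m, ?_⟩
      rw [ZMod.val_natCast, Nat.mod_eq_of_lt (by omega)]
    · have := congrArg trace h2
      simp only [trace_sum, ← Algebra.smul_def, trace_smul, h1, smul_zero, sum_const_zero,
        trace_one] at this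
      exact absurd this.symm (Nat.cast_ne_zero.mpr Fintype.card_ne_zero)
  · obtain ⟨k, _, _, j, p, ⟨S⟩⟩ := exists_setup i hi h i hi R
    have hc := ZMod.card e
    exact ⟨S.μ_le R', fun hμ => ⟨(Setup.ν_eq (R := R.map j) hμ).trans (congrArg (· * _) hc),
      S.κ_le hμ, fun hκ => ⟨(Setup.pi_eq (R := R.map j) hμ hκ).trans (congrArg (· * _) hc),
        fun h => S.E2 hμ hκ (h.trans_eq hc.symm),
        fun h h' => S.HR hμ hκ (h.map j) (h'.trans_eq hc.symm)⟩⟩⟩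

/-- A descendant with a resolution. -/
structure Desc (d : St) (b : d.R) where
  d' : St
  a : Arr d d'
  as : AS (a.χ b)
  th : ThNe (a.χ b)
  R : Res (a.χ b)

theorem exists_min' {α : Type*} (p : α → Prop) (f : α → ℕ) (h : ∃ a, p a) :
    ∃ a, p a ∧ ∀ a', p a' → f a ≤ f a' := by
  obtain ⟨a, ha, h⟩ := (InvImage.wf f wellFounded_lt).has_min {a | p a} h
  exact ⟨a, ha, fun a' ha' => not_lt.mp (h a' ha')⟩

theorem Desc.child {d : St} {b : d.R} (hb : b ∈ d.DR) (s : Desc d b) (N : ℕ) :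
    ∃ (e : ℕ) (s' : Desc d b), N < e ∧ (e - 1) ^ 2 ≤ finrank s'.d'.F (Wz s'.d'.A) ∧
      (∃ (E : Type) (_ : Fintype E) (_ : DecidableEq E) (r : ℕ), Fintype.card E = e ∧
        SCP (s.a.χ b) E r ∧
        r + finrank s'.d'.F (Ob (s'.a.χ b)) = Fintype.card (s.d'.n × E) ^ 2) ∧
      s'.R.μ ≤ s.R.μ ∧ (s'.R.μ = s.R.μ → s'.R.ν = e * s.R.ν ∧ s'.R.κ ≤ s.R.κ ∧
        (s'.R.κ = s.R.κ → s'.R.pi = e * s.R.pi ∧ (s.R.pi < e → s'.R.E2) ∧
          (s.R.E2 → 1 + s.R.pi + Fintype.card s.d'.ι * (5 * s.R.ν + 2) < e → s'.R.HR))) := by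
  obtain ⟨e, h1, he⟩ := Nat.exists_infinite_primes (N + 3)
  obtain ⟨d', a, h2, h3⟩ := s.d'.child he (by omega)
  obtain ⟨h4, h5, h6, -, h7, h8⟩ := h3 _ (s.a.χD b hb)
  obtain ⟨R⟩ := d'.fm.exists_res (a.χD _ (s.a.χD b hb)) h4 (h6 s.th)
  exact ⟨e, ⟨d', s.a.trans a, h5, h6 s.th, R⟩, by omega, h2, h7, h8 s.R R⟩

theorem step : StepStmt := by
  intro d b hb
  change Done d b
  obtain ⟨f, hm, hf, hf'⟩ := d.fm.exists_irr (hb [])
  by_cases h0 : Polynomial.aeval b (f.map (algebraMap _ d.F)) = 0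
  · exact ⟨d, Arr.refl d, root_rel hm hf h0⟩
  obtain ⟨w, hw, -⟩ := NC.exists_min _ h0
  have h1 : ∃ s : Desc d b, True := by
    obtain ⟨e, h1, he⟩ := Nat.exists_infinite_primes (w.length + 3)
    obtain ⟨d', a, -, h3⟩ := d.child he (by omega)
    obtain ⟨h4, h5, -, h6, -⟩ := h3 _ hb
    have h7 : ThNe (a.χ b) := by_contra fun h => hw (h6 h f hf' w (by omega))
    obtain ⟨R⟩ := d'.fm.exists_res (a.χD _ hb) h4 h7
    exact ⟨⟨d', a, h5, h7, R⟩, trivial⟩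
  obtain ⟨s₀, -, hμ⟩ := exists_min' _ (fun s : Desc d b => s.R.μ) h1
  obtain ⟨s₁, e₁, hκ⟩ := exists_min' (fun s : Desc d b => s.R.μ = s₀.R.μ) (fun s => s.R.κ) ⟨s₀, rfl⟩
  have key : ∀ s : Desc d b, s.R.μ = s₀.R.μ → s.R.κ = s₁.R.κ → ∀ N, ∃ (e : ℕ) (s' : Desc d b),
      N < e ∧ 4 * s'.R.ν + 2 ≤ finrank s'.d'.F (Wz s'.d'.A) ∧
      (∃ (E : Type) (_ : Fintype E) (_ : DecidableEq E) (r : ℕ), Fintype.card E = e ∧
        SCP (s.a.χ b) E r ∧
        r + finrank s'.d'.F (Ob (s'.a.χ b)) = Fintype.card (s.d'.n × E) ^ 2) ∧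
      s'.R.μ = s₀.R.μ ∧ s'.R.κ = s₁.R.κ ∧ s'.R.ν = e * s.R.ν ∧ s'.R.pi = e * s.R.pi ∧ s'.R.E2 ∧
      (s.R.E2 → s'.R.HR) := by
    intro s h1 h2 N
    obtain ⟨e, s', h3, h4, h5, h6, h7⟩ := s.child hb
      (N + (4 * s.R.ν + 4) + (1 + s.R.pi + Fintype.card s.d'.ι * (5 * s.R.ν + 2)))
    have h8 : s'.R.μ = s.R.μ := le_antisymm h6 (h1 ▸ hμ s' trivial)
    obtain ⟨h9, h10, h11⟩ := h7 h8
    have h12 : s'.R.κ = s.R.κ := le_antisymm h10 (h2 ▸ hκ s' (h8.trans h1))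
    obtain ⟨h13, h14, h15⟩ := h11 h12
    refine ⟨e, s', by omega, le_trans ?_ h4, h5, h8.trans h1, h12.trans h2, h9, h13,
      h14 (by omega), fun h => h15 h (by omega)⟩
    obtain ⟨m, rfl⟩ : ∃ m, e = m + 1 := ⟨e - 1, by omega⟩
    rw [h9, Nat.add_sub_cancel]
    have : 4 * s.R.ν + 4 ≤ m := by omega
    nlinarith
  obtain ⟨s, ⟨h1, h2, h3, h4, h5⟩, hδ⟩ := exists_min' (fun s : Desc d b => s.R.μ = s₀.R.μ ∧
      s.R.κ = s₁.R.κ ∧ s.R.E2 ∧ s.R.HR ∧ 4 * s.R.ν + 2 ≤ finrank s.d'.F (Wz s.d'.A))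
    (fun s => finrank s.d'.F (Ob (s.a.χ b)) + s.R.pi - s.R.ν * s.R.μ ^ 2) (by
      obtain ⟨-, s₂, -, -, -, h1, h2, -, -, h3, -⟩ := key s₁ e₁ rfl 0
      obtain ⟨-, s₃, -, h4, -, h5, h6, -, -, h7, h8⟩ := key s₂ h1 h2 0
      exact ⟨s₃, h5, h6, h7, h8 h3, h4⟩)
  have h6 := s.R.le_Ob_dim
  have h7 : s.R.pi ≤ s.R.ν * s.R.μ ^ 2 :=
    s.R.pi_le.trans (Nat.le_mul_of_pos_right _ (pow_pos s.R.μ_pos 2))
  obtain ⟨A, hA⟩ := Nat.exists_eq_add_of_le' h7
  refine Done.of_arr s.a (s.d'.solve (s.a.χD b hb) s.R s.as h4 (A := A)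
    (δ := finrank s.d'.F (Ob (s.a.χ b)) + s.R.pi - s.R.ν * s.R.μ ^ 2) (fun N => ?_) hA.symm
    (by omega) h5)
  obtain ⟨e, s', h8, h9, ⟨E, _, _, r, rfl, h10, h11⟩, h12, h13, h14, h15, h16, h17⟩ := key s h1 h2 N
  refine ⟨E, inferInstance, inferInstance, r, h8.le, h10, ?_⟩
  have h18 := hδ s' ⟨h12, h13, h16, h17 h3, h9⟩
  have h19 := s'.R.le_Ob_dim
  simp only [h14, h15, h12.trans h1.symm, mul_assoc, hA, mul_add] at h18 h19 ⊢
  omega

/-- The initial stage. -/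
noncomputable def base : St where
  F := ℂ
  n := Unit
  ι := Fin 2
  fm := ⟨⊤, _, Module.finBasis _ _, ⊤, fun _ => by simp, fun a _ b _ h => by
      have := congrFun₂ h () ()
      simp only [Matrix.mul_apply, univ_unique, sum_singleton, Matrix.zero_apply,
        mul_eq_zero] at this
      exact this.imp (fun h => by ext; exact h) fun h => by ext; exact h,
    fun p hp => ⟨_, trivial, Complex.isPrimitiveRoot_exp p hp.ne_zero⟩⟩
  x j := NC.aff 0 (Pi.single j 1)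
  hx _ _ := trivial
  S0 m := ⟨algebraMap ℂ _ (m () ()), Subalgebra.algebraMap_mem _ _, by
    ext; simp [NC.algebraMap_eq, algebraMap_matrix_apply]⟩
  W2 := by
    have : Wz (Algebra.adjoin ℂ (Set.range fun j : Fin 2 =>
        (NC.aff 0 (Pi.single j 1) : NC (Matrix Unit Unit ℂ) (Fin 2)))) = ⊤ := by
      rw [eq_top_iff, ← (Pi.basisFun ℂ (Fin 2)).span_eq, span_le]
      rintro _ ⟨j, rfl⟩
      refine ⟨_, Algebra.subset_adjoin ⟨j, rfl⟩, rfl, fun i => ?_⟩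
      by_cases h : i = j <;> simp [h]
    rw [this, finrank_top, finrank_fintype_fun_eq_card, Fintype.card_fin]

theorem kurosh : ∃ (D : Type) (_ : DivisionRing D), Algebra.IsAlgebraic (Subring.center D) D ∧
    ∃ x y : D, Algebra.adjoin (Subring.center D) {x, y} = ⊤ ∧
      ¬ Module.Finite (Subring.center D) D := limit step base

end Vale.Agent.P199
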