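import Vale.Agent.P199.Tests

set_option linter.unusedSectionVars false

namespace Vale.Agent.P199
open Finset Module Submodule Matrix

section Words
variable {β M : Type*} [Fintype β] [DecidableEq β] [AddCommMonoid M]

variable (β) in
/-- Words of a given length. -/
def words (m : ℕ) : Finset (List β) :=
  (univ : Finset (List.Vector β m)).map ⟨Subtype.val, Subtype.val_injective⟩

@[simp] theorem mem_words {m} {w : List β} : w ∈ words β m ↔ w.length = m := by
  refine Finset.mem_map.trans ?_
  exact ⟨fun ⟨v, _, hv⟩ => hv ▸ v.2, fun h => ⟨⟨w, h⟩, mem_univ (α := List.Vector β m) _, rfl⟩⟩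

theorem sum_words_cons (k) (f : List β → M) :
    ∑ w ∈ words β (k + 1), f w = ∑ j, ∑ W ∈ words β k, f (j :: W) := by
  rw [← sum_product']
  refine (sum_nbij (fun p : β × List β => p.1 :: p.2) (by simp) (fun p _ q _ h => ?_)
    (fun w hw => ?_) fun _ _ => rfl).symm
  · simpa [Prod.ext_iff] using h
  · rcases w with _ | ⟨a, w⟩
    · simp at hw
    · exact ⟨(a, w), by simpa using hw, rfl⟩

theorem sum_words_snoc (k) (f : List β → M) :
    ∑ w ∈ words β (k + 1), f w = ∑ j, ∑ W ∈ words β k, f (W ++ [j]) := by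
  rw [← sum_product']
  refine (sum_nbij (fun p : β × List β => p.2 ++ [p.1]) (by simp) (fun p _ q _ h => ?_)
    (fun w hw => ?_) fun _ _ => rfl).symm
  · simpa [Prod.ext_iff, and_comm] using h
  · rcases w.eq_nil_or_concat with rfl | ⟨w, a, rfl⟩
    · simp at hw
    · exact ⟨(a, w), by simpa using hw, by simp⟩

theorem sum_words_rotate (L r) (hL : 0 < L) (f : List β → M) :
    ∑ w ∈ words β L, f (w.rotate r) = ∑ w ∈ words β L, f w := by
  have := Nat.le_mul_of_pos_left r hL
  refine sum_nbij' (fun w => w.rotate r) (fun w => w.rotate (L * r - r)) (by simp) (by simp)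
    (fun w hw => ?_) (fun w hw => ?_) fun _ _ => rfl
  · rw [List.rotate_rotate, Nat.add_sub_cancel' this, ← mem_words.mp hw, List.rotate_length_mul]
  · rw [List.rotate_rotate, Nat.sub_add_cancel this, ← mem_words.mp hw, List.rotate_length_mul]

end Words

variable {F n ι : Type} [Field F] [Fintype n] [DecidableEq n] [Fintype ι] [DecidableEq ι]

namespace Sol
variable {β : Type}

/-- A substitution with prescribed coefficients. -/
noncomputable def ofFun (v : List β → (ι → F) × Matrix n n F) (h : v [] = (0, 1)) :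
    Sol F n ι β :=
  mk' (fun i => ⟨fun w => (v w).1 i⟩) (fun i => by simp [h]) ⟨fun w => (v w).2⟩ (by simp [h])

@[simp] theorem ofFun_v (v : List β → (ι → F) × Matrix n n F) (h w) : (ofFun v h).v w = v w := rfl

theorem v_nil (s : Sol F n ι β) : s.v [] = (0, 1) := Prod.ext (funext s.hξ) s.hu

variable (s s' : Sol F n ι β) {k : ℕ} (h : ∀ w, w.length < k → s'.v w = s.v w)
include h

theorem diff_rec (g) : s'.χ g - s.χ g =
    ∑ i, NC.map (algebraMap F _) (s'.ξ i - s.ξ i) * s'.χ (NC.der i g) +
    ∑ i, NC.map (algebraMap F _) (s.ξ i) * (s'.χ (NC.der i g) - s.χ (NC.der i g)) := by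
  rw [s'.hχ.eq g, s.hχ.eq g]
  simp only [map_sub, sub_mul, mul_sub, sum_sub_distrib]
  abel

theorem diff_ξ (i) (w) (hw : w.length < k) :
    NC.map (algebraMap F (Matrix n n F)) (s'.ξ i - s.ξ i) w = 0 := by
  have : s'.ξ i w = s.ξ i w := congrFun (congrArg Prod.fst (h w hw)) i
  simp [this]

theorem diff0 (g) (w) (hw : w.length < k) : (s'.χ g - s.χ g) w = 0 :=
  FC.mem_len.mp ((FC.len _ β).duN_mem s.ξ_mem (Δ := fun g => s'.χ g - s.χ g)
    (fun g => sum_mem fun i _ => FC.mul_right _ _ (FC.mem_len.mpr (s.diff_ξ s' h i)))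
    (s.diff_rec s' h) g) w hw

theorem diff1 (g) (w) (hw : w.length = k) : (s'.χ g - s.χ g) w = lin1 g (s'.v w - s.v w).1 := by
  subst hw
  rw [s.diff_rec s' h, NC.add_apply, NC.sum_apply, NC.sum_apply]
  simp only [fun i => NC.mul_low_left _ (s'.χ (NC.der i g)) w (s.diff_ξ s' h i),
    fun i => NC.mul_low_right _ (NC.map (algebraMap F _) (s.ξ i)) w (s.diff0 s' h (NC.der i g))]
  simp [s.hξ, s'.χ_nil, lin1_apply, v, Algebra.smul_def]

theorem diff2 (hk : 2 ≤ k) (g) {w W W' a a'} (h1 : w = a :: W) (h2 : w = W' ++ [a'])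
    (hW : W.length = k) : (s'.χ g - s.χ g) w = lin1 g (s'.v w - s.v w).1 +
      lin2 g (s'.v W' - s.v W').1 (s.v [a']).1 + lin2 g (s.v [a]).1 (s'.v W - s.v W).1 := by
  have hW' : W'.length = k := by simpa [hW] using congrArg List.length (h2.symm.trans h1)
  rw [s.diff_rec s' h, NC.add_apply, NC.sum_apply, NC.sum_apply]
  congr 1
  · subst h2
    simp only [fun i => NC.mul_snoc _ (s'.χ (NC.der i g)) W' a' (hW' ▸ s.diff_ξ s' h i)]
    have : ∀ i, s'.ξ i [a'] = s.ξ i [a'] := congrFun (congrArg Prod.fst (h [a'] hk))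
    simp [s'.χ_nil, s'.χ_one, lin1_apply, lin2_apply, v, Algebra.smul_def, sum_add_distrib, this,
      mul_sum, mul_assoc, sub_mul]
  · subst h1
    simp only [fun i => NC.mul_cons_low _ (NC.map (algebraMap F _) (s.ξ i)) W a
      (hW ▸ s.diff0 s' h (NC.der i g)), s.diff1 s' h _ W hW]
    simp [s.hξ, lin1_apply, lin2_apply, v, Algebra.smul_def, mul_sum, mul_assoc]

variable (b : NC (Matrix n n F) ι)

omit h in
theorem Er_sub : s'.Er b = s.Er b + ((s'.χ b - s.χ b) * s'.u + s.χ b * (s'.u - s.u) -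
    (s'.u - s.u) * NC.C (b [])) := by
  simp only [Er, sub_mul, mul_sub]; abel

theorem diff_u (w) (hw : w.length < k) : (s'.u - s.u) w = 0 :=
  sub_eq_zero.mpr (congrArg Prod.snd (h w hw))

theorem Er0 (w) (hw : w.length < k) : s'.Er b w = s.Er b w := by
  rw [s.Er_sub s', NC.add_apply, NC.sub_apply, NC.add_apply, NC.mul_C_apply,
    NC.mul_low_left _ _ _ fun w' h' => s.diff0 s' h b w' (h'.trans hw),
    NC.mul_low_right _ _ _ fun w' h' => s.diff_u s' h w' (h'.trans hw), s.diff0 s' h b w hw,
    s.diff_u s' h w hw]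
  simp

theorem Er1 (w) (hw : w.length = k) : s'.Er b w = s.Er b w + Phi b (s'.v w - s.v w) := by
  rw [s.Er_sub s', NC.add_apply, NC.sub_apply, NC.add_apply, NC.mul_C_apply,
    NC.mul_low_left _ _ _ (hw ▸ s.diff0 s' h b), NC.mul_low_right _ _ _ (hw ▸ s.diff_u s' h),
    s.diff1 s' h b w hw, s'.hu, s.χ_nil, Phi_apply, mul_one, add_sub_assoc]
  rfl

theorem Er2 (hk : 2 ≤ k) {w W W' a a'} (h1 : w = a :: W) (h2 : w = W' ++ [a'])
    (hW : W.length = k) : s'.Er b w = s.Er b w + (Phi b (s'.v w - s.v w) +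
      sec b (s.v [a]) (s'.v W - s.v W) + sec b (s'.v W' - s.v W') (s.v [a'])) := by
  have hW' : W'.length = k := by simpa [hW] using congrArg List.length (h2.symm.trans h1)
  have e1 := NC.mul_snoc _ s'.u W' a' (hW' ▸ s.diff0 s' h b)
  have e2 := NC.mul_cons_low _ (s.χ b) W a (hW ▸ s.diff_u s' h)
  rw [← h2] at e1
  rw [← h1] at e2
  have : s'.u [a'] = s.u [a'] := congrArg Prod.snd (h [a'] hk)
  rw [s.Er_sub s', NC.add_apply, NC.sub_apply, NC.add_apply, NC.mul_C_apply, e1, e2,
    s.diff2 s' h hk b h1 h2 hW, s.diff1 s' h b W' hW', s'.hu, s.χ_nil, s.χ_one, Phi_apply,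
    sec_apply, sec_apply, this]
  simp only [v, Prod.snd_sub, NC.sub_apply, mul_one]
  abel

end Sol

theorem len_closed {R β : Type*} [Ring R] (T : Subring R) (b : NC R β)
    (h : ∀ m, ∃ t ∈ NC.sub T β, b - t ∈ (FC.len R β).F m) : b ∈ NC.sub T β := fun w => by
  obtain ⟨t, ht, h⟩ := h (w.length + 1)
  rw [sub_eq_zero.mp (FC.mem_len.mp h w (by simp))]
  exact ht w

theorem Sol.χ_mem {β : Type} (fm : Form F n) (s : Sol F n ι β) (hs : ∀ w, s.v w ∈ fm.Rat ι) {g}
    (hg : g ∈ NC.sub fm.D ι) : s.χ g ∈ NC.sub fm.D β :=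
  s.hχ.mem_closed (FC.len _ β) s.ξ_mem _ (len_closed _) (fun i w => by
    rw [NC.map_apply, Algebra.algebraMap_eq_smul_one]
    exact fm.smul_mem ((hs w).1 i) (one_mem _)) fm.D (fun _ h => NC.C_mem_sub h) hg

theorem Sol.Er_mem {β : Type} (fm : Form F n) (s : Sol F n ι β) (hs : ∀ w, s.v w ∈ fm.Rat ι) {g}
    (hg : g ∈ NC.sub fm.D ι) : s.Er g ∈ NC.sub fm.D β :=
  sub_mem (mul_mem (s.χ_mem fm hs hg) fun w => (hs w).2)
    (mul_mem (fun w => (hs w).2) (NC.C_mem_sub (hg _)))

theorem exists_trace_rep {I : Type*} [Fintype I] [DecidableEq I] (φ : Dual F (I → Matrix n n F)) :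
    ∃ c : I → Matrix n n F, ∀ y, φ y = ∑ w, (c w * y w).trace := by
  refine ⟨fun w => of fun i j => φ (Pi.single w (single j i 1)), fun y => ?_⟩
  conv_lhs => rw [← univ_sum_single y, map_sum]
  refine sum_congr rfl fun w _ => ?_
  conv_lhs => rw [matrix_eq_sum_single (y w), sum_comm]
  change φ (LinearMap.single F (fun _ => Matrix n n F) w _) = _
  simp only [Matrix.trace, Matrix.diag, Matrix.mul_apply, of_apply, map_sum, LinearMap.coe_single]
  refine sum_congr rfl fun i _ => sum_congr rfl fun j _ => ?_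
  rw [mul_comm, ← smul_eq_mul, ← map_smul, ← Pi.single_smul, smul_single, smul_eq_mul, mul_one]

theorem solve_step [CharZero F] (fm : Form F n) {b : NC (Matrix n n F) ι} (hb : b ∈ NC.sub fm.D ι)
    (R : Res b) (hAS : AS b) {A δ} (hB : Big b A δ) (hA : finrank F (O0 b) ≤ A)
    (hδ : finrank F (Ob b) ≤ A + δ) (s : Sol F n ι (Fin 2)) (hs : ∀ w, s.v w ∈ fm.Rat ι)
    (hv : ∀ j, s.v [j] ∈ Vt b)
    (hinj : ∀ c : Fin 2 → Matrix n n F, (∀ j, c j ∈ Ob b) → ∑ j, qr b (c j) ⟨_, hv j⟩ = 0 →
      ∀ j, c j ∈ O0 b) {k} (hk : 2 ≤ k) (hE : ∀ w, w.length < k + 1 → s.Er b w = 0) :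
    ∃ s' : Sol F n ι (Fin 2), (∀ w, s'.v w ∈ fm.Rat ι) ∧ (∀ w, w.length < k → s'.v w = s.v w) ∧
      ∀ w, w.length < k + 2 → s'.Er b w = 0 := by
  let Ψ : ((List (Fin 2) → Vt b) × (List (Fin 2) → (ι → F) × Matrix n n F)) →ₗ[F]
      (words (Fin 2) (k + 1) → Matrix n n F) :=
    { toFun := fun p w => Phi b (p.2 w) + sec b (s.v [w.1.headD 0]) (p.1 w.1.tail) +
        sec b (p.1 w.1.dropLast) (s.v [w.1.getLastD 0])
      map_add' := fun _ _ => by ext1; simp; abel
      map_smul' := fun _ _ => by ext1; simp }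
  have key : (fun w => -s.Er b w.1) ∈ LinearMap.range Ψ := by
    by_contra hne
    obtain ⟨φ, hφ, hφ'⟩ := Submodule.exists_dual_map_eq_bot_of_notMem hne inferInstance
    obtain ⟨c₀, hc₀⟩ := exists_trace_rep φ
    let c : List (Fin 2) → Matrix n n F := fun w =>
      if h : w ∈ words (Fin 2) (k + 1) then c₀ ⟨w, h⟩ else 0
    have hc : ∀ y : List (Fin 2) → Matrix n n F,
        φ (fun w => y w.1) = ∑ w ∈ words (Fin 2) (k + 1), (c w * y w).trace := fun y => by
      rw [hc₀, ← sum_coe_sort (words (Fin 2) (k + 1)) fun w => (c w * y w).trace]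
      exact sum_congr rfl fun w _ => by simp only [c, w.2, dif_pos]
    have h0 : ∀ p, φ (Ψ p) = 0 := fun p => by
      have : φ (Ψ p) ∈ (LinearMap.range Ψ).map φ := mem_map_of_mem ⟨p, rfl⟩
      rwa [hφ'] at this
    have h1 : ∀ w, c w ∈ Ob b := fun w => by
      by_cases hw : w ∈ words (Fin 2) (k + 1)
      · rintro _ ⟨x, rfl⟩
        have := (hc fun w' => Phi b ((Pi.single w x : _ → _) w')).symm.trans
          (by simpa [Ψ] using h0 (0, Pi.single w x))
        rw [sum_eq_single w (fun w' _ h => by simp [h]) fun h => absurd hw h] at this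
        simpa [trB_apply] using this
      · simp [c, hw, -mem_words]
    have h2 : ∀ W, W.length = k → ∀ j, c (j :: W) - c (W ++ [j]) ∈ O0 b := fun W hW => by
      refine hinj _ (fun j => sub_mem (h1 _) (h1 _)) (LinearMap.ext fun x => ?_)
      have := (hc fun w => sec b (s.v [w.headD 0]) ((Pi.single W x : _ → Vt b) w.tail) +
        sec b ((Pi.single W x : _ → Vt b) w.dropLast) (s.v [w.getLastD 0])).symm.trans
          (by simpa [Ψ] using h0 (Pi.single W x, 0))
      simp only [mul_add, trace_add, sum_add_distrib] at this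
      rw [sum_words_cons, sum_words_snoc] at this
      simp only [List.headD_cons, List.tail_cons, List.dropLast_concat, List.getLastD_concat,
        Pi.single_apply, apply_ite Subtype.val, apply_ite (sec b _), apply_ite (sec b),
        ZeroMemClass.coe_zero, map_zero, mul_ite, mul_zero, apply_ite trace, trace_zero,
        sum_ite_eq', mem_words, hW, if_true, apply_ite (DFunLike.coe (F := _ →ₗ[F] Matrix n n F)),
        ite_apply, LinearMap.zero_apply] at this
      rw [LinearMap.sum_apply, LinearMap.zero_apply, ← this, ← sum_add_distrib]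
      refine sum_congr rfl fun j _ => ?_
      have h3 := hAS _ (h1 (W ++ [j])) x ⟨_, hv j⟩
      simp only [qr_apply, map_sub, LinearMap.sub_apply] at h3 ⊢
      linear_combination -h3
    have h3 : ∀ W : List (Fin 2), W.length = k + 1 → ∀ m, c (W.rotate m) - c (W.rotate 0) ∈ O0 b := by
      intro W hW m
      induction m with
      | zero => simp
      | succ m ih =>
        obtain ⟨j, W', hj⟩ := List.exists_cons_of_length_eq_add_one
          (show (W.rotate m).length = k + 1 by simpa using hW)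
        have h4 : W.rotate (m + 1) = W' ++ [j] := by
          rw [← List.rotate_rotate, hj, List.rotate_cons_succ, List.rotate_zero]
        have := sub_mem ih (h2 W' (by simpa [hW] using (congrArg List.length hj).symm) j)
        rwa [hj, sub_sub_sub_cancel_left, ← h4] at this
    have h4 := sum_eq_zero (s := words (Fin 2) (k + 1)) fun W hW =>
      chain R hAS hB hA hδ s hv (fun c hc j h => by
        simpa using hinj (Pi.single j c) (fun j' => by
          rw [Pi.single_apply]
          split_ifs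
          · exact hc
          · exact zero_mem _) (by
            rw [sum_eq_single j (fun j' _ h => by simp [h]) (by simp)]; simpa using h) j)
        W (by rw [mem_words.mp hW]; omega) (mem_words.mp hW ▸ hE) (fun m => c (W.rotate m))
        (h1 _) (h3 W (mem_words.mp hW))
    rw [sum_congr rfl fun W hW => by rw [mem_words.mp hW], sum_comm] at h4
    simp only [sum_words_rotate (k + 1) _ k.succ_pos fun w => (c w * s.Er b w).trace, sum_const,
      card_range, nsmul_eq_mul, mul_eq_zero, Nat.cast_eq_zero, Nat.add_eq_zero_iff, one_ne_zero,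
      and_false, false_or] at h4
    exact hφ ((hc fun w => -s.Er b w).trans (by simp [h4]))
  obtain ⟨⟨x, x'⟩, hx⟩ := key
  obtain ⟨π, hπ⟩ := fm.exists_retr
  let y : List (Fin 2) → (ι → F) × Matrix n n F := fun w =>
    if w.length = k then fm.pp π (x w) else if w.length = k + 1 then fm.pp π (x' w) else 0
  let s' : Sol F n ι (Fin 2) := Sol.ofFun (fun w => s.v w + y w) (by
    simp only [y, List.length_nil]
    rw [if_neg (by omega), if_neg (by omega), add_zero, s.v_nil])
  have h1 : ∀ w, w.length < k → s'.v w = s.v w := fun w hw => by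
    simp only [s', y, Sol.ofFun_v]
    rw [if_neg hw.ne, if_neg (by omega), add_zero]
  have h2 : ∀ w, s'.v w - s.v w = y w := fun w => add_sub_cancel_left _ _
  refine ⟨s', fun w => add_mem (hs w) ?_, h1, fun w hw => ?_⟩
  · simp only [y]
    split_ifs
    · exact fm.pp_mem _ _
    · exact fm.pp_mem _ _
    · exact zero_mem _
  · rcases lt_trichotomy w.length k with h | h | h
    · rw [s.Er0 s' h1 b w h, hE w (by omega)]
    · rw [s.Er1 s' h1 b w h, hE w (by omega), h2]
      simp only [y, h, if_true]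
      rw [← fm.pm_Phi hb, show Phi b (x w) = 0 from (x w).2, map_zero, add_zero]
    · have hw' : w.length = k + 1 := by omega
      have e1 : w = w.headD 0 :: w.tail := by
        rcases w with _ | _
        · simp at hw'
        · rfl
      have e2 : w = w.dropLast ++ [w.getLastD 0] := by
        rcases w.eq_nil_or_concat with rfl | ⟨w, a, rfl⟩
        · simp at hw'
        · simp
      rw [s.Er2 s' h1 b hk e1 e2 (by simp [hw']), h2, h2, h2]
      have := congrArg (fm.pm π) (congrFun hx ⟨w, mem_words.mpr hw'⟩)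
      simp only [Ψ, LinearMap.coe_mk, AddHom.coe_mk, map_add, map_neg, fm.pm_Phi hb,
        fm.pm_sec_right hb π (hs _), fm.pm_sec_left hb π _ (hs _),
        fm.pm_self hπ (s.Er_mem fm hs hb w)] at this
      simp only [y, hw', List.length_tail, List.length_dropLast, Nat.add_sub_cancel, if_true,
        Nat.add_eq_left, one_ne_zero, if_false, this, add_neg_cancel]

end Vale.Agent.P199
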