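import Vale.Agent.P199.Solve1
import Vale.Agent.P199.Limit
import Vale.Agent.P199.ResEx

set_option linter.unusedSectionVars false

namespace Vale.Agent.P199
open Finset Module Submodule Matrix

theorem finrank_map_ge {k V W : Type*} [Field k] [AddCommGroup V] [Module k V] [AddCommGroup W]
    [Module k W] [FiniteDimensional k V] (f : V →ₗ[k] W) {S T : Submodule k V} (h : S ≤ T) :
    finrank k (T.map f) + finrank k S ≤ finrank k (S.map f) + finrank k T := by
  have h1 := finrank_map_add f S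
  have h2 := finrank_map_add f T
  have h3 := Submodule.finrank_mono (inf_le_inf_right (LinearMap.ker f) h)
  omega

variable {F n ι : Type} [Field F] [Fintype n] [DecidableEq n] [Fintype ι] [DecidableEq ι]
  [CharZero F]

theorem exists_pair (fm : Form F n) {b : NC (Matrix n n F) ι} (hb : b ∈ NC.sub fm.D ι)
    (R : Res b) (hAS : AS b) {O₁ : Submodule F (Matrix n n F)} (h01 : O0 b ⊔ O₁ = Ob b)
    (hd : finrank F O₁ ≤ R.ν)
    (hrk : ∀ c ∈ O₁, c ≠ 0 → 3 * R.ν + 2 < finrank F (LinearMap.range (qr b c)))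
    (W : Submodule F (ι → F)) (hW : 4 * R.ν + 2 ≤ finrank F W) :
    ∃ (v : Fin 2 → (ι → F) × Matrix n n F) (hv : ∀ j, v j ∈ Vt b), (∀ j, v j ∈ fm.Rat ι) ∧
      (∀ j l, sec b (v j) (v l) ∈ LinearMap.range (Phi b)) ∧
      (∀ c : Fin 2 → Matrix n n F, (∀ j, c j ∈ Ob b) → ∑ j, qr b (c j) ⟨_, hv j⟩ = 0 →
        ∀ j, c j ∈ O0 b) ∧
      ∀ a : Fin 2 → F, (∀ l ∈ W, ∑ j, a j * ((v j).1 ⬝ᵥ l) = 0) → a = 0 := by
  let ev : (ι → F) →ₗ[F] Dual F W := W.dualRestrict ∘ₗ (dotProductEquiv F ι).toLinearMap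
  have hev : ∀ x (l : W), ev x l = x ⬝ᵥ l := fun _ _ => rfl
  let β : ((ι → F) × Matrix n n F) →ₗ[F] (O₁ × F) →ₗ[F] (Dual F (Vt b) × Dual F W) :=
    LinearMap.mk₂ F (fun v o => ((trB F n).flip o.1 ∘ₗ sec b v ∘ₗ (Vt b).subtype, o.2 • ev v.1))
      (fun _ _ _ => by ext <;> simp [mul_add]) (fun _ _ _ => by ext <;> simp [mul_left_comm])
      (fun _ _ _ => by ext <;> simp [add_mul]) (fun _ _ _ => by ext <;> simp [mul_assoc])
  have hβ : ∀ (v : Vt b) o, β v o = (qr b o.1 v, o.2 • ev v.1.1) := fun _ _ => rfl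
  have key : ∀ o, o ≠ 0 → 3 * R.ν + 2 ≤ finrank F ((Vt b).map (β.flip o)) := by
    rintro ⟨c, a⟩ ho
    by_cases hc : c = 0
    · have ha : a ≠ 0 := by rintro rfl; exact ho (by simp [hc])
      have h1 := finrank_map_add (LinearMap.fst F _ _) (Vt b)
      have h2 : Vt b ⊓ LinearMap.ker (LinearMap.fst F _ _) ≤
          (Diag R.P).map (LinearMap.inr F _ _) := by
        rintro ⟨x, g⟩ ⟨hv, h0⟩
        obtain rfl : x = 0 := h0
        refine ⟨g, R.mem_Diag.mpr ?_, rfl⟩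
        have : Phi b (0, g) = 0 := hv
        simpa [Phi_apply, sub_eq_zero] using this
      have h3 := (Submodule.finrank_mono h2).trans (finrank_map_le _ _)
      have h4 := finrank_map_ge ev (le_top (a := (Vt b).map (LinearMap.fst F _ _)))
      have hsj : Function.Surjective ev :=
        (Subspace.dualRestrict_surjective (W := W)).comp (dotProductEquiv F ι).surjective
      rw [Submodule.map_top, LinearMap.range_eq_top.mpr hsj, finrank_top,
        finrank_top, Subspace.dual_finrank_eq, finrank_fintype_fun_eq_card] at h4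
      have h5 : ((Vt b).map (LinearMap.fst F _ _)).map ev ≤
          ((Vt b).map (β.flip (c, a))).map (LinearMap.snd F _ _) := by
        rintro _ ⟨_, ⟨v, hv, rfl⟩, rfl⟩
        refine ⟨_, ⟨a⁻¹ • v, smul_mem _ _ hv, rfl⟩, ?_⟩
        change a • ev (a⁻¹ • v.1) = ev v.1
        rw [map_smul, smul_inv_smul₀ ha]
      have := (Submodule.finrank_mono h5).trans (finrank_map_le _ _)
      have := finrank_Vt b
      have := R.le_Ob_dim
      have := R.pi_le
      rw [R.finrank_Diag] at h3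
      omega
    · have h1 : LinearMap.range (qr b c) ≤
          ((Vt b).map (β.flip (c, a))).map (LinearMap.fst F _ _) := by
        rintro _ ⟨v, rfl⟩
        exact ⟨_, ⟨v, v.2, rfl⟩, rfl⟩
      have := (Submodule.finrank_mono h1).trans (finrank_map_le _ _)
      have := hrk c c.2 fun h => hc (Subtype.ext h)
      omega
  have hO : finrank F (O₁ × F) ≤ R.ν + 1 := by rw [finrank_prod, finrank_self]; omega
  have pick : ∀ S ≤ Vt b, (∀ π, ∀ v ∈ S, fm.pp π v ∈ S) → finrank F (Vt b) ≤ finrank F S + R.ν →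
      ∀ T : Submodule F (Dual F (Vt b) × Dual F W), finrank F T ≤ R.ν + 1 →
      ∃ v, (v ∈ S ∧ v ∈ fm.Rat ι) ∧ ∀ o, β v o ∈ T → o = 0 := fun S hS hπ h1 T hT =>
    max_rank β (S.toAddSubmonoid ⊓ (fm.Rat ι).toAddSubmonoid) T fun o ho => by
      have h2 := finrank_map_ge (β.flip o) hS
      have h3 := Submodule.finrank_mono (map_mono (f := β.flip o) (fm.le_span_rat S hπ))
      have := key o ho
      refine le_trans ?_ h3
      omega
  have hVt : ∀ π, ∀ v ∈ Vt b, fm.pp π v ∈ Vt b := fun π v hv => by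
    change Phi b _ = 0
    rw [← fm.pm_Phi hb, show Phi b v = 0 from hv, map_zero]
  have hmem : ∀ v v' : Vt b, (∀ c ∈ O₁, qr b c v v' = 0) → sec b v v' ∈ LinearMap.range (Phi b) :=
    fun v v' h => mem_of_perp fun c hc => by
      obtain ⟨c₀, h₀, c₁, h₁, rfl⟩ := mem_sup.mp (h01.ge hc)
      change qr b (c₀ + c₁) v v' = 0
      rw [map_add, show qr b c₀ = 0 from h₀.2, zero_add, h _ h₁]
  obtain ⟨v₁, ⟨h₁, r₁⟩, i₁⟩ := pick (Vt b) le_rfl hVt (by omega) ⊥ (by simp)
  obtain ⟨v₂, ⟨⟨h₂, h₂'⟩, r₂⟩, i₂⟩ := pick (Vt b ⊓ (LinearMap.range (Phi b)).comap (sec b v₁))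
    inf_le_left (fun π v hv => ⟨hVt π v hv.1, by
      obtain ⟨x, hx⟩ := hv.2
      exact ⟨fm.pp π x, by rw [← fm.pm_Phi hb, hx, fm.pm_sec_right hb π r₁]⟩⟩) (by
      let g : _ →ₗ[F] Dual F O₁ := O₁.dualRestrict ∘ₗ trB F n ∘ₗ sec b v₁
      have h3 := finrank_map_add g (Vt b)
      have h4 := ((Vt b).map g).finrank_le
      rw [Subspace.dual_finrank_eq] at h4
      have h5 : Vt b ⊓ LinearMap.ker g ≤ Vt b ⊓ (LinearMap.range (Phi b)).comap (sec b v₁) :=
        fun v hv => ⟨hv.1, hmem ⟨_, h₁⟩ ⟨_, hv.1⟩ fun c hc => LinearMap.congr_fun hv.2 ⟨c, hc⟩⟩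
      have := Submodule.finrank_mono h5
      omega) (LinearMap.range (β v₁)) ((LinearMap.finrank_range_le _).trans hO)
  have hi : ∀ o₁ o₂, β v₁ o₁ + β v₂ o₂ = 0 → o₁ = 0 ∧ o₂ = 0 := fun o₁ o₂ h => by
    obtain rfl := i₂ o₂ ⟨-o₁, by rw [map_neg, neg_eq_iff_add_eq_zero, h]⟩
    exact ⟨i₁ o₁ (by simpa using h), rfl⟩
  have hs : ∀ v : Vt b, sec b v v ∈ LinearMap.range (Phi b) := fun v => mem_of_perp fun c hc =>
    add_self_eq_zero.mp (hAS c hc v v)
  refine ⟨![v₁, v₂], Fin.forall_fin_two.mpr ⟨h₁, h₂⟩, Fin.forall_fin_two.mpr ⟨r₁, r₂⟩,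
    Fin.forall_fin_two.mpr ⟨Fin.forall_fin_two.mpr ⟨hs ⟨_, h₁⟩, h₂'⟩,
      Fin.forall_fin_two.mpr ⟨mem_of_perp fun c hc => ?_, hs ⟨_, h₂⟩⟩⟩, fun c hc h => ?_,
    fun a ha => ?_⟩
  · have := hAS c hc ⟨_, h₁⟩ ⟨_, h₂⟩
    rwa [qr_apply, mem_perp.mp hc _ h₂', zero_add] at this
  · choose c₀ h₀ c₁ h₁' hc' using fun j => mem_sup.mp (h01.ge (hc j))
    have := hi (⟨_, h₁' 0⟩, 0) (⟨_, h₁' 1⟩, 0) (by
      rw [hβ ⟨_, h₁⟩, hβ ⟨_, h₂⟩]
      simp only [← hc', map_add, show ∀ j, qr b (c₀ j) = 0 from fun j => (h₀ j).2, zero_add,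
        Fin.sum_univ_two] at h
      simpa using h)
    simp only [Prod.mk_eq_zero, Submodule.mk_eq_zero, and_true] at this
    refine Fin.forall_fin_two.mpr ⟨?_, ?_⟩
    · rw [← hc', this.1, add_zero]; exact h₀ _
    · rw [← hc', this.2, add_zero]; exact h₀ _
  · have := hi (0, a 0) (0, a 1) (by
      rw [hβ ⟨_, h₁⟩, hβ ⟨_, h₂⟩]
      refine Prod.ext (by simp) (LinearMap.ext fun l => ?_)
      simpa [hev] using ha l l.2)
    simp only [Prod.mk_eq_zero, true_and] at this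
    exact funext (Fin.forall_fin_two.mpr this)

theorem exists_sol (fm : Form F n) {b : NC (Matrix n n F) ι} (hb : b ∈ NC.sub fm.D ι)
    (R : Res b) (hAS : AS b) (hHR : R.HR) {A δ} (hB : Big b A δ) (hA : A + R.pi = R.ν * R.μ ^ 2)
    (hδ : finrank F (Ob b) = A + δ) (W : Submodule F (ι → F)) (hW : 4 * R.ν + 2 ≤ finrank F W) :
    ∃ s : Sol F n ι (Fin 2), (∀ w, s.v w ∈ fm.Rat ι) ∧ s.Er b = 0 ∧
      ∀ a : Fin 2 → F, (∀ l ∈ W, ∑ j, a j * ((s.v [j]).1 ⬝ᵥ l) = 0) → a = 0 := by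
  obtain ⟨O₁, hO, h1, h2⟩ := hHR
  have h3 := bipartite R hAS hB
  have h4 : O0 b ⊓ O₁ = ⊥ := by
    rw [eq_bot_iff]
    rintro c ⟨h, h'⟩
    by_contra hc
    have := h2 c h' hc
    rw [show qr b c = 0 from h.2, LinearMap.range_zero, finrank_bot] at this
    omega
  have h5 := finrank_sup_add_finrank_inf_eq (O0 b) O₁
  rw [h4, finrank_bot] at h5
  have h6 : O0 b ⊔ O₁ ≤ Ob b := sup_le inf_le_left hO
  have h7 := Submodule.finrank_mono h6
  have h8 := R.Ob_le_dim
  have h9 := R.pi_le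
  obtain ⟨v, hv, hr, hiso, hinj, hW⟩ := exists_pair fm hb R hAS
    (eq_of_le_of_finrank_le h6 (by omega)) (by omega) h2 W hW
  choose x hx using hiso
  obtain ⟨π, hπ⟩ := fm.exists_retr
  let T := fun m => {s : Sol F n ι (Fin 2) // (∀ w, s.v w ∈ fm.Rat ι) ∧ (∀ j, s.v [j] = v j) ∧
    ∀ w, w.length < m + 3 → s.Er b w = 0}
  have hone : ((0, 1) : (ι → F) × Matrix n n F) ∈ fm.Rat ι := ⟨fun _ => zero_mem _, one_mem _⟩
  let s₀ : T 0 := ⟨Sol.ofFun (fun w => match w with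
      | [] => (0, 1)
      | [j] => v j
      | [j, l] => -fm.pp π (x j l)
      | _ :: _ :: _ :: _ => 0) rfl, fun w => match w with
      | [] => hone
      | [j] => hr j
      | [j, l] => neg_mem (fm.pp_mem _ _)
      | _ :: _ :: _ :: _ => zero_mem _, fun _ => rfl, fun w hw => match w with
      | [] => Sol.Er_nil _ _
      | [j] => by rw [Sol.Er_one]; exact hv j
      | [j, l] => by
        rw [Sol.Er_two]
        simp only [Sol.ofFun_v, map_neg]
        rw [← fm.pm_Phi hb, hx, fm.pm_self hπ (fm.sec_mem hb (hr j) (hr l)), neg_add_cancel]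
      | _ :: _ :: _ :: _ => by simp at hw; omega⟩
  have step : ∀ m (s : T m), ∃ s' : T (m + 1), ∀ w, w.length < m + 2 → s'.1.v w = s.1.v w := by
    rintro m ⟨s, hs, hs1, hs2⟩
    obtain ⟨s', h, h', h''⟩ := solve_step fm hb R hAS hB (by omega) hδ.le s hs
      (fun j => hs1 j ▸ hv j) (fun c hc h => hinj c hc (by simpa only [hs1] using h))
      (k := m + 2) (by omega) hs2
    exact ⟨⟨s', h, fun j => (h' [j] (by simp)).trans (hs1 j), h''⟩, h'⟩
  choose nx hnx using step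
  let sq : ∀ m, T m := fun m => Nat.rec s₀ nx m
  have hsq : ∀ w : List (Fin 2), ∀ m m', m ≤ m' → w.length < m + 2 →
      (sq m').1.v w = (sq m).1.v w := fun w m m' h hw => by
    induction h with
    | refl => rfl
    | step h ih => exact (hnx _ _ w (by have := Nat.le_eq ▸ h; omega)).trans ih
  let s : Sol F n ι (Fin 2) := Sol.ofFun (fun w => (sq w.length).1.v w) (Sol.v_nil _)
  refine ⟨s, fun w => (sq _).2.1 w, NC.ext fun w => ?_, fun a ha => hW a ?_⟩
  · rw [(sq w.length).1.Er0 s (k := w.length + 1) (fun w' hw' =>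
      (hsq w' _ _ (by omega) (by omega)).symm) b w (by omega)]
    exact (sq _).2.2.2 w (by omega)
  · simpa only [s, Sol.ofFun_v, (sq _).2.2.1] using ha

theorem root_rel {K : Subfield F} {R : Type*} [Ring R] [Algebra F R] {f : Polynomial K}
    (hm : f.Monic) (hf : Irreducible f) {B : R}
    (h : Polynomial.aeval B (f.map (algebraMap K F)) = 0) :
    B = 0 ∨ ∃ (m : ℕ) (c : ℕ → F), (∀ i, c i ∈ K) ∧
      ∑ i ∈ range m, algebraMap _ _ (c i) * B ^ (i + 1) = 1 := by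
  by_cases h0 : f.coeff 0 = 0
  · left
    rw [← Polynomial.eq_of_monic_of_associated Polynomial.monic_X hm
      (Polynomial.irreducible_X.associated_of_dvd hf (Polynomial.X_dvd_iff.mpr h0))] at h
    simpa using h
  · right
    refine ⟨(f.map (algebraMap K F)).natDegree, fun i => (-(f.coeff 0)⁻¹ * f.coeff (i + 1) : K),
      fun _ => Subtype.prop _, ?_⟩
    rw [Polynomial.aeval_eq_sum_range, sum_range_succ', add_eq_zero_iff_eq_neg] at h
    have h0' : (f.coeff 0 : F) ≠ 0 := fun h => h0 (Subtype.ext h)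
    simp only [Polynomial.coeff_map, pow_zero] at h
    simp only [← Algebra.smul_def, Subfield.coe_mul, mul_smul, ← smul_sum]
    erw [h]
    change (-(f.coeff 0 : F)⁻¹) • -((f.coeff 0 : F) • (1 : R)) = 1
    simp [smul_smul, h0']

theorem aeval_semiconj {R : Type*} [Ring R] [Algebra F R] {u a b : R} (h : SemiconjBy u a b)
    (f : Polynomial F) : SemiconjBy u (Polynomial.aeval a f) (Polynomial.aeval b f) := by
  induction f using Polynomial.induction_on' with
  | add p q hp hq => rw [map_add, map_add]; exact hp.add_right hq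
  | monomial m c =>
    rw [Polynomial.aeval_monomial, Polynomial.aeval_monomial]
    exact SemiconjBy.mul_right (Algebra.commutes _ _).symm (h.pow_right m)

/-- The conclusion of the inductive step. -/
def Done (d : St) (b : d.R) : Prop := ∃ (d' : St) (a : Arr d d'),
  a.χ b = 0 ∨ ∃ (m : ℕ) (c : ℕ → d'.F), (∀ i, c i ∈ d'.fm.K) ∧
    ∑ i ∈ range m, algebraMap _ _ (c i) * a.χ b ^ (i + 1) = 1

theorem Done.of_arr {d d' : St} (a : Arr d d') {b : d.R} (h : Done d' (a.χ b)) : Done d b := by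
  obtain ⟨d'', a', h⟩ := h
  exact ⟨d'', a.trans a', h⟩

theorem St.solve (d : St) {b : d.R} (hb : b ∈ d.DR) (R : Res b) (hAS : AS b) (hHR : R.HR) {A δ}
    (hB : Big b A δ) (hA : A + R.pi = R.ν * R.μ ^ 2) (hδ : finrank d.F (Ob b) = A + δ)
    (hW : 4 * R.ν + 2 ≤ finrank d.F (Wz d.A)) : Done d b := by
  obtain ⟨s, hs, hE, hW⟩ := exists_sol d.fm hb R hAS hHR hB hA hδ _ hW
  have scal : ∀ a : d.F, s.χ (algebraMap _ _ a) = algebraMap _ _ (RingHom.id _ a) :=
    fun a => s.hχ.C _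
  have hA : ∀ g ∈ d.A, s.χ g ∈ Algebra.adjoin d.F (Set.range fun j => s.χ (d.x j)) :=
    fun g hg => adjoin_map_mem _ _ scal _ (by
      rintro _ ⟨j, rfl⟩; exact Algebra.subset_adjoin ⟨j, rfl⟩) hg
  let d' : St :=
    { F := d.F, n := d.n, ι := Fin 2, fm := d.fm, x := fun j => s.χ (d.x j)
      hx := fun j => s.χ_mem d.fm hs (d.hx j)
      S0 := fun m => by
        obtain ⟨g, hg, rfl⟩ := d.S0 m
        exact ⟨_, hA g hg, s.χ_nil g⟩
      W2 := by
        have : Wz (Algebra.adjoin d.F (Set.range fun j => s.χ (d.x j))) = ⊤ := by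
          by_contra hne
          obtain ⟨φ, hφ, hφ'⟩ := Submodule.exists_le_ker_of_lt_top _ (lt_top_iff_ne_top.mpr hne)
          obtain ⟨a, rfl⟩ := (dotProductEquiv d.F (Fin 2)).surjective φ
          refine hφ ((congrArg _ (hW a ?_)).trans (map_zero _))
          rintro l ⟨g, hg, h0, h1⟩
          refine hφ' (x := fun j => (s.v [j]).1 ⬝ᵥ l) ⟨_, hA g hg, (s.χ_nil g).trans h0, fun j => ?_⟩
          simp [s.χ_one, lin1_apply, h1, smul_smul, dotProduct, sum_smul, Sol.v]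
        rw [this, finrank_top, finrank_fintype_fun_eq_card, Fintype.card_fin] }
  obtain ⟨f, hm, hf, hf'⟩ := d.fm.exists_irr (hb [])
  refine ⟨d', ⟨RingHom.id _, s.χ, scal, fun _ h => h, fun g hg => s.χ_mem d.fm hs hg,
    fun _ => rfl⟩, root_rel hm hf ?_⟩
  have := aeval_semiconj (u := s.u) (a := NC.C (b [])) (b := s.χ b) (sub_eq_zero.mp hE).symm
    (f.map (algebraMap _ d.F))
  have h2 : Polynomial.aeval (NC.C (b []) : d'.R) (f.map (algebraMap _ d.F)) = 0 := by
    have := Polynomial.aeval_algHom_apply (⟨NC.C, fun _ => rfl⟩ : _ →ₐ[d.F] d'.R) (b [])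
      (f.map (algebraMap _ d.F))
    rwa [Polynomial.aeval_map_algebraMap _ (b []), hf', map_zero] at this
  rw [h2, SemiconjBy, mul_zero, eq_comm, (NC.isUnit_of_nil s.hu).mul_left_eq_zero] at this
  exact this

end Vale.Agent.P199
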