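import Vale.Agent.P199.QL2
import Vale.Agent.P199.Ana2

set_option linter.unusedSectionVars false

namespace Vale.Agent.P199
open Finset Module Submodule Matrix

section Chain
variable {F n E β : Type*} [Field F] [Fintype n] [DecidableEq n] [Fintype E] [DecidableEq E]
  [Fintype β] [DecidableEq β]

variable (F) in
/-- A chain of arrows labelled by a word, with extra arrows from the first vertex. -/
def chainZ (ν : E → ℕ) (L : ℕ) (W : List β) (j : β) : Matrix E E F := of fun r r' =>
  if ν r' ≠ 0 ∧ ν r = (if ν r' < L then ν r' - 1 else 0) ∧ W[ν r]? = some j then 1 else 0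

variable {ν : E → ℕ} {L : ℕ} {W : List β} (hν : Function.Injective ν)
  (hs : ∀ m < L, ∃ s, ν s = m)
include hν hs

theorem chain_step (hW : L ≤ W.length + 1) (r : E) (f : β → E → Matrix n n F)
    (G : List β → Matrix n n F) (p : ℕ → Prop) [DecidablePred p] (T : List β)
    (hf : ∀ j s, f j s = if ν s < L ∧ p (ν s) then G (j :: (W.drop (ν s) ++ T)) else 0) :
    ∑ j, ∑ s, chainZ F ν L W j r s • f j s =
      if ν r + 1 < L ∧ p (ν r + 1) then G (W.drop (ν r) ++ T) else 0 := by
  split_ifs with h
  · obtain ⟨s, hs'⟩ := hs _ h.1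
    have h1 : ν r < W.length := by omega
    rw [sum_eq_single W[ν r], sum_eq_single s]
    · rw [List.drop_eq_getElem_cons h1]
      simp [chainZ, hf, hs', h.1, h.2, h1, -List.getElem_cons_drop]
    · intro s' _ hne
      rw [hf]
      by_cases h2 : ν s' < L
      · rw [chainZ, of_apply, if_neg, zero_smul]
        rintro ⟨h3, h4, -⟩
        rw [if_pos h2] at h4
        exact hne (hν (by omega))
      · simp [h2]
    · simp
    · intro j _ hj
      refine sum_eq_zero fun s _ => ?_
      rw [chainZ, of_apply, if_neg, zero_smul]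
      rintro ⟨-, -, h3⟩
      rw [List.getElem?_eq_getElem h1] at h3
      exact hj (Option.some.inj h3).symm
    · simp
  · refine sum_eq_zero fun j _ => sum_eq_zero fun s _ => ?_
    rw [hf]
    split_ifs with h2
    · rw [chainZ, of_apply, if_neg, zero_smul]
      rintro ⟨h3, h4, -⟩
      rw [if_pos h2.1] at h4
      rw [show ν s = ν r + 1 by omega] at h2
      exact h h2
    · simp

theorem Sb_chain (hW : L ≤ W.length + 1) (l) (g : NC (Matrix n n F) β) (r r') (h : ν r' < L) :
    Sb (chainZ F ν L W) l g r r' =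
      if ν r' = ν r + l then g ((W.take (ν r')).drop (ν r)) else 0 := by
  induction l generalizing g r with
  | zero =>
    by_cases hr : r = r'
    · simp [Sb, hr]
    · simp [Sb, hr, hν.ne (Ne.symm hr)]
  | succ l ih =>
    have := chain_step hν hs hW r (fun j s => Sb (chainZ F ν L W) l (NC.der j g) s r')
      (fun w => g (w.take (l + 1))) (fun m => ν r' = m + l) [] fun j s => by
        rw [ih]
        by_cases h1 : ν r' = ν s + l
        · rw [if_pos h1, if_pos ⟨by omega, h1⟩, h1]
          simp [List.drop_take]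
        · simp [h1]
    rw [Sb, this]
    by_cases h1 : ν r' = ν r + (l + 1)
    · rw [if_pos h1, if_pos ⟨by omega, by omega⟩, h1]
      simp [List.drop_take]
    · rw [if_neg h1, if_neg fun h2 => h1 (by omega)]

theorem Sh_chain (hW : W.length = L) {r₀ r₁ : E} (h₀ : ν r₀ = 0) (h₁ : ν r₁ + 1 = L) (l)
    (g : NC (Matrix n n F) β) (r r') (h : ν r' < L) :
    Sh (chainZ F ν L W) (fun j => if W[ν r₁]? = some j then single r₁ r₀ 1 else 0) l g r r' =
      if ν r < L ∧ l + ν r = L + ν r' then g (W.drop (ν r) ++ W.take (ν r')) else 0 := by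
  induction l generalizing g r with
  | zero => rw [if_neg (by omega)]; rfl
  | succ l ih =>
    have h2 := chain_step hν hs (by omega) r (fun j s => Sh (chainZ F ν L W)
      (fun j => if W[ν r₁]? = some j then single r₁ r₀ 1 else 0) l (NC.der j g) s r')
      g (fun m => l + m = L + ν r') (W.take (ν r')) fun j s => ih _ _
    have h3 : ν r₁ < W.length := by omega
    have h5 : L ≤ W.length + 1 := by omega
    simp only [Sh, sum_add_distrib, h2, Sb_chain hν hs h5 _ _ _ _ h]
    by_cases hr : r = r₁
    · subst hr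
      rw [if_neg (by omega), zero_add, sum_eq_single W[ν r], sum_eq_single r₀]
      · simp only [List.getElem?_eq_getElem h3, if_true, single_apply_same, one_smul, h₀, zero_add,
          List.drop_zero, NC.der_apply]
        rw [List.drop_eq_getElem_cons h3, List.drop_of_length_le (by omega)]
        exact if_congr (by omega) rfl rfl
      · intro s _ hne
        simp [h3, single_apply, Ne.symm hne]
      · simp
      · intro j _ hj
        simp [h3, Ne.symm hj]
      · simp
    · have h4 := hν.ne hr
      rw [sum_eq_zero, add_zero]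
      · exact if_congr (by omega) rfl rfl
      · intro j _
        refine sum_eq_zero fun s _ => ?_
        split_ifs <;> simp [single_apply, Ne.symm hr]

omit hν hs in
theorem chain_gr (hL : 2 ≤ L) : Gr (fun r => if ν r < L then ν r else 1) (chainZ F ν L W) 0 := by
  intro j r r' h
  simp only [chainZ, of_apply, ne_eq, ite_eq_right_iff, one_ne_zero, imp_false, not_not] at h
  obtain ⟨h1, h2, -⟩ := h
  dsimp only
  split_ifs at h2 ⊢ <;> omega

end Chain

variable {F n ι E : Type} [Field F] [Fintype n] [DecidableEq n] [Fintype ι] [DecidableEq ι]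
  [Fintype E] [DecidableEq E]

/-- Obstructions with vanishing quadratic form. -/
def O0 (b : NC (Matrix n n F) ι) : Submodule F (Matrix n n F) := Ob b ⊓ LinearMap.ker (qr b)

theorem Sb_eq_zero {β : Type} [Fintype β] {Z : β → Matrix E E F} {gr : E → ℕ} (hZ : Gr gr Z 0)
    {L} (hL : ∀ r, gr r < L) {g : NC (Matrix n n F) β} (hg : ∀ w, w.length < L → g w = 0)
    (l r r') : Sb Z l g r r' = 0 := by
  by_cases h : l < L
  · exact Sb_low _ _ _ (fun w hw => hg w (hw ▸ h)) _ _
  · exact Sb_gr hZ _ _ _ _ (by have := hL r'; omega)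

section
variable {b : NC (Matrix n n F) ι} {β : Type} [Fintype β] {s : Sol F n ι β}
  {Z : β → Matrix E E F} {gr : E → ℕ} (hZ : Gr gr Z 0) {c} (hc : c ∈ TT b s Z gr)
include hZ hc

theorem TT_ext (x) (H : Matrix E E F) (m) (hH : ∀ r r', H r r' ≠ 0 → gr r' + m = gr r + 1)
    (h : ∀ l < m, ∀ r r', Sh (fun o : Option β => o.elim 0 Z) (fun o => o.elim H fun _ => 0) l
      ((s.ext x).Er b) r r' = 0) : ∑ r, (c r * Sh (fun o : Option β => o.elim 0 Z)
        (fun o => o.elim H fun _ => 0) m ((s.ext x).Er b) r r).trace = 0 := by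
  refine hc.2 _ (s.ext x) _ _ m ?_ ?_
    (fun l i => by rw [← Sb_ext1 Z l _ (algebraMap F _ (x.1 i)), ← NC.map_ext1]; rfl)
    (fun l => Sb_ext1 Z l _ _) h
  · rintro (_ | o) r r' h
    · simp at h
    · exact hZ o r r' h
  · rintro (_ | o) r r' h
    · exact hH r r' h
    · simp at h

theorem TT_T0 (r) : c r ∈ Ob b := by
  refine mem_Ob.mpr ⟨hc.1 r, fun i => ?_⟩
  have := TT_ext hZ hc (Pi.single i 1, 0) (single r r 1) 1 (fun a a' h => by
    simp only [single_apply, ne_eq, ite_eq_right_iff, one_ne_zero, imp_false, not_not] at h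
    rw [← h.1, ← h.2]) fun l hl a a' => by
      obtain rfl : l = 0 := by omega
      rfl
  simpa [Sh_one, Sol.Er_one, Phi_apply, single_apply, apply_ite trace] using this

theorem TT_T1 [DecidableEq β] (hAS : AS b) {r r' j} (hgr : gr r' = gr r + 1)
    (hj : ∀ j', Z j' r r' = if j' = j then 1 else 0) (hv : s.v [j] ∈ Vt b) :
    qr b (c r - c r') ⟨_, hv⟩ = 0 := by
  ext v
  have hne : r ≠ r' := by rintro rfl; omega
  have h0 : Phi b v = 0 := v.2
  have := TT_ext hZ hc v (single r' r 1) 2 (fun a a' h => by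
    simp only [single_apply, ne_eq, ite_eq_right_iff, one_ne_zero, imp_false, not_not] at h
    rw [← h.1, ← h.2, hgr]) fun l hl a a' => by
      rcases l with _ | _ | l
      · rfl
      · simp [Sh_one, Sol.Er_one, h0]
      · omega
  have e1 : ∀ j' a, (Z j' * single r' r (1 : F)) a a =
      if r = a then (if j' = j then 1 else 0) else 0 := fun j' a => by
    by_cases h : r = a
    · simp [← h, hj]
    · simp [Matrix.mul_apply, single_apply, h]
  have e2 : ∀ j' a, (single r' r (1 : F) * Z j') a a =
      if r' = a then (if j' = j then 1 else 0) else 0 := fun j' a => by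
    by_cases h : r' = a
    · simp [← h, hj]
    · simp [Matrix.mul_apply, single_apply, h]
  simp only [Sh_two, Fintype.sum_option, Option.elim, zero_mul, mul_zero, Matrix.zero_apply,
    add_zero, zero_smul, zero_add, sum_const_zero, Sol.Er_two, Sol.ext_sn, Sol.ext_ns,
    Sol.ext_none, Sol.ext_some, map_zero, e1, e2, ite_smul, one_smul, sum_ite_irrel, sum_ite_eq',
    mem_univ, if_true, mul_add, trace_add, sum_add_distrib, mul_ite, apply_ite trace, trace_zero,
    sum_ite_eq] at this
  have h2 := hAS _ (TT_T0 hZ hc r') v ⟨_, hv⟩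
  simp only [qr_apply, map_sub, LinearMap.sub_apply, LinearMap.zero_apply] at h2 ⊢
  linear_combination this - h2

end

theorem finrank_le_pi {M I : Type*} [AddCommGroup M] [Module F M] [FiniteDimensional F M]
    [Fintype I] (S : Submodule F (E → M)) (O : Submodule F M) (f : I → E)
    (h : ∀ c ∈ S, ∀ i, c (f i) ∈ O) :
    finrank F S ≤ Fintype.card I * finrank F O +
      finrank F (S ⊓ LinearMap.ker (LinearMap.funLeft F M f) : Submodule F _) := by
  rw [← finrank_map_add (LinearMap.funLeft F M f) S, add_le_add_iff_right]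
  let g : S.map (LinearMap.funLeft F M f) →ₗ[F] (I → O) :=
    { toFun := fun c i => ⟨c.1 i, by obtain ⟨_, c, hc, rfl⟩ := c; exact h c hc i⟩
      map_add' := fun _ _ => rfl
      map_smul' := fun _ _ => rfl }
  have := LinearMap.finrank_le_finrank_of_injective (f := g) fun c c' h =>
    Subtype.ext (funext fun i => congrArg Subtype.val (congrFun h i))
  simpa [finrank_pi_fintype] using this

/-- Rank bounds at points of arbitrarily large size. -/
def Big (b : NC (Matrix n n F) ι) (A δ : ℕ) : Prop := ∀ e, ∃ (E : Type) (_ : Fintype E)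
  (_ : DecidableEq E) (r : ℕ), e ≤ Fintype.card E ∧ SCP b E r ∧
    r + (Fintype.card E * A + δ) ≤ Fintype.card (n × E) ^ 2

theorem bipartite [CharZero F] {b : NC (Matrix n n F) ι} (R : Res b) (hAS : AS b) {A δ}
    (hB : Big b A δ) : A ≤ finrank F (O0 b) := by
  classical
  let vs := Module.finBasis F (Vt b)
  obtain ⟨E, _, _, r, he, hS, hr⟩ :=
    hB (finrank F (Vt b) * finrank F (Ob b) + finrank F (Vt b) + 1)
  obtain ⟨sk⟩ := Function.Embedding.nonempty_of_card_le (α := Fin (finrank F (Vt b))) (β := E)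
    (by simp; omega)
  let s : Sol F n ι (Fin (finrank F (Vt b))) := Sol.mk' (fun i => NC.aff 0 fun j => (vs j).1.1 i)
    (fun _ => rfl) (NC.aff 1 fun j => (vs j).1.2) rfl
  have hv : ∀ j, s.v [j] = vs j := fun j => rfl
  let gr : E → ℕ := fun r => if r ∈ Set.range sk then 1 else 0
  let Z : Fin (finrank F (Vt b)) → Matrix E E F := fun j =>
    of fun r r' => if r ∉ Set.range sk ∧ r' = sk j then 1 else 0
  have hZ : Gr gr Z 0 := fun j r r' h => by
    simp only [Z, of_apply, ne_eq, ite_eq_right_iff, one_ne_zero, imp_false, not_not] at h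
    simp only [gr, h.1, h.2, Set.mem_range_self, if_true, if_false]
  have h1 := QL R hS s Z gr hZ (Sb_eq_zero hZ (L := 2) (fun r => by
    simp only [gr]; split_ifs <;> omega) fun w hw => by
      rcases w with _ | ⟨j, _ | _⟩
      · exact s.Er_nil b
      · rw [s.Er_one, hv]; exact (vs j).2
      · simp at hw)
  have h2 := finrank_le_pi (TT b s Z gr) (Ob b) sk fun c hc i => TT_T0 hZ hc _
  have h3 := finrank_le_pi (TT b s Z gr ⊓ LinearMap.ker (LinearMap.funLeft F _ sk)) (O0 b) id (by
    rintro c ⟨hc, hc'⟩ r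
    by_cases h : r ∈ Set.range sk
    · obtain ⟨j, rfl⟩ := h
      rw [show c (id (sk j)) = 0 from congrFun hc' j]
      exact zero_mem _
    · refine ⟨TT_T0 hZ hc _, vs.ext fun j => ?_⟩
      have := TT_T1 hZ hc hAS (r := r) (r' := sk j) (j := j) (by simp only [gr, h]; simp)
        (fun j' => by simp only [Z, of_apply, h]; simp [eq_comm]) (vs j).2
      rwa [show c (sk j) = 0 from congrFun hc' j, sub_zero] at this)
  rw [show LinearMap.funLeft F (Matrix n n F) (id : E → E) = LinearMap.id from rfl,
    LinearMap.ker_id, inf_bot_eq, finrank_bot] at h3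
  rw [Fintype.card_fin] at h2
  by_contra hlt
  have := Nat.mul_le_mul_left (Fintype.card E) (show finrank F (O0 b) + 1 ≤ A by omega)
  rw [mul_add] at this
  omega

theorem chain [CharZero F] {b : NC (Matrix n n F) ι} (R : Res b) (hAS : AS b) {A δ}
    (hB : Big b A δ) (hA : finrank F (O0 b) ≤ A) (hδ : finrank F (Ob b) ≤ A + δ)
    {β : Type} [Fintype β] [DecidableEq β] (s : Sol F n ι β) (hv : ∀ j, s.v [j] ∈ Vt b)
    (hinj : ∀ c ∈ Ob b, ∀ j, qr b c ⟨_, hv j⟩ = 0 → c ∈ O0 b) (W : List β) (hL : 2 ≤ W.length)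
    (hE : ∀ w, w.length < W.length → s.Er b w = 0) (c : ℕ → Matrix n n F) (hc₀ : c 0 ∈ Ob b)
    (hc : ∀ m, c m - c 0 ∈ O0 b) :
    ∑ m ∈ range W.length, (c m * s.Er b (W.rotate m)).trace = 0 := by
  obtain ⟨E, _, _, r, he, hS, hr⟩ := hB W.length
  set L := W.length
  let ν : E → ℕ := fun r => Fintype.equivFin E r
  have hν : Function.Injective ν := Fin.val_injective.comp (Fintype.equivFin E).injective
  have hs' : ∀ m < Fintype.card E, ∃ s, ν s = m := fun m hm =>
    ⟨(Fintype.equivFin E).symm ⟨m, hm⟩, by simp [ν]⟩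
  have hs : ∀ m < L, ∃ s, ν s = m := fun m hm => hs' m (by omega)
  obtain ⟨r₀, h₀⟩ := hs 0 (by omega)
  obtain ⟨r₁, h₁⟩ := hs (L - 1) (by omega)
  have hZ := chain_gr (F := F) (ν := ν) (W := W) hL
  set gr : E → ℕ := fun r => if ν r < L then ν r else 1 with hgr
  have h1 := QL R hS s _ _ hZ (Sb_eq_zero hZ (L := L) (fun r => by
    simp only [gr]; split_ifs <;> omega) hE)
  let T : Submodule F (E → Matrix n n F) := (Ob b).comap (LinearMap.proj r₀) ⊓
    ⨅ r, (O0 b).comap (LinearMap.proj (R := F) (φ := fun _ : E => Matrix n n F) r -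
      LinearMap.proj (R := F) (φ := fun _ : E => Matrix n n F) r₀)
  have hT : ∀ c, c ∈ T ↔ c r₀ ∈ Ob b ∧ ∀ r, c r - c r₀ ∈ O0 b := fun c => by simp [T]
  have h2 : TT b s (chainZ F ν L W) gr ≤ T := fun c hc => by
    refine (hT c).mpr ⟨TT_T0 hZ hc _, ?_⟩
    have : ∀ m r, ν r = m → c r - c r₀ ∈ O0 b := by
      intro m
      induction m using Nat.strong_induction_on with
      | _ m ih =>
        intro r hr
        by_cases hm : m = 0
        · rw [hν (hr.trans (hm.trans h₀.symm)), sub_self]; exact zero_mem _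
        obtain ⟨r', hr'⟩ := hs (if m < L then m - 1 else 0) (by split_ifs <;> omega)
        have h3 : ν r' < W.length := by split_ifs at hr' <;> omega
        have h4 := hinj _ (sub_mem (TT_T0 hZ hc r') (TT_T0 hZ hc r)) _
          (TT_T1 hZ hc hAS (j := W[ν r']) (by
            simp only [gr, hr, hr']; split_ifs <;> omega) (fun j' => by
              simp [chainZ, hr, hm, ← hr', h3, eq_comm]) (hv _))
        have := sub_mem (ih (ν r') (by split_ifs at hr' <;> omega) r' rfl) h4
        rwa [sub_sub_sub_cancel_left] at this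
    exact fun r => this _ r rfl
  have h3 := finrank_le_pi T (Ob b) (fun _ : Unit => r₀) fun c hc _ => ((hT c).mp hc).1
  have h4 := finrank_le_pi (T ⊓ LinearMap.ker (LinearMap.funLeft F _ fun _ : Unit => r₀)) (O0 b)
    (Subtype.val : {r // r ≠ r₀} → E) (by
      rintro c ⟨hc, hc'⟩ r
      simpa [show c r₀ = 0 from congrFun hc' ()] using ((hT c).mp hc).2 r)
  have h5 : (T ⊓ LinearMap.ker (LinearMap.funLeft F _ fun _ : Unit => r₀)) ⊓
      LinearMap.ker (LinearMap.funLeft F _ (Subtype.val : {r // r ≠ r₀} → E)) = ⊥ := by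
    rw [eq_bot_iff]
    rintro c ⟨⟨-, h⟩, h'⟩
    refine funext fun r => ?_
    by_cases hr : r = r₀
    · rw [hr]; exact congrFun h ()
    · exact congrFun h' ⟨r, hr⟩
  rw [h5, finrank_bot, Fintype.card_subtype_compl, Fintype.card_subtype_eq] at h4
  have h6 : TT b s (chainZ F ν L W) gr = T := by
    refine eq_of_le_of_finrank_le h2 ?_
    have := Nat.mul_le_mul_left (Fintype.card E - 1) hA
    rw [Nat.sub_mul (Fintype.card E) 1 A] at this
    have : A ≤ Fintype.card E * A := Nat.le_mul_of_pos_left _ (by omega)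
    simp only [Fintype.card_unique] at h3
    omega
  have h7 : (fun r => if ν r < L then c (ν r) else c 0) ∈ TT b s (chainZ F ν L W) gr := by
    rw [h6, hT, h₀, ite_self]
    refine ⟨hc₀, fun r => ?_⟩
    split_ifs
    · exact hc _
    · rw [sub_self]; exact zero_mem _
  have h8 := h7.2 β s _ (fun j => if W[ν r₁]? = some j then single r₁ r₀ 1 else 0) L hZ
    (fun j a a' h => by
      dsimp only at h
      split_ifs at h
      · simp only [single_apply, ne_eq, ite_eq_right_iff, one_ne_zero, imp_false, not_not] at h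
        simp only [gr, ← h.1, ← h.2, h₀, h₁]
        split_ifs <;> omega
      · simp at h) (fun _ _ => rfl) (fun _ => rfl)
    fun l hl a a' => Sh_low _ _ _ _ (fun w hw => hE w (hw ▸ hl)) _ _
  rw [← h8]
  have h9 : ∀ r, ((if ν r < L then c (ν r) else c 0) * Sh (chainZ F ν L W)
      (fun j => if W[ν r₁]? = some j then single r₁ r₀ 1 else 0) L (s.Er b) r r).trace =
      if ν r < L then (c (ν r) * s.Er b (W.rotate (ν r))).trace else 0 := fun r => by
    split_ifs with h
    · rw [Sh_chain hν hs rfl h₀ (by omega) _ _ _ _ h, if_pos ⟨h, rfl⟩,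
        List.rotate_eq_drop_append_take h.le]
    · obtain ⟨l, hl⟩ : ∃ l, L = l + 1 := ⟨L - 1, by omega⟩
      have : Sh (chainZ F ν L W) (fun j => if W[ν r₁]? = some j then single r₁ r₀ 1 else 0)
          (l + 1) (s.Er b) r r = 0 := sum_eq_zero fun j _ => sum_eq_zero fun a _ => by
        have h2 : r₁ ≠ r := by rintro rfl; omega
        rw [chainZ, of_apply, if_neg (by rintro ⟨-, h, -⟩; split_ifs at h <;> omega)]
        dsimp only
        split_ifs <;> simp [single_apply, h2]
      rw [← hl] at this
      rw [this, mul_zero, trace_zero]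
  simp only [h9]
  rw [(Fintype.equivFin E).sum_comp fun i : Fin _ =>
      if (i : ℕ) < L then (c i * s.Er b (W.rotate i)).trace else 0,
    Fin.sum_univ_eq_sum_range fun i => if i < L then (c i * s.Er b (W.rotate i)).trace else 0,
    ← sum_filter]
  congr 1
  ext i
  simp only [mem_range, mem_filter]
  omega

end Vale.Agent.P199
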